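import Vale.Agent.P147.Defs

/-! Finite paths, their weights, and sums over families of paths. -/

namespace Vale.Agent.P147

open MeasureTheory Finset
open scoped ENNReal

open Classical in
/-- The indicator of a proposition. -/
noncomputable def ind (p : Prop) : ℝ≥0∞ := if p then 1 else 0

lemma ind_pos {p : Prop} (h : p) : ind p = 1 := by simp [ind, h]

lemma ind_neg {p : Prop} (h : ¬p) : ind p = 0 := by simp [ind, h]

lemma ind_le_one (p : Prop) : ind p ≤ 1 := by unfold ind; split_ifs <;> simp

lemma ind_ne_top (p : Prop) : ind p ≠ ∞ := ne_top_of_le_ne_top ENNReal.one_ne_top (ind_le_one p)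

lemma ind_mono {p q : Prop} (h : p → q) : ind p ≤ ind q := by
  by_cases hp : p
  · rw [ind_pos hp, ind_pos (h hp)]
  · rw [ind_neg hp]; exact zero_le

lemma ind_congr {p q : Prop} (h : p ↔ q) : ind p = ind q := by rw [propext h]

lemma ind_and (p q : Prop) : ind (p ∧ q) = ind p * ind q := by
  by_cases hp : p <;> by_cases hq : q <;> simp [ind, hp, hq]

lemma ind_or_le (p q : Prop) : ind (p ∨ q) ≤ ind p + ind q := by
  by_cases hp : p <;> by_cases hq : q <;> simp [ind, hp, hq]

lemma ind_add_not (p : Prop) : ind p + ind (¬p) = 1 := by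
  by_cases hp : p <;> simp [ind, hp]

lemma ind_le_of {p : Prop} {a : ℝ≥0∞} (h : p → 1 ≤ a) : ind p ≤ a := by
  by_cases hp : p
  · rw [ind_pos hp]; exact h hp
  · rw [ind_neg hp]; exact zero_le

lemma ind_mul_le_of {p : Prop} {a b : ℝ≥0∞} (h : p → a ≤ b) : ind p * a ≤ b := by
  by_cases hp : p
  · rw [ind_pos hp, one_mul]; exact h hp
  · rw [ind_neg hp, zero_mul]; exact zero_le

lemma ind_exists_le {ι : Type*} (p : ι → Prop) : ind (∃ i, p i) ≤ ∑' i, ind (p i) := by
  apply ind_le_of
  rintro ⟨i, hi⟩
  exact (ind_pos hi).symm.le.trans (ENNReal.le_tsum (f := fun i => ind (p i)) i)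

lemma tsum_ind_eq {ι : Type*} (a : ι) (g : ι → ℝ≥0∞) : ∑' i, ind (i = a) * g i = g a := by
  rw [tsum_eq_single a]
  · rw [ind_pos rfl, one_mul]
  · intro b hb; rw [ind_neg hb, zero_mul]

/-- At most one index satisfies `p`. -/
lemma tsum_ind_le_of_unique {ι : Type*} {p : ι → Prop} {g : ι → ℝ≥0∞} {C : ℝ≥0∞}
    (hu : ∀ i j, p i → p j → i = j) (hg : ∀ i, p i → g i ≤ C) : ∑' i, ind (p i) * g i ≤ C := by
  by_cases h : ∃ i, p i
  · obtain ⟨a, ha⟩ := h
    rw [tsum_eq_single a]
    · exact ind_mul_le_of fun h => hg a h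
    · intro b hb
      rw [ind_neg fun h => hb (hu _ _ h ha), zero_mul]
  · have : ∀ i, ind (p i) * g i = 0 := fun i => by rw [ind_neg fun hi => h ⟨i, hi⟩, zero_mul]
    simp [this]

/-- Comparison of sums along a map which is injective on the support. -/
lemma tsum_ind_le_of_injOn {ι κ : Type*} {p : ι → Prop} {g : ι → ℝ≥0∞} {G : κ → ℝ≥0∞}
    (φ : ι → κ) (hφ : ∀ i j, p i → p j → φ i = φ j → i = j) (hg : ∀ i, p i → g i ≤ G (φ i)) :
    ∑' i, ind (p i) * g i ≤ ∑' k, G k := by
  calc ∑' i, ind (p i) * g i ≤ ∑' i, ∑' k, ind (p i ∧ φ i = k) * G k := by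
        refine ENNReal.tsum_le_tsum fun i => ind_mul_le_of fun hi => ?_
        refine le_trans ?_ (ENNReal.le_tsum (φ i))
        rw [ind_pos ⟨hi, rfl⟩, one_mul]; exact hg i hi
    _ = ∑' k, ∑' i, ind (p i ∧ φ i = k) * G k := ENNReal.tsum_comm
    _ ≤ ∑' k, G k := ENNReal.tsum_le_tsum fun k => tsum_ind_le_of_unique
        (fun i j hi hj => hφ i j hi.1 hj.1 (hi.2.trans hj.2.symm)) fun _ _ => le_rfl

/-- Separated points in an interval. -/
lemma tsum_ind_sep {ι : Type*} {p : ι → Prop} (g : ι → ℝ) {L x₀ : ℝ} (hL : 0 < L) (J : ℕ)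
    (hsep : ∀ i j, p i → p j → i ≠ j → L ≤ |g i - g j|)
    (hin : ∀ i, p i → x₀ ≤ g i ∧ g i < x₀ + J * L) : ∑' i, ind (p i) ≤ J := by
  have h := tsum_ind_le_of_injOn (p := p) (g := fun _ => 1) (G := fun k : ℕ => ind (k < J))
    (fun i => ⌊(g i - x₀) / L⌋₊) ?_ ?_
  · simp only [mul_one] at h
    refine h.trans ?_
    rw [tsum_eq_sum (s := range J) (by intro b hb; exact ind_neg (by simpa using hb))]
    calc ∑ k ∈ range J, ind (k < J) ≤ ∑ k ∈ range J, (1 : ℝ≥0∞) :=
          sum_le_sum fun k _ => ind_le_one _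
      _ = J := by simp
  · intro i j hi hj he
    by_contra hne
    have h1 := hsep i j hi hj hne
    have a1 : 0 ≤ (g i - x₀) / L := div_nonneg (by linarith [(hin i hi).1]) hL.le
    have a2 : 0 ≤ (g j - x₀) / L := div_nonneg (by linarith [(hin j hj).1]) hL.le
    have b1 := Nat.floor_le a1
    have b2 := Nat.floor_le a2
    have c1 := Nat.lt_floor_add_one ((g i - x₀) / L)
    have c2 := Nat.lt_floor_add_one ((g j - x₀) / L)
    rw [he] at b1 c1
    rw [le_div_iff₀ hL] at b1 b2
    rw [div_lt_iff₀ hL] at c1 c2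
    have : |g i - g j| < L := by rw [abs_lt]; constructor <;> linarith
    linarith
  · intro i hi
    have a1 : 0 ≤ (g i - x₀) / L := div_nonneg (by linarith [(hin i hi).1]) hL.le
    rw [ind_pos]
    rw [Nat.floor_lt a1, div_lt_iff₀ hL]
    linarith [(hin i hi).2]

lemma tsum_list {α : Type*} (g : List α → ℝ≥0∞) :
    ∑' l, g l = g [] + ∑' a, ∑' l, g (a :: l) := by
  let e : Option (α × List α) ≃ List α :=
    { toFun := fun o => o.elim [] fun p => p.1 :: p.2
      invFun := fun l => match l with
        | [] => none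
        | a :: l => some (a, l)
      left_inv := by rintro (_ | ⟨a, l⟩) <;> rfl
      right_inv := by rintro (_ | ⟨a, l⟩) <;> rfl }
  rw [← e.tsum_eq, ← (Equiv.optionEquivSumPUnit.{0} (α × List α)).symm.tsum_eq,
    Summable.tsum_sum ENNReal.summable ENNReal.summable, add_comm, ENNReal.tsum_prod']
  simp [e]

lemma tsum_eq_iSup_length {α : Type*} (g : List α → ℝ≥0∞) :
    ∑' l, g l = ⨆ n : ℕ, ∑' l, ind (l.length ≤ n) * g l := by
  apply le_antisymm
  · rw [ENNReal.tsum_eq_iSup_sum]
    refine iSup_le fun s => le_iSup_of_le (s.sup List.length) ?_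
    refine le_trans (sum_le_sum fun l hl => ?_) (ENNReal.sum_le_tsum s)
    rw [ind_pos (le_sup (f := List.length) hl), one_mul]
  · exact iSup_le fun n => ENNReal.tsum_le_tsum fun l => ind_mul_le_of fun _ => le_rfl

/-- A consistent weight on lists. -/
def Cons {α : Type*} (v : List α → ℝ≥0∞) : Prop := ∀ l, ∑' e, v (l ++ [e]) = v l

/-- If `φ` has total mass at most `C` along every path, its mean total mass is at most `C`. -/
lemma Cons.psum {α : Type*} {v : List α → ℝ≥0∞} (hv : Cons v) (a : List α)
    (φ : List α → ℝ≥0∞) (C : ℝ≥0∞) (h : ∀ X : List α, ∑' p, ind (p <+: X) * φ p ≤ C) :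
    ∑' p, v (a ++ p) * φ p ≤ C * v a := by
  rw [tsum_eq_iSup_length]
  refine iSup_le fun n => ?_
  induction n generalizing a φ C with
  | zero =>
    rw [tsum_eq_single []]
    · have := h []
      rw [tsum_eq_single [] (by intro b hb; rw [ind_neg (by simpa using hb), zero_mul]),
        ind_pos List.nil_prefix, one_mul] at this
      rw [ind_pos (by simp), one_mul, List.append_nil, mul_comm]
      exact mul_le_mul_left this _
    · intro b hb
      rw [ind_neg (by simpa using hb), zero_mul]
  | succ n ih =>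
    set D : α → ℝ≥0∞ := fun e => ⨆ X : List α, ∑' p, ind (p <+: X) * φ (e :: p) with hD
    have h1 : ∀ e, φ [] + D e ≤ C := by
      intro e
      rw [hD, ENNReal.add_iSup]
      refine iSup_le fun X => le_trans ?_ (h (e :: X))
      rw [tsum_list (fun p => ind (p <+: e :: X) * φ p), ind_pos List.nil_prefix, one_mul]
      refine add_le_add_right (le_trans (le_of_eq ?_) (ENNReal.le_tsum e)) _
      congr with p
      rw [ind_congr (List.prefix_cons_inj e)]
    have h2 : ∀ e, ∑' l, ind ((e :: l).length ≤ n + 1) * (v (a ++ e :: l) * φ (e :: l))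
        ≤ D e * v (a ++ [e]) := by
      intro e
      have := ih (a ++ [e]) (fun p => φ (e :: p)) (D e) fun X =>
        le_iSup (fun X : List α => ∑' p, ind (p <+: X) * φ (e :: p)) X
      simpa using this
    rw [tsum_list, ind_pos (by simp), one_mul, List.append_nil]
    calc v a * φ [] + ∑' e, ∑' l,
          ind ((e :: l).length ≤ n + 1) * (v (a ++ e :: l) * φ (e :: l))
        ≤ φ [] * ∑' e, v (a ++ [e]) + ∑' e, D e * v (a ++ [e]) := by
          rw [hv a, mul_comm]
          exact add_le_add_right (ENNReal.tsum_le_tsum h2) _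
      _ = ∑' e, (φ [] + D e) * v (a ++ [e]) := by
          rw [← ENNReal.tsum_mul_left, ← ENNReal.tsum_add]
          congr with e; ring
      _ ≤ ∑' e, C * v (a ++ [e]) := ENNReal.tsum_le_tsum fun e => mul_le_mul_left (h1 e) _
      _ = C * v a := by rw [ENNReal.tsum_mul_left, hv a]

/-- Prefix free families. -/
lemma Cons.pf {α : Type*} {v : List α → ℝ≥0∞} (hv : Cons v) (a : List α)
    (F : List α → Prop) (hF : ∀ p q, F p → F q → p <+: q → p = q) :
    ∑' p, ind (F p) * v (a ++ p) ≤ v a := by
  have := hv.psum a (fun p => ind (F p)) 1 fun X => by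
    have h := tsum_ind_le_of_unique (p := fun p => p <+: X ∧ F p) (g := fun _ => 1) (C := 1)
      (fun p q hp hq => by
        rcases List.prefix_or_prefix_of_prefix hp.1 hq.1 with h | h
        · exact hF p q hp.2 hq.2 h
        · exact (hF q p hq.2 hp.2 h).symm) fun _ _ => le_rfl
    simpa only [ind_and, mul_one] using h
  simpa only [one_mul, mul_one, mul_comm] using this

lemma Cons.le {α : Type*} {v : List α → ℝ≥0∞} (hv : Cons v) (a p : List α) :
    v (a ++ p) ≤ v a := by
  have := hv.pf a (fun q => q = p) fun _ _ h1 h2 _ => h1.trans h2.symm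
  rwa [tsum_ind_eq p fun q => v (a ++ q)] at this

lemma Cons.level {α : Type*} {v : List α → ℝ≥0∞} (hv : Cons v) (a : List α) (n : ℕ) :
    ∑' p : List α, ind (p.length = n) * v (a ++ p) = v a := by
  induction n generalizing a with
  | zero =>
    simp only [List.length_eq_zero_iff]
    rw [tsum_ind_eq [] fun p => v (a ++ p), List.append_nil]
  | succ n ih =>
    rw [tsum_list, ind_neg (by simp), zero_mul, zero_add, ← hv a]
    congr with e
    rw [← ih (a ++ [e])]
    simp

/-- Prefix free families of extensions of `a`, indexed by the whole list. -/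
lemma Cons.pf' {α : Type*} {v : List α → ℝ≥0∞} (hv : Cons v) (a : List α)
    (F : List α → Prop) (ha : ∀ p, F p → a <+: p) (hF : ∀ p q, F p → F q → p <+: q → p = q) :
    ∑' p, ind (F p) * v p ≤ v a := by
  refine le_trans ?_ (hv.pf a (fun q => F (a ++ q)) fun p q hp hq h =>
    List.append_cancel_left (hF _ _ hp hq ((List.prefix_append_right_inj a).2 h)))
  refine tsum_ind_le_of_injOn (fun p => p.drop a.length) ?_ ?_
  · intro p q hp hq h
    obtain ⟨p', rfl⟩ := ha p hp
    obtain ⟨q', rfl⟩ := ha q hq
    simp only [List.drop_left] at h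
    rw [h]
  · intro p hp
    obtain ⟨p', rfl⟩ := ha p hp
    rw [List.drop_left, ind_pos hp, one_mul]

variable {d : ℕ}

/-- Displacement of a path. -/
def disp (l : List (Step d)) : Site d := (l.map vec).sum

@[simp] lemma disp_nil : disp ([] : List (Step d)) = 0 := rfl

@[simp] lemma disp_cons (e : Step d) (l : List (Step d)) : disp (e :: l) = vec e + disp l := by
  simp [disp]

@[simp] lemma disp_append (l l' : List (Step d)) : disp (l ++ l') = disp l + disp l' := by
  simp [disp]

/-- Quenched weight of the path with steps `l` started at `x`. -/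
noncomputable def wq (ω : Site d → Step d → ℝ≥0∞) : Site d → List (Step d) → ℝ≥0∞
  | _, [] => 1
  | x, e :: l => ω x e * wq ω (x + vec e) l

@[simp] lemma wq_nil (ω : Site d → Step d → ℝ≥0∞) (x : Site d) : wq ω x [] = 1 := rfl

@[simp] lemma wq_cons (ω : Site d → Step d → ℝ≥0∞) (x : Site d) (e : Step d)
    (l : List (Step d)) : wq ω x (e :: l) = ω x e * wq ω (x + vec e) l := rfl

lemma wq_append (ω : Site d → Step d → ℝ≥0∞) (x : Site d) (l l' : List (Step d)) :
    wq ω x (l ++ l') = wq ω x l * wq ω (x + disp l) l' := by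
  induction l generalizing x with
  | nil => simp
  | cons e l ih => simp [ih, mul_assoc, add_assoc]

lemma cons_wq {ω : Site d → Step d → ℝ≥0∞} (h : ∀ x, ∑ e, ω x e = 1) (x : Site d) :
    Cons (wq ω x) := by
  intro l
  simp only [wq_append, wq_cons, wq_nil, mul_one]
  rw [ENNReal.tsum_mul_left, tsum_fintype, h, mul_one]

/-- The sites from which the path with steps `l` started at `x` jumps. -/
def sites (x : Site d) (l : List (Step d)) : Set (Site d) :=
  {z | ∃ p, p <+: l ∧ p ≠ l ∧ z = x + disp p}

@[simp] lemma sites_nil (x : Site d) : sites x [] = ∅ := by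
  ext z; simp [sites]

lemma sites_cons (x : Site d) (e : Step d) (l : List (Step d)) :
    sites x (e :: l) = insert x (sites (x + vec e) l) := by
  ext z
  simp only [sites, Set.mem_ofPred_eq, Set.mem_insert_iff]
  constructor
  · rintro ⟨p, hp, hne, rfl⟩
    rcases List.prefix_cons_iff.1 hp with rfl | ⟨t, rfl, ht⟩
    · left; simp
    · right
      exact ⟨t, ht, fun h => hne (by rw [h]), by simp [add_assoc]⟩
  · rintro (rfl | ⟨p, hp, hne, rfl⟩)
    · exact ⟨[], List.nil_prefix, by simp, by simp⟩
    · exact ⟨e :: p, (List.prefix_cons_inj e).2 hp, by simpa using hne, by simp [add_assoc]⟩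

/-- The abstract properties of an iid elliptic environment. -/
structure Model (d : ℕ) (Ω : Type) [MeasurableSpace Ω] where
  P : Measure Ω
  prob : IsProbabilityMeasure P
  ω : Ω → Site d → Step d → ℝ≥0∞
  row : ∀ η x, ∑ e, ω η x e = 1
  meas : ∀ x e, Measurable fun η => ω η x e
  pos : ∀ᵐ η ∂P, ∀ x e, ω η x e ≠ 0
  W : List (Step d) → ℝ≥0∞
  hW : ∀ x l, ∫⁻ η, wq (ω η) x l ∂P = W l
  hind : ∀ x l y l', Disjoint (sites x l) (sites y l') →
    ∫⁻ η, wq (ω η) x l * wq (ω η) y l' ∂P = W l * W l'

namespace Model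

variable {Ω : Type} [MeasurableSpace Ω] (M : Model d Ω)

lemma meas_wq (x : Site d) (l : List (Step d)) : Measurable fun η => wq (M.ω η) x l := by
  induction l generalizing x with
  | nil => simp
  | cons e l ih => exact (M.meas x e).mul (ih _)

lemma W_nil : M.W [] = 1 := by
  have := M.prob
  rw [← M.hW 0 []]; simp

lemma cons : Cons M.W := by
  intro l
  simp only [← M.hW 0]
  rw [← lintegral_tsum fun e => (M.meas_wq 0 _).aemeasurable]
  congr with η
  exact cons_wq (M.row η) 0 l

lemma W_le_one (l : List (Step d)) : M.W l ≤ 1 := by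
  simpa [M.W_nil] using M.cons.le [] l

lemma W_ne_top (l : List (Step d)) : M.W l ≠ ∞ :=
  ne_top_of_le_ne_top ENNReal.one_ne_top (M.W_le_one l)

lemma W_append {l l' : List (Step d)} (h : Disjoint (sites 0 l) (sites (disp l) l')) :
    M.W (l ++ l') = M.W l * M.W l' := by
  rw [← M.hind 0 l (disp l) l' h, ← M.hW 0]
  simp only [wq_append, zero_add]

lemma wq_pos : ∀ᵐ η ∂M.P, ∀ x l, wq (M.ω η) x l ≠ 0 := by
  filter_upwards [M.pos] with η h x l
  induction l generalizing x with
  | nil => simp
  | cons e l ih => exact mul_ne_zero (h x e) (ih _)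

lemma W_ne_zero (l : List (Step d)) : M.W l ≠ 0 := by
  have := M.prob
  rw [← M.hW 0 l]
  intro h
  rw [lintegral_eq_zero_iff (M.meas_wq 0 l)] at h
  have h2 : ∀ᵐ η ∂M.P, False := by
    filter_upwards [h, M.wq_pos] with η h1 h2
    exact h2 0 l h1
  exact IsProbabilityMeasure.ne_zero M.P (by simpa using h2)

end Model

/-- A direction: a linear functional and a step which maximises it. -/
structure Dir (d : ℕ) where
  h : Site d →+ ℝ
  e : Step d
  L : ℝ
  hL : 0 < L
  he : h (vec e) = L
  hle : ∀ e', |h (vec e')| ≤ L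

lemma vec_flip (e : Step d) : vec (e.1, !e.2) = -vec e := by
  obtain ⟨i, b⟩ := e
  cases b <;> simp [vec, Pi.single_neg]

namespace Dir

variable (D : Dir d)

/-- The opposite direction. -/
def neg : Dir d where
  h := -D.h
  e := (D.e.1, !D.e.2)
  L := D.L
  hL := D.hL
  he := by simp [vec_flip, D.he]
  hle := fun e => by simpa using D.hle e

/-- The level of the endpoint of a path. -/
def lev (l : List (Step d)) : ℝ := D.h (disp l)

@[simp] lemma lev_nil : D.lev [] = 0 := by simp [lev]

@[simp] lemma lev_append (l l' : List (Step d)) : D.lev (l ++ l') = D.lev l + D.lev l' := by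
  simp [lev]

@[simp] lemma lev_single : D.lev [D.e] = D.L := by simp [lev, D.he]

@[simp] lemma neg_lev (l : List (Step d)) : D.neg.lev l = -D.lev l := by simp [lev, neg]

@[simp] lemma neg_L : D.neg.L = D.L := rfl

lemma abs_lev_le (l : List (Step d)) : |D.lev l| ≤ l.length * D.L := by
  induction l with
  | nil => simp
  | cons e l ih =>
    have : D.lev (e :: l) = D.h (vec e) + D.lev l := by simp [lev]
    rw [this, List.length_cons]
    push_cast
    linarith [abs_add_le (D.h (vec e)) (D.lev l), D.hle e]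

/-- The path never goes below its starting level. -/
def Above (l : List (Step d)) : Prop := ∀ p, p <+: l → 0 ≤ D.lev p

/-- All earlier points are strictly below the endpoint. -/
def Fresh (l : List (Step d)) : Prop := ∀ p, p <+: l → p ≠ l → D.lev p < D.lev l

/-- First passage above the level `a` without going below the starting level. -/
def FP (a : ℝ) (l : List (Step d)) : Prop :=
  D.Above l ∧ a ≤ D.lev l ∧ ∀ p, p <+: l → p ≠ l → D.lev p < a

/-- The path started at `y` ends at its first visit to a negative level, and stays at levels at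
most `b` before. -/
def Exit (b : ℝ) (y : Site d) (l : List (Step d)) : Prop :=
  D.h y + D.lev l < 0 ∧ ∀ p, p <+: l → p ≠ l → 0 ≤ D.h y + D.lev p ∧ D.h y + D.lev p ≤ b

end Dir

/-- Probability of reaching the level `a` before going below the starting level. -/
noncomputable def Model.u {Ω : Type} [MeasurableSpace Ω] (M : Model d Ω) (D : Dir d) (a : ℝ) :
    ℝ≥0∞ := ∑' l, ind (D.FP a l) * M.W l

/-- The weight of a fresh path followed by a path staying above factorises. -/
lemma Model.W_fresh {Ω : Type} [MeasurableSpace Ω] (M : Model d Ω) (D : Dir d)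
    {l l' : List (Step d)} (h : D.Fresh l) (h' : D.Above l') :
    M.W (l ++ l') = M.W l * M.W l' := by
  apply M.W_append
  rw [Set.disjoint_left]
  rintro z ⟨p, hp, hne, rfl⟩ ⟨q, hq, _, he⟩
  have h1 := h p hp hne
  have h2 := h' q hq
  have h3 := congrArg D.h he
  simp only [zero_add, map_add] at h3
  simp only [Dir.lev] at h1 h2
  linarith

end Vale.Agent.P147
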