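import Vale.Agent.P147.PDefs

/-! A maximal inequality and the insensitivity of sums to shifts. -/

namespace Vale.Agent.P147

open MeasureTheory ProbabilityTheory Finset Filter
open scoped ENNReal

variable {Γ : Type*} {f : Γ → ℝ≥0∞}

/-- The maximum of the centred initial sums. -/
noncomputable def garsiaMx (g : Γ → ℝ≥0∞) (a : ℝ≥0∞) : List Γ → ℝ≥0∞
  | [] => 0
  | γ :: l => g γ + garsiaMx g a l - a

lemma garsia_take (g : Γ → ℝ≥0∞) (a : ℝ≥0∞) (l : List Γ) (j : ℕ) :
    ((l.take j).map g).sum ≤ garsiaMx g a l + j * a := by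
  induction l generalizing j with
  | nil => simp
  | cons γ l ih =>
    cases j with
    | zero => simp
    | succ j =>
      simp only [List.take_succ_cons, List.map_cons, List.sum_cons, garsiaMx]
      calc g γ + ((l.take j).map g).sum ≤ g γ + garsiaMx g a l + j * a := by
            rw [add_assoc]; exact add_le_add_right (ih j) _
        _ ≤ g γ + garsiaMx g a l - a + a + j * a := add_le_add_left le_tsub_add _
        _ = _ := by push_cast; ring

lemma garsia_snoc (g : Γ → ℝ≥0∞) (a : ℝ≥0∞) (l : List Γ) (x : Γ) :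
    garsiaMx g a l ≤ garsiaMx g a (l ++ [x]) := by
  induction l with
  | nil => exact zero_le
  | cons γ l ih => exact tsub_le_tsub_right (add_le_add_right ih _) _

lemma garsia_le_sum (g : Γ → ℝ≥0∞) (a : ℝ≥0∞) (l : List Γ) :
    garsiaMx g a l ≤ (l.map g).sum := by
  induction l with
  | nil => exact zero_le
  | cons γ l ih => exact tsub_le_self.trans (add_le_add_right ih _)

lemma garsia_step (a x : ℝ≥0∞) : a * ind (0 < x - a) + (x - a) ≤ x := by
  by_cases h : 0 < x - a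
  · rw [ind_pos h, mul_one, add_tsub_cancel_of_le (tsub_pos_iff_lt.1 h).le]
  · rw [ind_neg h, mul_zero, zero_add]; exact tsub_le_self

theorem garsia (hf : ∑' γ, f γ = 1) (g : Γ → ℝ≥0∞) (a : ℝ≥0∞) (n : ℕ) :
    a * E f n (fun l => ind (∃ j ≤ n, j * a < ((l.take j).map g).sum)) ≤ ∑' γ, f γ * g γ := by
  by_cases hm : ∑' γ, f γ * g γ = ∞
  · rw [hm]; exact le_top
  have h1 : E f n (fun l => ind (∃ j ≤ n, j * a < ((l.take j).map g).sum)) ≤
      E f n fun l => ind (0 < garsiaMx g a l) := by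
    refine E_mono f n fun l => ind_mono ?_
    rintro ⟨j, -, hj⟩
    by_contra h
    have h2 := garsia_take g a l j
    rw [nonpos_iff_eq_zero.1 (not_lt.1 h), zero_add] at h2
    exact hj.not_ge h2
  refine (mul_le_mul_right h1 a).trans ?_
  cases n with
  | zero => rw [E_zero, ind_neg (p := 0 < garsiaMx g a []) (lt_irrefl _), mul_zero]; exact zero_le
  | succ n =>
    have h2 : E f (n + 1) (garsiaMx g a) ≠ ∞ := by
      refine ne_top_of_le_ne_top ?_ (E_mono f _ (garsia_le_sum g a))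
      rw [E_map_sum hf]
      exact ENNReal.mul_ne_top (ENNReal.natCast_ne_top _) hm
    have h3 : E f n (garsiaMx g a) ≤ E f (n + 1) (garsiaMx g a) := by
      rw [E_snoc]
      refine E_mono f n fun l => ?_
      calc garsiaMx g a l = ∑' γ, f γ * garsiaMx g a l := by
            rw [ENNReal.tsum_mul_right, hf, one_mul]
        _ ≤ _ := ENNReal.tsum_le_tsum fun γ => mul_le_mul_right (garsia_snoc g a l γ) _
    refine ENNReal.le_of_add_le_add_right h2 ?_
    calc _ = E f (n + 1) fun l => a * ind (0 < garsiaMx g a l) + garsiaMx g a l := by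
          rw [E_add, E_mul_left]
      _ ≤ ∑' γ, f γ * E f n fun l => g γ + garsiaMx g a l :=
          ENNReal.tsum_le_tsum fun γ => mul_le_mul_right (E_mono f n fun l => garsia_step _ _) _
      _ = ∑' γ, f γ * g γ + E f n (garsiaMx g a) := by
          simp only [E_add, E_const hf, mul_add, ENNReal.tsum_add, ENNReal.tsum_mul_right, hf,
            one_mul]
      _ ≤ _ := add_le_add_right h3 _

/-- The number of entries equal to `a`. -/
noncomputable def garsiaN (a : Γ) (l : List Γ) : ℝ≥0∞ := (l.map fun x => ind (x = a)).sum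

lemma garsiaN_ne_top (a : Γ) (l : List Γ) : garsiaN a l ≠ ∞ := by
  induction l with
  | nil => exact ENNReal.zero_ne_top
  | cons γ l ih => exact ENNReal.add_ne_top.2 ⟨ind_ne_top _, ih⟩

lemma garsia_tsum (a : Γ) (g : Γ → ℝ≥0∞) : ∑' γ, f γ * (ind (γ = a) * g γ) = f a * g a := by
  rw [← tsum_ind_eq a fun γ => f γ * g γ]
  congr with γ; ring

lemma garsia_palm {G : Type*} [AddCommMonoid G] (S : Γ → G) (a : Γ) (m : ℕ) (φ : G → ℝ≥0∞) :
    E f (m + 1) (fun l => garsiaN a l * φ ((l.map S).sum)) =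
      (m + 1 : ℕ) * f a * E f m fun l => φ ((l.map S).sum + S a) := by
  induction m generalizing φ with
  | zero =>
    rw [E_one]
    simpa [garsiaN] using garsia_tsum (f := f) a fun γ => φ (S γ)
  | succ m ih =>
    rw [E_succ]
    have e : ∀ γ, (E f (m + 1) fun l => garsiaN a (γ :: l) * φ (((γ :: l).map S).sum)) =
        ind (γ = a) * (E f (m + 1) fun l => φ ((l.map S).sum + S γ)) +
          (m + 1 : ℕ) * f a * E f m fun l => φ (((γ :: l).map S).sum + S a) := fun γ => by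
      have := ih fun y => φ (S γ + y)
      simp only [← add_assoc] at this
      simp only [List.map_cons, List.sum_cons]
      rw [← this, ← E_mul_left, ← E_add]
      congr with l
      rw [add_comm _ (S γ), ← add_mul]
      rfl
    simp only [e, mul_add, ENNReal.tsum_add, garsia_tsum]
    simp only [mul_left_comm (f _) ((m + 1 : ℕ) * f a), ENNReal.tsum_mul_left]
    rw [← E_succ f m fun l => φ ((l.map S).sum + S a)]
    push_cast; ring

lemma garsia_mean (hf : ∑' γ, f γ = 1) (a : Γ) (n : ℕ) : E f n (garsiaN a) = n * f a := by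
  have := garsia_tsum (f := f) a fun _ => 1
  simp only [mul_one] at this
  rw [← this]
  exact E_map_sum hf n _

lemma garsia_sq {x y : ℝ≥0∞} (hx : x ≠ ∞) (hy : y ≠ ∞) :
    (x - y + (y - x)) * (x - y + (y - x)) + 2 * y * x = x * x + y * y := by
  rcases le_total x y with h | h
  · obtain ⟨t, rfl⟩ := exists_add_of_le h
    rw [tsub_eq_zero_of_le h, ENNReal.add_sub_cancel_left hx]; ring
  · obtain ⟨t, rfl⟩ := exists_add_of_le h
    rw [tsub_eq_zero_of_le h, ENNReal.add_sub_cancel_left hy]; ring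

lemma garsia_var (hf : ∑' γ, f γ = 1) (a : Γ) (m : ℕ) {c : ℝ≥0∞} (hc : c = (m + 1 : ℕ) * f a)
    (hc' : c ≠ ∞) : E f (m + 1) (fun l => (garsiaN a l - c + (c - garsiaN a l)) *
      (garsiaN a l - c + (c - garsiaN a l))) ≤ c := by
  have h1 : E f (m + 1) (fun l => garsiaN a l * garsiaN a l) ≤ c * (c + 1) := by
    have := garsia_palm (f := f) (fun x => ind (x = a)) a m id
    simp only [id, ind_pos trivial, E_add, E_const hf, ← hc] at this
    refine this.le.trans (mul_le_mul_right (add_le_add_left ?_ _) _)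
    refine (garsia_mean hf a m).le.trans ?_
    rw [hc]
    exact mul_le_mul_left (by exact_mod_cast Nat.le_succ m) _
  have h2 : 2 * c * c ≠ ∞ := ENNReal.mul_ne_top (ENNReal.mul_ne_top (by simp) hc') hc'
  refine ENNReal.le_of_add_le_add_right h2 ?_
  calc _ = E f (m + 1) fun l => (garsiaN a l - c + (c - garsiaN a l)) *
        (garsiaN a l - c + (c - garsiaN a l)) + 2 * c * garsiaN a l := by
        rw [E_add, E_mul_left, garsia_mean hf, ← hc]
    _ = E f (m + 1) (fun l => garsiaN a l * garsiaN a l) + c * c := by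
        simp only [garsia_sq (garsiaN_ne_top a _) hc', E_add, E_const hf]
    _ ≤ c * (c + 1) + c * c := add_le_add_left h1 _
    _ = _ := by ring

lemma garsia_dev (hf : ∑' γ, f γ = 1) {a : Γ} (ha : f a ≠ 0) {δ : ℝ≥0∞} (hδ : δ ≠ 0)
    (hδ' : δ ≠ ∞) : ∃ m₀, ∀ m, m₀ ≤ m → ∀ c : ℝ≥0∞, c = (m + 1 : ℕ) * f a →
      E f (m + 1) (fun l => garsiaN a l - c + (c - garsiaN a l)) ≤ c * (2 * δ) := by
  have ha' : f a ≠ ∞ := ne_top_of_le_ne_top ENNReal.one_ne_top (hf ▸ ENNReal.le_tsum a)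
  have h0 : f a * δ * δ ≠ 0 := by simp [ha, hδ]
  obtain ⟨m₀, hm⟩ := ENNReal.exists_nat_mul_gt h0 ENNReal.one_ne_top
  refine ⟨m₀, fun m h c hc => ?_⟩
  have hc' : c ≠ ∞ := hc ▸ ENNReal.mul_ne_top (ENNReal.natCast_ne_top _) ha'
  have hc0 : c ≠ 0 := by simp [hc, ha]
  have h1 : 1 ≤ c * δ * δ := by
    refine hm.le.trans ?_
    rw [hc, mul_assoc _ (f a), mul_assoc (_ : ℝ≥0∞) (f a * δ)]
    exact mul_le_mul_left (by exact_mod_cast h.trans (Nat.le_succ m)) _
  refine (ENNReal.mul_le_mul_iff_left (c := c * δ) (mul_ne_zero hc0 hδ)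
    (ENNReal.mul_ne_top hc' hδ')).1 ?_
  have key : ∀ x y : ℝ≥0∞, x * y ≤ y * y + x * x := fun x y => by
    rcases le_total x y with h | h
    · exact (mul_le_mul_left h y).trans le_self_add
    · exact (mul_le_mul_right h x).trans le_add_self
  calc _ = E f (m + 1) fun l => (garsiaN a l - c + (c - garsiaN a l)) * (c * δ) :=
        (E_mul_right _ _ _ _).symm
    _ ≤ E f (m + 1) fun l => c * δ * (c * δ) + (garsiaN a l - c + (c - garsiaN a l)) *
        (garsiaN a l - c + (c - garsiaN a l)) := E_mono f _ fun l => key _ _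
    _ ≤ c * δ * (c * δ) + c * (c * δ * δ) := by
        rw [E_add, E_const hf]
        exact add_le_add_right ((garsia_var hf a m hc hc').trans (le_mul_of_one_le_right' h1)) _
    _ = _ := by ring

lemma garsia_shift {G : Type*} [AddCommGroup G] (hf : ∑' γ, f γ = 1) (S : Γ → G) {a : Γ}
    (ha : f a ≠ 0) {δ : ℝ≥0∞} (hδ : δ ≠ 0) (hδ' : δ ≠ ∞) :
    ∃ m₀, ∀ m, m₀ ≤ m → ∀ φ : G → ℝ≥0∞, (∀ y, φ y ≤ 1) →
      E f m (fun l => φ ((l.map S).sum + S a)) ≤
        E f (m + 1) (fun l => φ ((l.map S).sum)) + 2 * δ ∧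
      E f (m + 1) (fun l => φ ((l.map S).sum)) ≤
        E f m (fun l => φ ((l.map S).sum + S a)) + 2 * δ := by
  have ha' : f a ≠ ∞ := ne_top_of_le_ne_top ENNReal.one_ne_top (hf ▸ ENNReal.le_tsum a)
  obtain ⟨m₀, hm⟩ := garsia_dev hf ha hδ hδ'
  refine ⟨m₀, fun m h φ hφ => ?_⟩
  have h1 := hm m h _ rfl
  have h2 := garsia_palm (f := f) S a m φ
  have hc' : (m + 1 : ℕ) * f a ≠ ∞ := ENNReal.mul_ne_top (ENNReal.natCast_ne_top _) ha'
  have hc0 : (m + 1 : ℕ) * f a ≠ 0 := by simp [ha]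
  generalize (m + 1 : ℕ) * f a = c at h1 h2 hc' hc0
  have key : ∀ x y t : ℝ≥0∞, t ≤ 1 → x * t ≤ y * t + (x - y) := fun x y t ht =>
    calc x * t ≤ (y + (x - y)) * t := mul_le_mul_left le_add_tsub t
      _ ≤ y * t + (x - y) := by
        rw [add_mul]; exact add_le_add_right (mul_le_of_le_one_right' ht) _
  constructor
  · refine (ENNReal.mul_le_mul_iff_right hc0 hc').1 ?_
    rw [← h2, mul_add, ← E_mul_left]
    refine le_trans ?_ (add_le_add_right h1 _)
    rw [← E_add]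
    exact E_mono f _ fun l => (key _ _ _ (hφ _)).trans (add_le_add_right le_self_add _)
  · refine (ENNReal.mul_le_mul_iff_right hc0 hc').1 ?_
    rw [mul_add, ← h2, ← E_mul_left]
    refine le_trans ?_ (add_le_add_right h1 _)
    rw [← E_add]
    exact E_mono f _ fun l => (key _ _ _ (hφ _)).trans (add_le_add_right le_add_self _)

theorem shift_insens {G : Type*} [AddCommGroup G] (hf : ∑' γ, f γ = 1) (S : Γ → G) {a b : Γ}
    (ha : f a ≠ 0) (hb : f b ≠ 0) {ε : ℝ≥0∞} (hε : ε ≠ 0) :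
    ∃ m₀, ∀ m, m₀ ≤ m → ∀ φ : G → ℝ≥0∞, (∀ y, φ y ≤ 1) →
      E f m (fun l => φ ((l.map S).sum)) ≤ E f m (fun l => φ ((l.map S).sum + (S a - S b))) + ε := by
  by_cases hε' : ε = ∞
  · exact ⟨0, fun _ _ _ _ => by rw [hε', add_top]; exact le_top⟩
  have hδ : ε / 4 ≠ 0 := by simp [hε]
  have hδ' : ε / 4 ≠ ∞ := ENNReal.div_ne_top hε' (by simp)
  obtain ⟨m₁, h1⟩ := garsia_shift hf S ha hδ hδ'
  obtain ⟨m₂, h2⟩ := garsia_shift hf S hb hδ hδ'
  refine ⟨max m₁ m₂, fun m hm φ hφ => ?_⟩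
  have h3 := (h1 m (le_of_max_le_left hm) (fun y => φ (y - S b)) fun y => hφ _).2
  have h4 := (h2 m (le_of_max_le_right hm) (fun y => φ (y - S b)) fun y => hφ _).1
  simp only [add_sub_cancel_right] at h4
  simp only [add_sub_assoc] at h3
  refine h4.trans ((add_le_add_left h3 _).trans_eq ?_)
  rw [add_assoc, ← add_mul, show (2 : ℝ≥0∞) + 2 = 4 by norm_num,
    ENNReal.mul_div_cancel (by simp) (by simp)]

theorem tail_small (g : Γ → ℝ≥0∞) (hg : ∑' γ, g γ ≠ ∞) (r : Γ → ℝ) {ε : ℝ≥0∞} (hε : ε ≠ 0) :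
    ∃ B₀ : ℝ, ∀ B, B₀ ≤ B → ∑' γ, ind (B ≤ r γ) * g γ ≤ ε := by
  obtain ⟨s, hs⟩ := ((ENNReal.tendsto_tsum_compl_atTop_zero hg).eventually
    (Iic_mem_nhds (pos_iff_ne_zero.2 hε))).exists
  obtain ⟨M, hM⟩ := (s.finite_toSet.image r).bddAbove
  refine ⟨M + 1, fun B hB => le_trans ?_ hs⟩
  rw [show ∑' b : {x // x ∉ s}, g b = _ from tsum_subtype {x | x ∉ s} g]
  refine ENNReal.tsum_le_tsum fun γ => ind_mul_le_of fun h => ?_
  rw [Set.indicator_of_mem]
  intro hγ
  have : r γ ≤ M := hM ⟨γ, hγ, rfl⟩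
  linarith

end Vale.Agent.P147
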