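import Vale.Agent.P147.Piece
import Vale.Agent.P147.Garsia

/-! Failure probabilities. -/

namespace Vale.Agent.P147

open MeasureTheory ProbabilityTheory Finset Filter
open scoped ENNReal

variable {d : ℕ} {Ω : Type} [MeasurableSpace Ω] {M : Model d Ω} {D : Dir d} {c : ℝ≥0∞}

theorem eta_small (M : Model d Ω) (D : Dir d) {ε : ℝ≥0∞} (hε : ε ≠ 0) :
    ∃ a₀ : ℝ, ∀ a, a₀ ≤ a → M.eta D a ≤ ε := by
  have h1 := M.cons.pf [] (fun l => ∃ b, D.Exit b 0 l) (by
    rintro p q ⟨b, hp⟩ ⟨b', hq⟩ h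
    by_contra hne
    exact absurd (hq.2 p h hne).1 (not_le.2 hp.1))
  simp only [List.nil_append, M.W_nil] at h1
  obtain ⟨B₀, hB⟩ := tail_small (fun l => ind (∃ b, D.Exit b 0 l) * M.W l)
    (ne_top_of_le_ne_top ENNReal.one_ne_top h1) (fun l => l.length * D.L) hε
  refine ⟨B₀, fun a ha => le_trans (ENNReal.tsum_le_tsum fun l => ?_) (hB a ha)⟩
  rw [← mul_assoc, ← ind_and]
  refine mul_le_mul_left (ind_mono ?_) _
  rintro ⟨h2, p, hp, hap⟩
  refine ⟨?_, h2⟩
  have h3 := D.abs_lev_le p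
  have h4 : (p.length : ℝ) ≤ l.length := by exact_mod_cast hp.length_le
  have h5 := mul_le_mul_of_nonneg_right h4 D.hL.le
  linarith [le_abs_self (D.lev p)]

theorem Phi_zero (M : Model d Ω) (D : Dir d) (s a₀ : ℝ) : M.Phi D 0 s a₀ ≤ M.eta D a₀ := by
  refine tsum_ind_le_of_unique ?_ ?_
  · intro i j hi hj
    rw [List.length_eq_zero_iff.1 hi.1, List.length_eq_zero_iff.1 hj.1]
  · intro i hi
    rw [List.length_eq_zero_iff.1 hi.1]
    refine ENNReal.tsum_le_tsum fun π => ?_
    simp only [List.flatten_nil, List.nil_append]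
    exact mul_le_mul_left (ind_mono fun h => ⟨⟨_, h.1⟩, h.2⟩) _

lemma budget_count (D : Dir d) (s : ℝ) (J : ℕ) (hJ : 2 * s < J * D.L) (X : List (Step d)) :
    ∑' βs : List (List (Step d)), ind ((∀ γ ∈ βs, D.Irr γ) ∧ βs.flatten <+: X ∧
      D.Exit (D.lev βs.flatten + s) 0 X) ≤ J := by
  by_cases hex : ∃ βs : List (List (Step d)), (∀ γ ∈ βs, D.Irr γ) ∧ βs.flatten <+: X ∧
      D.Exit (D.lev βs.flatten + s) 0 X
  · obtain ⟨β₀, h₀⟩ := hex
    have hle : ∀ β β' : List (List (Step d)),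
        ((∀ γ ∈ β, D.Irr γ) ∧ β.flatten <+: X ∧ D.Exit (D.lev β.flatten + s) 0 X) →
        ((∀ γ ∈ β', D.Irr γ) ∧ β'.flatten <+: X ∧ D.Exit (D.lev β'.flatten + s) 0 X) →
        D.lev β.flatten ≤ D.lev β'.flatten + s := by
      intro β β' h h'
      have h1 := flatten_above h.1 _ (List.prefix_refl _)
      have h2 := h.2.2.1
      rw [map_zero, zero_add] at h2
      have h3 := (h'.2.2.2 _ h.2.1 fun he => by rw [he] at h1; linarith).2
      rwa [map_zero, zero_add] at h3
    refine tsum_ind_sep (fun βs : List (List (Step d)) => D.lev βs.flatten)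
      (x₀ := D.lev β₀.flatten - s) D.hL J ?_ ?_
    · intro β β' h h' hne
      have hne' : β.flatten ≠ β'.flatten := fun he => hne (flatten_inj h.1 h'.1 he)
      rcases List.prefix_or_prefix_of_prefix h.2.1 h'.2.1 with hp | hp
      · have := flatten_gap h'.1 hp hne'
        rw [abs_sub_comm]
        exact le_trans (by linarith) (le_abs_self _)
      · have := flatten_gap h.1 hp hne'.symm
        exact le_trans (by linarith) (le_abs_self _)
    · intro β h
      have h1 := hle β β₀ h h₀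
      have h2 := hle β₀ β h₀ h
      constructor <;> linarith
  · have : ∀ βs : List (List (Step d)), ind ((∀ γ ∈ βs, D.Irr γ) ∧ βs.flatten <+: X ∧
        D.Exit (D.lev βs.flatten + s) 0 X) = 0 := fun βs => ind_neg fun h => hex ⟨βs, h⟩
    simp only [this, tsum_zero]
    exact zero_le

theorem Phi_sum (M : Model d Ω) (D : Dir d) (s a₀ : ℝ) (J : ℕ) (hJ : 2 * s < J * D.L) :
    ∑' n, M.Phi D n s a₀ ≤ J * M.eta D a₀ := by
  unfold Model.Phi
  rw [ENNReal.tsum_comm]
  calc _ ≤ ∑' βs : List (List (Step d)), ∑' X : List (Step d),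
        ind ((∀ γ ∈ βs, D.Irr γ) ∧ βs.flatten <+: X ∧ D.Exit (D.lev βs.flatten + s) 0 X) *
          (ind (D.FailR a₀ X) * M.W X) := by
        refine ENNReal.tsum_le_tsum fun βs => ?_
        refine tsum_ind_le_of_unique (fun i j hi hj => hi.1.symm.trans hj.1) fun n hn => ?_
        refine tsum_ind_le_of_injOn (fun π => βs.flatten ++ π)
          (fun i j _ _ h => List.append_cancel_left h) fun π hπ => ?_
        rw [ind_pos ⟨hn.2, List.prefix_append _ _, hπ.1⟩, ind_pos ⟨⟨_, hπ.1⟩, hπ.2⟩, one_mul,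
          one_mul]
    _ ≤ J * M.eta D a₀ := by
        rw [ENNReal.tsum_comm, Model.eta, ← ENNReal.tsum_mul_left]
        refine ENNReal.tsum_le_tsum fun X => ?_
        rw [ENNReal.tsum_mul_right]
        exact mul_le_mul_left (budget_count D s J hJ X) _

end Vale.Agent.P147
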