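import Vale.Agent.P147.PDefs

/-! Entropy estimates. -/

namespace Vale.Agent.P147

open MeasureTheory ProbabilityTheory Finset Filter
open scoped ENNReal

variable {Γ : Type*} {f : Γ → ℝ≥0∞}

lemma ent_pow_mono {i j : ℕ} (h : i ≤ j) (b : ℝ≥0∞) : 2 ^ i * b ≤ 2 ^ j * b :=
  mul_le_mul_left (pow_le_pow_right₀ one_le_two h) b

lemma ent_le_tsum {p : ℕ → Prop} {n : ℕ} (h : ∀ j < n, p j) : (n : ℝ≥0∞) ≤ ∑' j, ind (p j) := by
  refine le_trans (le_of_eq ?_) (ENNReal.sum_le_tsum (range n))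
  rw [sum_congr rfl fun j hj => ind_pos (h j (mem_range.1 hj))]
  simp

lemma ent_cnt_le {a b : ℝ≥0∞} {n : ℕ} (h : a ≤ 2 ^ n * b) : cnt a b ≤ n := by
  rw [cnt, tsum_eq_sum (s := range n) fun j hj =>
    ind_neg (not_lt.2 (h.trans (ent_pow_mono (not_lt.1 fun h' => hj (mem_range.2 h')) b)))]
  calc ∑ j ∈ range n, ind (2 ^ j * b < a) ≤ ∑ j ∈ range n, (1 : ℝ≥0∞) :=
        sum_le_sum fun j _ => ind_le_one _
    _ = n := by simp

lemma ent_le_cnt {a b : ℝ≥0∞} {n : ℕ} (h : 2 ^ n * b < a) : ((n + 1 : ℕ) : ℝ≥0∞) ≤ cnt a b :=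
  ent_le_tsum fun _ hj => (ent_pow_mono (Nat.lt_succ_iff.1 hj) b).trans_lt h

lemma ent_cnt_cases (a b : ℝ≥0∞) :
    cnt a b = ∞ ∨ ∃ n : ℕ, cnt a b = n ∧ a ≤ 2 ^ n * b ∧ ∀ j < n, 2 ^ j * b < a := by
  classical
  by_cases h : ∃ n : ℕ, a ≤ 2 ^ n * b
  · have h1 : ∀ j < Nat.find h, 2 ^ j * b < a := fun j hj => not_le.1 (Nat.find_min h hj)
    exact Or.inr ⟨Nat.find h, le_antisymm (ent_cnt_le (Nat.find_spec h)) (ent_le_tsum h1),
      Nat.find_spec h, h1⟩
  · left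
    refine ENNReal.eq_top_of_forall_nnreal_le fun r => ?_
    obtain ⟨n, hn⟩ := exists_nat_ge r
    refine le_trans ?_ (ent_le_tsum (n := n) fun j _ => not_le.1 fun h' => h ⟨j, h'⟩)
    exact_mod_cast hn

lemma ent_cnt_tri (a b c : ℝ≥0∞) : cnt a c ≤ cnt a b + cnt b c := by
  rcases ent_cnt_cases a b with h | ⟨n, h, h1, -⟩
  · simp [h]
  rcases ent_cnt_cases b c with h' | ⟨m, h', h2, -⟩
  · simp [h']
  rw [h, h', ← Nat.cast_add]
  refine ent_cnt_le (h1.trans ?_)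
  rw [pow_add, mul_assoc]
  exact mul_le_mul_right h2 _

lemma ent_cnt_main {a : ℝ≥0∞} (ha : a ≤ 1) (b : ℝ≥0∞) :
    cnt a b + cnt 1 a ≤ cnt 1 b + 1 + cnt b a := by
  have h0 : cnt a 1 = 0 := le_antisymm (by simpa using ent_cnt_le (n := 0) (by simpa using ha))
    zero_le
  have h1 : cnt a b ≤ cnt 1 b := by simpa [h0] using ent_cnt_tri a 1 b
  have h2 : cnt 1 a ≤ cnt 1 b + cnt b a := ent_cnt_tri 1 b a
  rcases ent_cnt_cases a b with h | ⟨u, hu, -, hu'⟩
  · rw [h, top_le_iff] at h1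
    simp [h1]
  rcases ent_cnt_cases 1 a with h | ⟨v, hv, -, hv'⟩
  · rw [h, top_le_iff] at h2
    rw [add_right_comm, h2]
    simp
  rcases u with _ | u
  · rw [hu, Nat.cast_zero, zero_add, add_right_comm]
    exact h2.trans le_self_add
  rcases v with _ | v
  · rw [hv, Nat.cast_zero, add_zero, add_assoc]
    exact h1.trans le_self_add
  have h3 : 2 ^ (v + u) * b < 1 := by
    refine lt_of_le_of_lt ?_ (hv' v (Nat.lt_succ_self v))
    rw [pow_add, mul_assoc]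
    exact mul_le_mul_right (hu' u (Nat.lt_succ_self u)).le _
  refine le_trans ?_ le_self_add
  refine le_trans (le_of_eq ?_) (add_le_add_left (ent_le_cnt h3) 1)
  rw [hu, hv]
  push_cast
  ring

lemma ent_mul_cnt (a b : ℝ≥0∞) : a * cnt b a ≤ 2 * b := by
  have h2 : 2 * b = ∑' j : ℕ, 2⁻¹ ^ j * b := by
    rw [ENNReal.tsum_mul_right, ENNReal.tsum_geometric_two]
  rw [cnt, ← ENNReal.tsum_mul_left, h2]
  refine ENNReal.tsum_le_tsum fun j => ?_
  rw [mul_comm]
  refine ind_mul_le_of fun h => ?_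
  calc a = 2⁻¹ ^ j * (2 ^ j * a) := by
        rw [← mul_assoc, ← mul_pow, ENNReal.inv_mul_cancel two_ne_zero ENNReal.ofNat_ne_top,
          one_pow, one_mul]
    _ ≤ 2⁻¹ ^ j * b := mul_le_mul_right h.le _

section

variable {G : Type*} [AddCommGroup G]

lemma ent_law_sum (S : Γ → G) (n : ℕ) (F : G → ℝ≥0∞) :
    ∑' y, law f S n y * F y = E f n fun l => F (l.map S).sum := by
  simp only [law, ← E_mul_right, ← E_tsum]
  congr with l
  simp only [ind_congr (eq_comm (a := (l.map S).sum))]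
  exact tsum_ind_eq _ F

lemma ent_law_total (hf : ∑' γ, f γ = 1) (S : Γ → G) (n : ℕ) : ∑' y, law f S n y = 1 := by
  have h := ent_law_sum (f := f) S n fun _ => 1
  rw [E_const hf] at h
  simpa using h

lemma ent_conv (S : Γ → G) (q t : ℕ) (F : G → ℝ≥0∞) :
    (E f q fun l => ∑' s, law f S t s * F ((l.map S).sum + s)) =
      ∑' y, law f S (q + t) y * F y := by
  rw [ent_law_sum, E_append]
  congr with l
  rw [ent_law_sum S t fun s => F ((l.map S).sum + s)]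
  simp

lemma ent_ref (S : Γ → G) (n : ℕ) {ρ : G → ℝ≥0∞} (hρ : ∑' y, ρ y ≤ 1) :
    ent f S n ≤ (E f n fun l => cnt 1 (ρ (l.map S).sum)) + 2 := by
  rw [← ent_law_sum S n fun y => cnt 1 (ρ y)]
  calc ent f S n ≤ ∑' y, (law f S n y * cnt 1 (ρ y) + 2 * ρ y) := by
        refine ENNReal.tsum_le_tsum fun y => ?_
        refine (mul_le_mul_right (ent_cnt_tri 1 (ρ y) _) _).trans ?_
        rw [mul_add]
        exact add_le_add_right (ent_mul_cnt _ _) _
    _ ≤ _ := by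
        rw [ENNReal.tsum_add, ENNReal.tsum_mul_left]
        exact add_le_add_right ((mul_le_mul_right hρ _).trans (mul_one _).le) _

end

theorem ent_zero {G : Type*} [AddCommGroup G] (S : Γ → G) : ent f S 0 = 0 := by
  rw [ent, ent_law_sum S 0 fun y => cnt 1 (law f S 0 y), E_zero, law, E_zero, ind_pos rfl]
  exact le_antisymm (by simpa using ent_cnt_le (a := 1) (b := 1) (n := 0) (by simp)) zero_le

theorem info_le {G : Type*} [AddCommGroup G] (hf : ∑' γ, f γ = 1) (S : Γ → G) (q t : ℕ) :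
    info f S q t + ent f S t ≤ ent f S (q + t) + 3 := by
  rw [← E_const hf q (ent f S t), info, ← E_add, ent, ent,
    ← ent_conv S q t fun y => cnt 1 (law f S (q + t) y), ← E_const hf q 3, ← E_add]
  refine E_mono f q fun l => ?_
  have h1 : ∑' s, law f S (q + t) ((l.map S).sum + s) = 1 := by
    rw [← ent_law_total hf S (q + t)]
    exact (Equiv.addLeft (l.map S).sum).tsum_eq (law f S (q + t))
  calc _ ≤ ∑' s, (law f S t s * cnt 1 (law f S (q + t) ((l.map S).sum + s)) + law f S t s +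
        2 * law f S (q + t) ((l.map S).sum + s)) := by
        rw [← ENNReal.tsum_add]
        refine ENNReal.tsum_le_tsum fun s => ?_
        rw [← mul_add]
        refine (mul_le_mul_right (ent_cnt_main (E_ind_le_one hf t _) _) _).trans ?_
        rw [mul_add, mul_add, mul_one]
        exact add_le_add_right (ent_mul_cnt _ _) _
    _ = _ := by
        rw [ENNReal.tsum_add, ENNReal.tsum_add, ENNReal.tsum_mul_left, h1, ent_law_total hf,
          add_assoc]
        norm_num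

lemma ent_box (d k : ℕ) :
    ∑' x : Site d, ind (∀ i, (x i).natAbs < 2 ^ k) ≤ 2 ^ (d * (k + 1)) := by
  classical
  let B : Finset (Site d) := Fintype.piFinset fun _ => Finset.Ico (-(2 ^ k : ℤ)) (2 ^ k)
  rw [tsum_eq_sum (s := B) fun x hx => ind_neg fun h => hx (Fintype.mem_piFinset.2 fun i => by
    have h1 : (((x i).natAbs : ℕ) : ℤ) < ((2 ^ k : ℕ) : ℤ) := Int.ofNat_lt.2 (h i)
    rw [Nat.cast_pow, Nat.cast_ofNat] at h1
    rw [Finset.mem_Ico]
    omega)]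
  have h2 : B.card = 2 ^ (d * (k + 1)) := by
    have h3 : ((2 : ℤ) ^ k - -2 ^ k).toNat = 2 ^ (k + 1) := by
      have h4 : (2 : ℤ) ^ k - -2 ^ k = ((2 ^ (k + 1) : ℕ) : ℤ) := by push_cast; ring
      rw [h4, Int.toNat_natCast]
    rw [Fintype.card_piFinset, prod_const, Int.card_Ico, h3, card_univ, Fintype.card_fin,
      ← pow_mul, mul_comm]
  calc ∑ x ∈ B, ind (∀ i, (x i).natAbs < 2 ^ k) ≤ ∑ x ∈ B, (1 : ℝ≥0∞) :=
        sum_le_sum fun x _ => ind_le_one _
    _ = _ := by rw [sum_const, h2]; simp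

/-- A reference weight on the lattice. -/
noncomputable def entRef (d : ℕ) (x : Site d) : ℝ≥0∞ :=
  ∑' k : ℕ, ind (∀ i, (x i).natAbs < 2 ^ k) * 2⁻¹ ^ ((d + 1) * (k + 1))

lemma entRef_sum (d : ℕ) : ∑' x, entRef d x ≤ 1 := by
  simp only [entRef]
  have h2 : ∑' k : ℕ, (2⁻¹ : ℝ≥0∞) ^ (k + 1) = 1 := by
    simp only [pow_succ]
    rw [ENNReal.tsum_mul_right, ENNReal.tsum_geometric_two,
      ENNReal.mul_inv_cancel two_ne_zero ENNReal.ofNat_ne_top]
  rw [ENNReal.tsum_comm]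
  refine le_trans (ENNReal.tsum_le_tsum fun k => ?_) h2.le
  rw [ENNReal.tsum_mul_right]
  refine (mul_le_mul_left (ent_box d k) _).trans (le_of_eq ?_)
  rw [add_mul, one_mul, pow_add, ← mul_assoc, ← mul_pow,
    ENNReal.mul_inv_cancel two_ne_zero ENNReal.ofNat_ne_top, one_pow, one_mul]

lemma entRef_cnt {d : ℕ} (x : Site d) :
    cnt 1 (entRef d x) ≤ (d + 1) * (∑' j : ℕ, ind (∃ i, 2 ^ j ≤ (x i).natAbs) + 1) := by
  classical
  have h : ∃ k : ℕ, ∀ i, (x i).natAbs < 2 ^ k :=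
    ⟨univ.sup fun i => (x i).natAbs, fun i =>
      (le_sup (f := fun i => (x i).natAbs) (mem_univ i)).trans_lt Nat.lt_two_pow_self⟩
  have h1 : ((Nat.find h : ℕ) : ℝ≥0∞) ≤ ∑' j : ℕ, ind (∃ i, 2 ^ j ≤ (x i).natAbs) :=
    ent_le_tsum fun j hj => by simpa using Nat.find_min h hj
  have h2 : 1 ≤ 2 ^ ((d + 1) * (Nat.find h + 1)) * entRef d x := by
    refine le_trans (le_of_eq ?_) (mul_le_mul_right (ENNReal.le_tsum (Nat.find h)) _)
    rw [ind_pos (Nat.find_spec h), one_mul, ← mul_pow,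
      ENNReal.mul_inv_cancel two_ne_zero ENNReal.ofNat_ne_top, one_pow]
  refine (ent_cnt_le h2).trans ?_
  push_cast
  exact mul_le_mul_right (add_le_add_left h1 1) _

lemma ent_sum_small {d : ℕ} (S : Γ → Site d) (k : Fin d) {M : ℕ} (l : List Γ)
    (h : ∀ γ ∈ l, (S γ k).natAbs < M) :
    ((l.map S).sum k).natAbs + l.length ≤ l.length * M := by
  induction l with
  | nil => simp
  | cons γ l ih =>
    have h1 := ih fun a ha => h a (List.mem_cons_of_mem _ ha)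
    have h2 := h γ List.mem_cons_self
    have h3 := Int.natAbs_add_le (S γ k) ((l.map S).sum k)
    rw [List.map_cons, List.sum_cons, Pi.add_apply, List.length_cons, add_mul, one_mul]
    omega

theorem ent_le {d : ℕ} (hf : ∑' γ, f γ = 1) (S : Γ → Site d) (g : ℕ) (C : ℝ≥0∞) (hC : C ≠ ∞)
    (h : ∀ i : ℕ, ∑' γ, f γ * ind (∃ k, 2 ^ (g * i) ≤ (S γ k).natAbs) ≤ C / 2 ^ i) :
    ∃ C' : ℝ≥0∞, C' ≠ ∞ ∧ ∀ r : ℕ, ent f S (2 ^ r) ≤ C' * (r + 1) := by
  have hD : ∑' j : ℕ, C * 2⁻¹ ^ (j / (g + 1)) = (g + 1) * (C * 2) := by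
    have h1 := (Nat.divModEquiv (g + 1)).tsum_eq fun p => C * (2⁻¹ : ℝ≥0∞) ^ p.1
    refine h1.trans ?_
    rw [ENNReal.tsum_prod', ENNReal.tsum_comm, tsum_fintype]
    simp only [ENNReal.tsum_mul_left, ENNReal.tsum_geometric_two]
    simp
  refine ⟨(d + 1) * (g + 2 + (g + 1) * (C * 2) + 1) + 2, by finiteness, fun r => ?_⟩
  have hP : ∀ j : ℕ, (E f (2 ^ r) fun l =>
      ind (∃ i, 2 ^ (j + (g + 2) * r) ≤ ((l.map S).sum i).natAbs)) ≤
        C * 2⁻¹ ^ (j / (g + 1)) := by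
    intro j
    set i := r + j / (g + 1) with hi
    have h1 : r + g * i ≤ j + (g + 2) * r := by
      have h2 : (g + 1) * (j / (g + 1)) ≤ j := Nat.mul_div_le j (g + 1)
      rw [hi]
      nlinarith [Nat.zero_le (j / (g + 1)), Nat.zero_le r]
    refine le_trans (E_mono' f (ψ := fun l => ind (∃ γ ∈ l, ∃ k, 2 ^ (g * i) ≤ (S γ k).natAbs))
      fun l hl _ => ind_mono ?_) ((E_exists_mem hf _ _).trans ?_)
    · rintro ⟨k, hk⟩
      by_contra hn
      have h3 := ent_sum_small S k (M := 2 ^ (g * i)) l fun γ hγ =>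
        not_le.1 fun h' => hn ⟨γ, hγ, k, h'⟩
      rw [hl, ← pow_add] at h3
      have h4 : 2 ^ (r + g * i) ≤ 2 ^ (j + (g + 2) * r) := Nat.pow_le_pow_right two_pos h1
      have h5 : 0 < 2 ^ r := Nat.two_pow_pos r
      omega
    · refine (mul_le_mul_right (h i) _).trans (le_of_eq ?_)
      rw [hi, div_eq_mul_inv, ENNReal.inv_pow, pow_add, Nat.cast_pow, Nat.cast_ofNat,
        mul_left_comm, ← mul_assoc (2 ^ r), ← mul_pow,
        ENNReal.mul_inv_cancel two_ne_zero ENNReal.ofNat_ne_top, one_pow, one_mul]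
  have hK : (E f (2 ^ r) fun l => ∑' j : ℕ, ind (∃ i, 2 ^ j ≤ ((l.map S).sum i).natAbs)) ≤
      (g + 2) * r + (g + 1) * (C * 2) := by
    rw [E_tsum, ← Summable.sum_add_tsum_nat_add' (k := (g + 2) * r) ENNReal.summable, ← hD]
    refine add_le_add ?_ (ENNReal.tsum_le_tsum hP)
    refine (sum_le_sum fun j _ => E_ind_le_one hf _ _).trans (le_of_eq ?_)
    simp
  refine (ent_ref S _ (entRef_sum d)).trans ?_
  refine (add_le_add_left (E_mono f _ fun l => entRef_cnt _) 2).trans ?_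
  rw [E_mul_left, E_add, E_const hf]
  refine (add_le_add_left (mul_le_mul_right (add_le_add_left hK 1) _) 2).trans ?_
  refine le_trans le_self_add (le_of_eq (b := _) ?_ :
    _ + ((d + 1) * (g + 2 + ((g + 1) * (C * 2) + 1) * r) + 2 * r) ≤ _)
  ring

end Vale.Agent.P147
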