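import Vale.Agent.P147.Dom
import Vale.Agent.P147.Garsia

/-! The descending walk is unlikely to meet the beginning of the ascending walk. -/

namespace Vale.Agent.P147

open MeasureTheory ProbabilityTheory Finset Filter
open scoped ENNReal

variable {d : ℕ} {Ω : Type} [MeasurableSpace Ω] {M : Model d Ω} {D : Dir d} {c : ℝ≥0∞}

lemma hit_small {ε : ℝ≥0∞} (hε : ε ≠ 0) (N : ℕ) : ∃ δ : ℝ≥0∞, δ ≠ 0 ∧ N * δ ≤ ε :=
  ⟨ε / N, by simp [hε], ENNReal.mul_div_le⟩

/-- Partial sums of pieces have separated levels. -/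
lemma hit_sep {ζs a b : List (List (Step d))} (h : ∀ γ ∈ ζs, D.Irr γ) (ha : a <+: ζs)
    (hb : b <+: ζs) (hne : a ≠ b) : D.L ≤ |D.lev a.flatten - D.lev b.flatten| := by
  have key : ∀ a b : List (List (Step d)), b <+: ζs → a <+: b → a ≠ b →
      D.lev a.flatten + D.L ≤ D.lev b.flatten := by
    rintro a b hb ⟨t, rfl⟩ hne
    have ht : t ≠ [] := by rintro rfl; simp at hne
    have h1 : (t.length : ℝ) * D.L ≤ D.lev t.flatten :=
      flatten_lev fun γ hγ => h γ (hb.subset (List.mem_append_right _ hγ))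
    have h2 : (1 : ℝ) ≤ t.length := by exact_mod_cast List.length_pos_iff.2 ht
    have h3 := mul_le_mul_of_nonneg_right h2 D.hL.le
    rw [List.flatten_append, Dir.lev_append]
    linarith
  rcases List.prefix_or_prefix_of_prefix ha hb with h1 | h1
  · have := key a b hb h1 hne
    rw [le_abs]; right; linarith
  · have := key b a ha h1 hne.symm
    rw [le_abs]; left; linarith

/-- An initial segment of a concatenation consists of whole blocks and a part of one block. -/
lemma hit_decomp {α : Type*} (ζs : List (List α)) {p : List α} (hp : p <+: ζs.flatten) :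
    ∃ a q, p = a.flatten ++ q ∧ a <+: ζs ∧ (q = [] ∨ ∃ ζ, a ++ [ζ] <+: ζs ∧ q <+: ζ) := by
  induction ζs generalizing p with
  | nil => exact ⟨[], [], by simpa using hp, List.nil_prefix, Or.inl rfl⟩
  | cons ζ ζs ih =>
    rw [List.flatten_cons] at hp
    rcases List.prefix_or_prefix_of_prefix hp (List.prefix_append ζ ζs.flatten) with h | h
    · exact ⟨[], p, by simp, List.nil_prefix, Or.inr ⟨ζ, by simp, h⟩⟩
    · obtain ⟨r, rfl⟩ := h
      obtain ⟨a, q, h1, h2, h3⟩ := ih ((List.prefix_append_right_inj ζ).1 hp)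
      refine ⟨ζ :: a, q, by simp [h1], (List.prefix_cons_inj ζ).2 h2, ?_⟩
      rcases h3 with h3 | ⟨ξ, h3, h4⟩
      · exact Or.inl h3
      · exact Or.inr ⟨ξ, (List.prefix_cons_inj ζ).2 h3, h4⟩

section General

variable {Γ : Type*} {f : Γ → ℝ≥0∞}

lemma hit_next (hf : ∑' γ, f γ = 1) (n : ℕ) (a : List Γ) (ζ : Γ) :
    E f n (fun l => ind (a ++ [ζ] <+: l)) ≤ f ζ * E f n (fun l => ind (a <+: l)) := by
  induction n generalizing a with
  | zero => rw [E_zero, ind_neg (by simp)]; exact zero_le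
  | succ n ih =>
    cases a with
    | nil =>
      have h1 : E f (n + 1) (fun l => ind (([] : List Γ) <+: l)) = 1 := by
        simp only [ind_pos List.nil_prefix]; exact E_const hf _ _
      rw [h1, mul_one, E_succ, ← tsum_ind_eq ζ f]
      refine ENNReal.tsum_le_tsum fun γ => ?_
      rw [mul_comm]
      refine mul_le_mul_left (E_le_const hf fun l _ _ => ind_mono fun h => ?_) _
      exact ((List.cons_prefix_cons).1 h).1.symm
    | cons α a =>
      rw [E_succ, E_succ, ← ENNReal.tsum_mul_left]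
      refine ENNReal.tsum_le_tsum fun γ => ?_
      rw [mul_left_comm]
      refine mul_le_mul_right ?_ _
      by_cases hγ : α = γ
      · subst hγ
        simp only [List.cons_append, List.prefix_cons_inj]
        exact ih a
      · refine le_trans (E_le_const hf (c := 0) fun l _ _ => (ind_neg fun h => hγ ?_).le) zero_le
        exact ((List.cons_prefix_cons).1 h).1

/-- The next entry is independent of the past. -/
lemma hit_pred (hf : ∑' γ, f γ = 1) (n : ℕ) (P : List Γ → Γ → Prop) :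
    E f n (fun l => ind (∃ a ζ, a ++ [ζ] <+: l ∧ P a ζ)) ≤
      ∑' ζ, f ζ * E f n fun l => ∑' a, ind (a <+: l ∧ P a ζ) := by
  calc E f n (fun l => ind (∃ a ζ, a ++ [ζ] <+: l ∧ P a ζ))
      ≤ E f n (fun l => ∑' ζ, ∑' a, ind (a ++ [ζ] <+: l) * ind (P a ζ)) := by
        refine E_mono f n fun l => ?_
        rw [ind_congr exists_comm]
        refine (ind_exists_le _).trans (ENNReal.tsum_le_tsum fun ζ => ?_)
        refine (ind_exists_le _).trans (ENNReal.tsum_le_tsum fun a => ?_)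
        rw [ind_and]
    _ = ∑' ζ, ∑' a, E f n (fun l => ind (a ++ [ζ] <+: l)) * ind (P a ζ) := by
        simp only [E_tsum, E_mul_right]
    _ ≤ ∑' ζ, ∑' a, f ζ * E f n (fun l => ind (a <+: l)) * ind (P a ζ) :=
        ENNReal.tsum_le_tsum fun ζ => ENNReal.tsum_le_tsum fun a =>
          mul_le_mul_left (hit_next hf n a ζ) _
    _ = _ := by
        simp only [E_tsum, ind_and, E_mul_right, ← ENNReal.tsum_mul_left, mul_assoc]

/-- Tightness. -/
lemma hit_tight (hf : ∑' γ, f γ = 1) (k : ℕ) (r : List Γ → ℕ) {ε : ℝ≥0∞} (hε : ε ≠ 0) :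
    ∃ B : ℕ, E f k (fun l => ind (B ≤ r l)) ≤ ε := by
  have h1 : ∑' l : List Γ, ind (l.length = k) * (l.map f).prod ≠ ∞ := by
    have := E_eq_tsum f k fun _ => 1
    rw [E_const hf] at this
    simp only [mul_one] at this
    rw [← this]; exact ENNReal.one_ne_top
  obtain ⟨B₀, hB⟩ := tail_small _ h1 (fun l => (r l : ℝ)) hε
  refine ⟨⌈B₀⌉₊, le_trans (le_of_eq ?_) (hB ⌈B₀⌉₊ (Nat.le_ceil _))⟩
  rw [E_eq_tsum]
  congr with l
  rw [ind_congr (Nat.cast_le (α := ℝ))]
  ring

/-- Iterated shifts. -/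
lemma hit_iter {G : Type*} [AddCommGroup G] {S : List Γ → G} {m : ℕ} {v : G} {δ : ℝ≥0∞}
    (h : ∀ φ : G → ℝ≥0∞, (∀ y, φ y ≤ 1) →
      E f m (fun l => φ (S l)) ≤ E f m (fun l => φ (S l + v)) + δ)
    (j : ℕ) (φ : G → ℝ≥0∞) (hφ : ∀ y, φ y ≤ 1) :
    E f m (fun l => φ (S l)) ≤ E f m (fun l => φ (S l + j • v)) + j * δ := by
  induction j with
  | zero => simp
  | succ j ih =>
    have h1 := h (fun y => φ (y + j • v)) fun y => hφ _
    calc E f m (fun l => φ (S l)) ≤ E f m (fun l => φ (S l + j • v)) + j * δ := ih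
      _ ≤ E f m (fun l => φ (S l + v + j • v)) + δ + j * δ := add_le_add_left h1 _
      _ = _ := by
        simp only [succ_nsmul, add_assoc, add_comm v]
        push_cast; ring

end General

lemma hit_dir (D : Dir d) (k : Fin d) : ∃ b, 0 ≤ D.h (vec (k, b)) := by
  rcases le_total 0 (D.h (vec (k, true))) with h | h
  · exact ⟨true, h⟩
  · refine ⟨!true, ?_⟩
    have := vec_flip ((k, true) : Step d)
    simp only at this
    rw [this, map_neg]; linarith

lemma hit_shift (hc : M.Good D c) {e : Step d} (he : e ≠ D.e) (h : 0 ≤ D.h (vec e))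
    {δ : ℝ≥0∞} (hδ : δ ≠ 0) : ∃ m₀, ∀ m, m₀ ≤ m → ∀ φ : Site d → ℝ≥0∞, (∀ y, φ y ≤ 1) →
      E (M.f D) m (fun l => φ (disp l.flatten)) ≤
        E (M.f D) m (fun l => φ (disp l.flatten + vec e)) + δ := by
  obtain ⟨m₀, hm⟩ := shift_insens (f_sum hc) disp ((M.f_ne_zero D).2 (irr_pair D he h))
    ((M.f_ne_zero D).2 (irr_single D)) hδ
  refine ⟨m₀, fun m hm' φ hφ => ?_⟩
  have := hm m hm' φ hφ
  simpa [disp_flatten] using this

lemma hit_indep {k k' : Fin d} (hk : k ≠ k') (b b' : Bool) {i j i' j' : ℕ}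
    (h : i • vec (k, b) + j • vec (k', b') = i' • vec (k, b) + j' • vec (k', b')) :
    (i, j) = (i', j') := by
  have h1 := congrFun h k
  have h2 := congrFun h k'
  cases b <;> cases b' <;> simp [vec, hk, hk.symm] at h1 h2 <;> simp [h1, h2]

/-- A given point is unlikely to be an endpoint of a piece of the descending walk. -/
lemma hit_point (hd : 3 ≤ d) (hc : M.Good D c) (hc' : M.Good D.neg c) {ε : ℝ≥0∞} (hε : ε ≠ 0) :
    ∃ m₀, ∀ m, m₀ ≤ m → ∀ n x, E (M.f D) m (fun γs => E (M.f D.neg) n fun ζs =>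
      ind (∃ a, a <+: ζs ∧ disp γs.flatten + disp a.flatten = x)) ≤ ε := by
  obtain ⟨k, hk, k', hk', hkk⟩ : ∃ k ∈ univ.erase D.e.1, ∃ k' ∈ univ.erase D.e.1, k ≠ k' := by
    rw [← one_lt_card, card_erase_of_mem (mem_univ _), card_univ, Fintype.card_fin]
    omega
  obtain ⟨b, hb⟩ := hit_dir D k
  obtain ⟨b', hb'⟩ := hit_dir D k'
  have he : (k, b) ≠ D.e := fun h => (mem_erase.1 hk).1 (by rw [← h])
  have he' : (k', b') ≠ D.e := fun h => (mem_erase.1 hk').1 (by rw [← h])
  obtain ⟨ε₁, hε₁, h₁⟩ := hit_small hε 2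
  obtain ⟨J, hJ⟩ := ENNReal.exists_nat_mul_gt hε₁ (b := 2) (by simp)
  have hJ0 : J ≠ 0 := by rintro rfl; simp at hJ
  obtain ⟨δ, hδ, h₂⟩ := hit_small hε₁ (2 * J)
  obtain ⟨m₁, hm₁⟩ := hit_shift hc he hb hδ
  obtain ⟨m₂, hm₂⟩ := hit_shift hc he' hb' hδ
  refine ⟨max m₁ m₂, fun m hm n x => ?_⟩
  set v := vec ((k, b) : Step d) with hv
  set v' := vec ((k', b') : Step d) with hv'
  set Φ : Site d → ℝ≥0∞ := fun y => E (M.f D.neg) n fun ζs =>
      ind (∃ a, a <+: ζs ∧ y + disp a.flatten = x) with hΦ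
  have hΦ1 : ∀ y, Φ y ≤ 1 := fun y => E_ind_le_one (f_sum hc') _ _
  have hstep : ∀ q ∈ range J ×ˢ range J, E (M.f D) m (fun l => Φ (disp l.flatten)) ≤
      E (M.f D) m (fun l => Φ (disp l.flatten + (q.1 • v + q.2 • v'))) + ε₁ := by
    intro q hq
    have hq1 : (q.1 : ℝ≥0∞) ≤ J := by exact_mod_cast (mem_range.1 (mem_product.1 hq).1).le
    have hq2 : (q.2 : ℝ≥0∞) ≤ J := by exact_mod_cast (mem_range.1 (mem_product.1 hq).2).le
    have a1 := hit_iter (hm₂ m (le_of_max_le_right hm)) q.2 Φ hΦ1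
    have a2 := hit_iter (hm₁ m (le_of_max_le_left hm)) q.1 (fun y => Φ (y + q.2 • v'))
      fun y => hΦ1 _
    simp only [add_assoc] at a2
    refine a1.trans ((add_le_add_left a2 _).trans ?_)
    rw [add_assoc]
    refine add_le_add_right (le_trans ?_ h₂) _
    push_cast
    rw [two_mul, add_mul]
    exact add_le_add (mul_le_mul_left hq1 _) (mul_le_mul_left hq2 _)
  have hcount : ∀ y : Site d, ∑ q ∈ range J ×ˢ range J, Φ (y + (q.1 • v + q.2 • v')) ≤
      ((2 * J : ℕ) : ℝ≥0∞) := by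
    intro y
    simp only [hΦ]
    rw [← E_sum]
    refine E_le_const (f_sum hc') fun ζs _ hζ => ?_
    have hirr : ∀ γ ∈ ζs, D.neg.Irr γ := fun γ hγ => (M.f_ne_zero D.neg).1 (hζ γ hγ)
    refine le_trans ?_ (tsum_ind_sep (p := fun q : ℕ × ℕ => q ∈ range J ×ˢ range J ∧
      ∃ a, a <+: ζs ∧ y + (q.1 • v + q.2 • v') + disp a.flatten = x)
      (fun q => D.h (q.1 • v + q.2 • v')) (x₀ := 0) D.hL (2 * J) ?_ ?_)
    · refine le_trans (sum_le_sum fun q hq => ?_) (ENNReal.sum_le_tsum (range J ×ˢ range J))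
      exact ind_mono fun h => ⟨hq, h⟩
    · rintro q q' ⟨-, a, ha, hx⟩ ⟨-, a', ha', hx'⟩ hne
      have hne' : a ≠ a' := by
        rintro rfl
        apply hne
        have := add_left_cancel (add_right_cancel (hx.trans hx'.symm))
        exact hit_indep hkk b b' this
      have h1 := hit_sep hirr ha ha' hne'
      have h2 := congrArg D.h (hx.trans hx'.symm)
      rw [map_add D.h (y + _), map_add D.h (y + _), map_add D.h y, map_add D.h y] at h2
      rw [Dir.neg_L, Dir.neg_lev, Dir.neg_lev] at h1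
      refine h1.trans (le_of_eq ?_)
      congr 1
      simp only [Dir.lev]
      linarith
    · rintro q ⟨hq, -⟩
      have hq1 : (q.1 : ℝ) + 1 ≤ J := by exact_mod_cast mem_range.1 (mem_product.1 hq).1
      have hq2 : (q.2 : ℝ) + 1 ≤ J := by exact_mod_cast mem_range.1 (mem_product.1 hq).2
      have c1 : D.h v ≤ D.L := (le_abs_self _).trans (D.hle _)
      have c2 : D.h v' ≤ D.L := (le_abs_self _).trans (D.hle _)
      have c3 := mul_le_mul_of_nonneg_left c1 (Nat.cast_nonneg (α := ℝ) q.1)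
      have c4 := mul_le_mul_of_nonneg_left c2 (Nat.cast_nonneg (α := ℝ) q.2)
      have c5 := mul_le_mul_of_nonneg_right hq1 D.hL.le
      have c6 := mul_le_mul_of_nonneg_right hq2 D.hL.le
      have c7 := mul_nonneg (Nat.cast_nonneg (α := ℝ) q.1) hb
      have c8 := mul_nonneg (Nat.cast_nonneg (α := ℝ) q.2) hb'
      have c9 := D.hL
      rw [map_add, map_nsmul, map_nsmul, nsmul_eq_mul, nsmul_eq_mul]
      push_cast
      constructor <;> linarith
  have hsum := sum_le_sum hstep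
  rw [sum_const, sum_add_distrib, sum_const, ← E_sum, card_product, card_range, nsmul_eq_mul,
    nsmul_eq_mul] at hsum
  have hb2 : E (M.f D) m (fun l => ∑ q ∈ range J ×ˢ range J,
      Φ (disp l.flatten + (q.1 • v + q.2 • v'))) ≤ ((J * J : ℕ) : ℝ≥0∞) * ε₁ := by
    refine (E_le_const (f_sum hc) fun l _ _ => hcount _).trans ?_
    push_cast
    rw [mul_comm 2, mul_assoc]
    exact mul_le_mul_right hJ.le _
  have hfin := hsum.trans (add_le_add_left hb2 _)
  rw [← mul_add,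
    ENNReal.mul_le_mul_iff_right (by simpa using hJ0) (ENNReal.natCast_ne_top _)] at hfin
  refine hfin.trans (le_trans (le_of_eq ?_) h₁)
  push_cast; ring

/-- Long pieces rarely pass through a given range of levels. -/
lemma hit_long (hc : M.Good D c) (B : ℕ) {ε : ℝ≥0∞} (hε : ε ≠ 0) :
    ∃ B' : ℕ, ∀ (n : ℕ) (t : ℝ), E (M.f D) n (fun ζs => ind (∃ a ζ, a ++ [ζ] <+: ζs ∧
      B' ≤ ζ.length ∧ -(B * D.L) ≤ t - D.lev a.flatten ∧
        t - D.lev a.flatten ≤ B * D.L + D.lev ζ)) ≤ ε := by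
  set J : List (Step d) → ℕ := fun ζ => 2 * B + 1 + ⌊D.lev ζ / D.L⌋₊ with hJ
  have hfin : ∑' ζ, M.f D ζ * J ζ ≠ ∞ := by
    have h1 : ∀ ζ, M.f D ζ * J ζ ≤ ((2 * B + 1 : ℕ) : ℝ≥0∞) * M.f D ζ +
        ENNReal.ofReal D.L⁻¹ * (M.f D ζ * ENNReal.ofReal (D.lev ζ)) := by
      intro ζ
      have h2 : (⌊D.lev ζ / D.L⌋₊ : ℝ≥0∞) ≤
          ENNReal.ofReal D.L⁻¹ * ENNReal.ofReal (D.lev ζ) := by
        rw [← ENNReal.ofReal_mul (inv_nonneg.2 D.hL.le), ← div_eq_inv_mul]
        rcases le_total 0 (D.lev ζ / D.L) with h | h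
        · rw [← ENNReal.ofReal_natCast]
          exact ENNReal.ofReal_le_ofReal (Nat.floor_le h)
        · rw [Nat.floor_of_nonpos h]; simp
      simp only [hJ]
      rw [Nat.cast_add, mul_add, mul_comm, mul_left_comm]
      exact add_le_add_right (mul_le_mul_right h2 _) _
    refine ne_top_of_le_ne_top ?_ (ENNReal.tsum_le_tsum h1)
    rw [ENNReal.tsum_add, ENNReal.tsum_mul_left, ENNReal.tsum_mul_left, f_sum hc]
    exact ENNReal.add_ne_top.2 ⟨ENNReal.mul_ne_top (ENNReal.natCast_ne_top _) ENNReal.one_ne_top,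
      ENNReal.mul_ne_top ENNReal.ofReal_ne_top (f_mean hc)⟩
  obtain ⟨B₀, hB⟩ := tail_small _ hfin (fun ζ => (ζ.length : ℝ)) hε
  refine ⟨⌈B₀⌉₊, fun n t => ?_⟩
  refine (hit_pred (f_sum hc) n _).trans (le_trans ?_ (hB ⌈B₀⌉₊ (Nat.le_ceil _)))
  refine ENNReal.tsum_le_tsum fun ζ => ?_
  rw [mul_left_comm]
  refine mul_le_mul_right (E_le_const (f_sum hc) fun ζs _ hζ => ?_) _
  have hirr : ∀ γ ∈ ζs, D.Irr γ := fun γ hγ => (M.f_ne_zero D).1 (hζ γ hγ)
  by_cases hl : ⌈B₀⌉₊ ≤ ζ.length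
  · rw [ind_pos (by exact_mod_cast hl), one_mul]
    refine tsum_ind_sep (fun a : List (List (Step d)) => t - D.lev a.flatten)
      (x₀ := -(B * D.L)) D.hL (J ζ) ?_ ?_
    · rintro a a' ⟨ha, -⟩ ⟨ha', -⟩ hne
      refine (hit_sep hirr ha' ha hne.symm).trans (le_of_eq ?_)
      congr 1; ring
    · rintro a ⟨-, -, h1, h2⟩
      refine ⟨h1, ?_⟩
      have h3 := Nat.lt_floor_add_one (D.lev ζ / D.L)
      rw [div_lt_iff₀ D.hL] at h3
      simp only [hJ]
      push_cast
      linarith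
  · have : ∀ a : List (List (Step d)), ind (a <+: ζs ∧ ⌈B₀⌉₊ ≤ ζ.length ∧
        -(B * D.L) ≤ t - D.lev a.flatten ∧ t - D.lev a.flatten ≤ B * D.L + D.lev ζ) = 0 :=
      fun a => ind_neg fun h => hl h.2.1
    simp only [this, tsum_zero]
    exact zero_le

theorem hit (hd : 3 ≤ d) (hc : M.Good D c) (hc' : M.Good D.neg c) (k : ℕ) {ε : ℝ≥0∞}
    (hε : ε ≠ 0) : ∃ m₀, ∀ m, m₀ ≤ m → ∀ n,
      E (M.f D) m (fun γs => E (M.f D.neg) n fun ζs => ind (∃ p p', p <+: (γs.take k).flatten ∧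
        p' <+: ζs.flatten ∧ disp p = disp γs.flatten + disp p')) ≤ ε := by
  classical
  obtain ⟨δ, hδ, h₃⟩ := hit_small hε 3
  obtain ⟨B, hB⟩ := hit_tight (f_sum hc) k (fun l => l.flatten.length) hδ
  obtain ⟨B', hB'⟩ := hit_long hc' B hδ
  set F : Finset (Site d) := ((List.finite_length_le (Step d) B).toFinset ×ˢ
    (List.finite_length_le (Step d) B').toFinset).image fun q => disp q.1 - disp q.2 with hF
  obtain ⟨δ', hδ', h₄⟩ := hit_small hδ F.card
  obtain ⟨m₀, hm⟩ := hit_point hd hc hc' hδ'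
  refine ⟨max m₀ k, fun m hmk n => ?_⟩
  have key : ∀ (γs ζs : List (List (Step d))), (∀ γ ∈ ζs, D.neg.Irr γ) →
      ind (∃ p p', p <+: (γs.take k).flatten ∧
        p' <+: ζs.flatten ∧ disp p = disp γs.flatten + disp p') ≤
      ind (B ≤ (γs.take k).flatten.length) +
      ∑ x ∈ F, ind (∃ a, a <+: ζs ∧ disp γs.flatten + disp a.flatten = x) +
      ind (∃ a ζ, a ++ [ζ] <+: ζs ∧ B' ≤ ζ.length ∧
        -(B * D.neg.L) ≤ D.lev γs.flatten - D.neg.lev a.flatten ∧
        D.lev γs.flatten - D.neg.lev a.flatten ≤ B * D.neg.L + D.neg.lev ζ) := by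
    intro γs ζs hirr
    apply ind_le_of
    rintro ⟨p, p', hp, hp', he⟩
    by_cases h1 : B ≤ (γs.take k).flatten.length
    · rw [ind_pos h1, add_assoc]; exact le_self_add
    have hpB : p.length ≤ B := hp.length_le.trans (not_le.1 h1).le
    obtain ⟨a, q, rfl, ha, hq⟩ := hit_decomp ζs hp'
    by_cases h2 : q.length ≤ B'
    · have hx : disp p - disp q ∈ F := by
        rw [hF]
        exact mem_image.2 ⟨(p, q), mem_product.2 ⟨by simpa using hpB, by simpa using h2⟩, rfl⟩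
      refine le_trans ?_ (le_self_add.trans' le_add_self)
      refine le_trans ?_ (single_le_sum (f := fun x =>
        ind (∃ a, a <+: ζs ∧ disp γs.flatten + disp a.flatten = x)) (fun _ _ => zero_le) hx)
      refine (ind_pos ⟨a, ha, ?_⟩).ge
      rw [he, disp_append]; abel
    · rcases hq with rfl | ⟨ζ, hζ, hq⟩
      · simp at h2
      have hI : D.neg.Irr ζ := hirr ζ (hζ.subset (by simp))
      have c1 : 0 ≤ D.neg.lev q := hI.1.1 q hq
      have c2 : D.neg.lev q ≤ D.neg.lev ζ := by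
        have := flatten_lev_le (D := D.neg) (γs := [ζ]) (by simpa using hI) (p := q)
          (by simpa using hq)
        simpa only [List.flatten_cons, List.flatten_nil, List.append_nil] using this
      have c3 := abs_le.1 (D.abs_lev_le p)
      have c4 : (p.length : ℝ) * D.L ≤ B * D.L :=
        mul_le_mul_of_nonneg_right (by exact_mod_cast hpB) D.hL.le
      have c5 : D.lev p = D.lev γs.flatten + (D.lev a.flatten + D.lev q) := by
        simp only [Dir.lev, he, disp_append, map_add]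
      refine le_trans (ind_pos ⟨a, ζ, hζ, (not_le.1 h2).le.trans hq.length_le, ?_⟩).ge le_add_self
      simp only [Dir.neg_L, Dir.neg_lev] at c1 c2 ⊢
      constructor <;> linarith [c3.1, c3.2]
  refine le_trans (E_mono _ _ fun γs => E_mono' _ fun ζs _ hζ =>
    key γs ζs fun γ hγ => (M.f_ne_zero D.neg).1 (hζ γ hγ)) ?_
  simp only [E_add, E_sum, E_const (f_sum hc')]
  have e1 : E (M.f D) m (fun γs => ind (B ≤ (γs.take k).flatten.length)) ≤ δ := by
    rw [E_take (f_sum hc) (le_of_max_le_right hmk) fun l => ind (B ≤ l.flatten.length)]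
    exact hB
  have e2 := (sum_le_sum fun x (_ : x ∈ F) => hm m (le_of_max_le_left hmk) n x).trans
    (show _ ≤ δ by rw [sum_const, nsmul_eq_mul]; exact h₄)
  have e3 := E_le_const (f_sum hc) (n := m) fun γs _ _ => hB' n (D.lev γs.flatten)
  refine (add_le_add (add_le_add e1 e2) e3).trans (le_trans (le_of_eq ?_) h₃)
  push_cast; ring

end Vale.Agent.P147
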