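import Vale.Agent.P147.ReachAux

/-! Polynomial tail of the size of a piece. -/

namespace Vale.Agent.P147

open MeasureTheory ProbabilityTheory Finset Filter
open scoped ENNReal

variable {d : ℕ} {Ω : Type} [MeasurableSpace Ω] {M : Model d Ω} {D : Dir d} {c : ℝ≥0∞}

/-- A signed coordinate plus a multiple of the level. -/
noncomputable def rTh (D : Dir d) (a : ℕ) (s : Step d) : Site d →+ ℝ where
  toFun x := (if s.2 then 1 else -1) * (x s.1 : ℝ) + (a + 1) / D.L * D.h x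
  map_zero' := by simp
  map_add' x y := by simp only [Pi.add_apply, Int.cast_add, map_add]; ring

lemma rTh_disp (a : ℕ) (s : Step d) (p : List (Step d)) :
    rTh D a s (disp p) =
      (if s.2 then 1 else -1) * (disp p s.1 : ℝ) + (a + 1) / D.L * D.lev p := rfl

lemma reach_sg (b : Bool) (z : ℤ) :
    -(z.natAbs : ℝ) ≤ (if b then 1 else -1) * (z : ℝ) ∧
      (if b then 1 else -1) * (z : ℝ) ≤ z.natAbs := by
  rw [Nat.cast_natAbs, Int.cast_abs]
  cases b
  · simp only [Bool.false_eq_true, if_false]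
    constructor <;> linarith [le_abs_self (z : ℝ), neg_abs_le (z : ℝ)]
  · simp only [if_true]
    constructor <;> linarith [le_abs_self (z : ℝ), neg_abs_le (z : ℝ)]

lemma reach_vec (e : Step d) (k : Fin d) : (vec e k).natAbs ≤ 1 := by
  unfold vec
  by_cases h : k = e.1
  · subst h
    rw [Pi.single_eq_same]
    split_ifs <;> simp
  · rw [Pi.single_eq_of_ne h]; simp

lemma rTh_step (a i : ℕ) (s e : Step d) : rTh D a s (vec e) ≤ 2 * ((a + 1) * 2 ^ i) := by
  have hL := D.hL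
  have h1 := (reach_sg s.2 (vec e s.1)).2
  have h2 : ((vec e s.1).natAbs : ℝ) ≤ 1 := by exact_mod_cast reach_vec e s.1
  have h3 : ((a : ℝ) + 1) / D.L * D.h (vec e) ≤ a + 1 := by
    rw [div_mul_eq_mul_div, div_le_iff₀ hL]
    exact mul_le_mul_of_nonneg_left ((le_abs_self _).trans (D.hle e)) (by positivity)
  have h4 : (1 : ℝ) ≤ 2 ^ i := one_le_pow₀ one_le_two
  have h5 : (0 : ℝ) ≤ a := Nat.cast_nonneg a
  change (if s.2 then 1 else -1) * (vec e s.1 : ℝ) + (a + 1) / D.L * D.h (vec e) ≤ _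
  nlinarith

lemma reach_geom {γs : List (List (Step d))} (h : ∀ γ ∈ γs, D.Irr γ) {p : List (Step d)}
    (hp : p <+: γs.flatten) (k : Fin d) : ∃ j ≤ γs.length,
      (disp p k).natAbs ≤ ((γs.take j).map reach).sum ∧ ((j : ℝ) - 1) * D.L ≤ D.lev p := by
  have hL := D.hL
  induction γs generalizing p with
  | nil =>
    obtain rfl : p = [] := by simpa using hp
    exact ⟨0, le_rfl, by simp, by simp [hL.le]⟩
  | cons γ γs ih =>
    have hγ := h γ (by simp)
    rw [List.flatten_cons] at hp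
    rcases List.prefix_or_prefix_of_prefix hp (List.prefix_append γ γs.flatten) with h1 | h1
    · exact ⟨1, by simp, by simpa using le_reach h1 k, by simpa using hγ.1.1 p h1⟩
    · obtain ⟨p', rfl⟩ := h1
      obtain ⟨j, hj, h2, h3⟩ := ih (fun γ' hγ' => h γ' (by simp [hγ']))
        ((List.prefix_append_right_inj γ).1 hp)
      have h4 : D.L ≤ D.lev γ := by
        simpa using flatten_lev (D := D) (γs := [γ]) (by simpa using hγ)
      refine ⟨j + 1, by simpa using hj, ?_, ?_⟩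
      · rw [List.take_succ_cons, List.map_cons, List.sum_cons, disp_append, Pi.add_apply]
        exact (Int.natAbs_add_le _ _).trans (add_le_add (le_reach (List.prefix_refl γ) k) h2)
      · rw [Dir.lev_append]
        push_cast
        linarith

lemma reach_cone {γs : List (List (Step d))} (h : ∀ γ ∈ γs, D.Irr γ) {a : ℕ}
    (ha : ∀ j ≤ γs.length, ((γs.take j).map reach).sum ≤ j * a) {p : List (Step d)}
    (hp : p <+: D.e :: γs.flatten) (k : Fin d) :
    ((disp p k).natAbs : ℝ) ≤ (a + 1) / D.L * D.lev p := by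
  have hL := D.hL
  rcases List.prefix_cons_iff.1 hp with rfl | ⟨p', rfl, hp'⟩
  · simp
  · obtain ⟨j, hj, h2, h3⟩ := reach_geom h hp' k
    have h4 := flatten_above h p' hp'
    have h5 : D.lev (D.e :: p') = D.L + D.lev p' := by
      rw [← Dir.lev_single, ← Dir.lev_append]; rfl
    have h6 : (disp (D.e :: p') k).natAbs ≤ 1 + j * a := by
      rw [disp_cons, Pi.add_apply]
      exact (Int.natAbs_add_le _ _).trans (add_le_add (reach_vec _ _) (h2.trans (ha j hj)))
    have h7 : ((disp (D.e :: p') k).natAbs : ℝ) ≤ 1 + j * a := by exact_mod_cast h6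
    refine h7.trans ?_
    rw [h5, div_mul_eq_mul_div, le_div_iff₀ hL]
    have h8 : (0 : ℝ) ≤ a := Nat.cast_nonneg a
    nlinarith [mul_le_mul_of_nonneg_left h3 h8]

/-- Paths which cross the slab inside a cone. -/
def rT (D : Dir d) (i a : ℕ) (s : Step d) (δ : List (Step d)) : Prop :=
  (2 ^ i * D.L < D.lev δ ∧ ∀ p, p <+: δ → p ≠ δ → ¬2 ^ i * D.L < D.lev p) ∧
    ∀ p, p <+: δ → 0 ≤ rTh D a s (disp p) ∧ rTh D a s (disp p) ≤ 4 * ((a + 1) * 2 ^ i)

lemma rT_exists {i a : ℕ} (s : Step d) {γs : List (List (Step d))} (h : ∀ γ ∈ γs, D.Irr γ)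
    (hl : γs.length = 2 ^ i) (ha : ∀ j ≤ γs.length, ((γs.take j).map reach).sum ≤ j * a) :
    ∃ δ, rT D i a s δ ∧ δ <+: D.e :: γs.flatten := by
  have hL := D.hL
  have h1 : 2 ^ i * D.L < D.lev (D.e :: γs.flatten) := by
    have h5 : D.lev (D.e :: γs.flatten) = D.L + D.lev γs.flatten := by
      rw [← Dir.lev_single, ← Dir.lev_append]; rfl
    have := flatten_lev h
    rw [hl] at this
    push_cast at this
    linarith
  obtain ⟨δ, h2, h3, h4⟩ := reach_first (fun l => 2 ^ i * D.L < D.lev l) _ h1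
  refine ⟨δ, ⟨⟨h3, h4⟩, fun p hp => ?_⟩, h2⟩
  have h5 := reach_cone h ha (hp.trans h2) s.1
  have h6 := reach_sg s.2 (disp p s.1)
  have h7 : (1 : ℝ) ≤ 2 ^ i := one_le_pow₀ one_le_two
  have h8 : D.lev p ≤ 2 * (2 ^ i * D.L) := by
    rcases List.eq_nil_or_concat p with rfl | ⟨q, e, rfl⟩
    · rw [Dir.lev_nil]; positivity
    · rw [List.concat_eq_append] at hp ⊢
      have h9 := h4 q ((List.prefix_append q [e]).trans hp) (by
        rintro rfl
        simpa using hp.length_le)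
      have h10 := D.abs_lev_le [e]
      rw [Dir.lev_append]
      simp only [List.length_singleton, Nat.cast_one, one_mul] at h10
      nlinarith [le_abs_self (D.lev [e])]
  have h9 : ((a : ℝ) + 1) / D.L * D.lev p ≤ 2 * ((a + 1) * 2 ^ i) := by
    rw [div_mul_eq_mul_div, div_le_iff₀ hL]
    nlinarith [mul_le_mul_of_nonneg_left h8 (show (0 : ℝ) ≤ a + 1 by positivity)]
  rw [rTh_disp]
  constructor <;> linarith [h6.1, h6.2]

lemma reach_dom (hc : M.Good D c) (n : ℕ) (F : List (Step d) → Prop) :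
    c * E (M.f D) n (fun γs => ind (∃ δ, F δ ∧ δ <+: γs.flatten)) ≤
      ∑' δ, ind (F δ) * M.W δ := by
  calc c * E (M.f D) n (fun γs => ind (∃ δ, F δ ∧ δ <+: γs.flatten))
      ≤ c * E (M.f D) n (fun γs => ∑' δ, ind (F δ) * ind (δ <+: γs.flatten)) := by
        refine mul_le_mul_right (E_mono _ _ fun γs => ?_) _
        simpa only [ind_and] using ind_exists_le fun δ => F δ ∧ δ <+: γs.flatten
    _ = ∑' δ, ind (F δ) * (c * E (M.f D) n fun γs => ind (δ <+: γs.flatten)) := by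
        rw [E_tsum, ← ENNReal.tsum_mul_left]
        congr with δ
        rw [E_mul_left]; ring
    _ ≤ _ := ENNReal.tsum_le_tsum fun δ => mul_le_mul_right (dom hc n δ) _

/-- The truncated mean size of a piece. -/
noncomputable def rM (M : Model d Ω) (D : Dir d) (i : ℕ) : ℝ≥0∞ :=
  ∑' γ, M.f D γ * (ind (rCls D i γ) * reach γ)

lemma rT_mass (hc : M.Good D c) {c₁ : ℝ≥0∞} (hc₁ : c₁ ≤ 1) {i a : ℕ} (s : Step d)
    (h1 : c₁ ≤ E (M.f D) (2 ^ i) fun l => ind (∀ γ ∈ l, rCls D i γ)) (ha0 : a ≠ 0)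
    (ha : rM M D i ≤ a * (c₁ / 2)) :
    c * (M.f D [D.e] * (c₁ / 2)) ≤ ∑' δ, ind (rT D i a s δ) * M.W δ := by
  have hf := f_sum hc
  have h2 := (garsia hf (fun γ => ind (rCls D i γ) * reach γ) a (2 ^ i)).trans ha
  rw [ENNReal.mul_le_mul_iff_right (by simpa using ha0) (ENNReal.natCast_ne_top a)] at h2
  have h3 : c₁ ≤ E (M.f D) (2 ^ i) (fun l =>
      ind (∀ j ≤ l.length, ((l.take j).map reach).sum ≤ j * a)) + c₁ / 2 := by
    refine h1.trans (le_trans ?_ (add_le_add_right h2 _))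
    rw [← E_add]
    refine E_mono' _ fun l hl _ => ind_le_of fun h => ?_
    by_cases h' : ∀ j ≤ l.length, ((l.take j).map reach).sum ≤ j * a
    · rw [ind_pos h']; exact le_self_add
    · simp only [not_forall, not_le] at h'
      obtain ⟨j, hj, h'⟩ := h'
      refine le_trans (ind_pos ⟨j, hl ▸ hj, ?_⟩).symm.le le_add_self
      have : (l.take j).map (fun γ => ind (rCls D i γ) * (reach γ : ℝ≥0∞)) =
          ((l.take j).map reach).map Nat.cast := by
        rw [List.map_map]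
        refine List.map_congr_left fun γ hγ => ?_
        rw [ind_pos (h γ (List.mem_of_mem_take hγ)), one_mul]; rfl
      rw [this, ← Nat.cast_list_sum]
      exact_mod_cast h'
  have hne : c₁ / 2 ≠ ∞ := ENNReal.div_ne_top (ne_top_of_le_ne_top ENNReal.one_ne_top hc₁) (by simp)
  nth_rewrite 1 [← ENNReal.add_halves c₁] at h3
  rw [ENNReal.add_le_add_iff_right hne] at h3
  refine le_trans (mul_le_mul_right ?_ _) (reach_dom hc (2 ^ i + 1) (rT D i a s))
  rw [E_succ]
  refine le_trans (mul_le_mul_right (h3.trans ?_) _) (ENNReal.le_tsum [D.e])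
  refine E_mono' _ fun l hl hl' => ind_mono fun h => ?_
  exact rT_exists s (fun γ hγ => (M.f_ne_zero D).1 (hl' γ hγ)) hl h

lemma reach_attained (γ : List (Step d)) (k₀ : Fin d) :
    ∃ p k, p <+: γ ∧ reach γ ≤ (disp p k).natAbs := by
  obtain ⟨σ, _, h1⟩ := exists_mem_eq_sup (range (γ.length + 1)) ⟨0, by simp⟩
    fun σ => univ.sup fun k => (disp (γ.take σ) k).natAbs
  obtain ⟨k, _, h2⟩ := exists_mem_eq_sup univ ⟨k₀, mem_univ _⟩
    fun k => (disp (γ.take σ) k).natAbs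
  exact ⟨γ.take σ, k, List.take_prefix _ _, (h1.trans h2).le⟩

lemma reach_trial (hc : M.Good D c) {β : ℝ≥0∞} {i a : ℕ}
    (hβ : ∀ s, β ≤ ∑' δ, ind (rT D i a s δ) * M.W δ) (j : ℕ) :
    c * ∑' γ, M.f D γ * ind (rCls D (i + 1) γ ∧ j * (6 * ((a + 1) * 2 ^ i)) ≤ reach γ) ≤
      Fintype.card (Step d) * (1 - β) ^ j := by
  have hL := D.hL
  set F : Step d → List (Step d) → Prop := fun s l =>
    (∀ p, p <+: l → 0 ≤ D.lev p ∧ D.lev p ≤ 2 ^ i * D.L) ∧
      j * (4 * (((a : ℝ) + 1) * 2 ^ i) + 2 * ((a + 1) * 2 ^ i)) ≤ rTh D a s (disp l) ∧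
      ∀ p, p <+: l → p ≠ l →
        rTh D a s (disp p) < j * (4 * (((a : ℝ) + 1) * 2 ^ i) + 2 * ((a + 1) * 2 ^ i)) with hF
  have h1 : ∀ s, ∑' l, ind (F s l) * M.W l ≤ (1 - β) ^ j := fun s =>
    trial M D (rTh D a s) (2 * ((a + 1) * 2 ^ i)) (4 * ((a + 1) * 2 ^ i)) 0 (2 ^ i * D.L)
      (rTh_step a i s) (by positivity) (by positivity) β (rT D i a s)
      (fun δ hδ => ⟨by rw [sub_zero]; exact hδ.1.1, hδ.2⟩)
      (fun p q hp hq h => by
        by_contra hne
        exact hq.1.2 p h hne hp.1.1) (hβ s) j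
  calc c * ∑' γ, M.f D γ * ind (rCls D (i + 1) γ ∧ j * (6 * ((a + 1) * 2 ^ i)) ≤ reach γ)
      ≤ c * E (M.f D) 1 (fun γs => ∑ s, ind (∃ δ, F s δ ∧ δ <+: γs.flatten)) := by
        rw [E_one]
        refine mul_le_mul_right (ENNReal.tsum_le_tsum fun γ => ?_) _
        by_cases hγ : M.f D γ = 0
        · simp [hγ]
        refine mul_le_mul_right (ind_le_of fun h => ?_) _
        have hI := (M.f_ne_zero D).1 hγ
        obtain ⟨p, k, hp, hk⟩ := reach_attained γ D.e.1
        have h2 : j * (4 * (((a : ℝ) + 1) * 2 ^ i) + 2 * ((a + 1) * 2 ^ i)) ≤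
            ((disp p k).natAbs : ℝ) := by
          have h3 : ((j * (6 * ((a + 1) * 2 ^ i)) : ℕ) : ℝ) ≤ ((disp p k).natAbs : ℝ) :=
            Nat.cast_le.2 (h.2.trans hk)
          push_cast at h3 ⊢
          linarith
        obtain ⟨b, hb⟩ : ∃ b : Bool, ((disp p k).natAbs : ℝ) =
            (if b then 1 else -1) * (disp p k : ℝ) := by
          rw [Nat.cast_natAbs, Int.cast_abs]
          rcases abs_choice (disp p k : ℝ) with h | h
          · exact ⟨true, by simp [h]⟩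
          · exact ⟨false, by simp [h]⟩
        have h3 : j * (4 * (((a : ℝ) + 1) * 2 ^ i) + 2 * ((a + 1) * 2 ^ i)) ≤
            rTh D a (k, b) (disp p) := by
          rw [rTh_disp]
          have h4 : 0 ≤ ((a : ℝ) + 1) / D.L * D.lev p :=
            mul_nonneg (by positivity) (hI.1.1 p hp)
          simp only
          linarith
        obtain ⟨δ, h4, h5, h6⟩ := reach_first (fun l =>
          j * (4 * (((a : ℝ) + 1) * 2 ^ i) + 2 * ((a + 1) * 2 ^ i)) ≤ rTh D a (k, b) (disp l)) p h3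
        refine le_trans (ind_pos ⟨δ, ⟨fun q hq => ?_, h5, fun q hq hne =>
          not_le.1 (h6 q hq hne)⟩, by simpa using h4.trans hp⟩).symm.le
          (single_le_sum (f := fun s => ind (∃ δ, F s δ ∧ δ <+: [γ].flatten))
            (fun _ _ => zero_le) (mem_univ (k, b)))
        have h7 := (hq.trans h4).trans hp
        refine ⟨hI.1.1 q h7, le_trans ?_ h.1⟩
        simpa using flatten_lev_le (D := D) (γs := [γ]) (by simpa using hI) (p := q)
          (by simpa using h7)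
    _ = ∑ s, c * E (M.f D) 1 (fun γs => ind (∃ δ, F s δ ∧ δ <+: γs.flatten)) := by
        rw [E_sum, mul_sum]
    _ ≤ ∑ _s : Step d, (1 - β) ^ j := sum_le_sum fun s _ => (reach_dom hc 1 (F s)).trans (h1 s)
    _ = _ := by rw [sum_const, card_univ, nsmul_eq_mul]

/-- The probability of the exact class `i + 1`. -/
noncomputable def rP (M : Model d Ω) (D : Dir d) (i : ℕ) : ℝ≥0∞ :=
  ∑' γ, M.f D γ * ind (¬rCls D i γ ∧ rCls D (i + 1) γ)

lemma rP_sum : ∑' i, 2 ^ i * rP M D i ≤ ∑' γ, M.f D γ * rW D γ := by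
  simp only [rP, ← ENNReal.tsum_mul_left]
  rw [ENNReal.tsum_comm]
  refine ENNReal.tsum_le_tsum fun γ => ?_
  have := tsum_ind_le_of_unique (p := fun i => ¬rCls D i γ ∧ rCls D (i + 1) γ)
    (g := fun i => 2 ^ i) (C := rW D γ) (fun i j hi hj => by
      rcases lt_trichotomy i j with h | h | h
      · exact absurd (rCls_mono hi.2 h) hj.1
      · exact h
      · exact absurd (rCls_mono hj.2 h) hi.1) fun i hi => rW_ge hi.1
  refine le_trans (le_of_eq ?_) (mul_le_mul_right this _)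
  rw [← ENNReal.tsum_mul_left]
  congr with i; ring

lemma rM_succ (i N j₀ : ℕ) (hN : 0 < N) : rM M D (i + 1) ≤ rM M D i + N * (j₀ * rP M D i +
    ∑' j : ℕ, ∑' γ, M.f D γ * ind (rCls D (i + 1) γ ∧ (j₀ + j) * N ≤ reach γ)) := by
  rw [ENNReal.tsum_comm, rP, rM, rM, ← ENNReal.tsum_mul_left, ← ENNReal.tsum_add,
    ← ENNReal.tsum_mul_left, ← ENNReal.tsum_add]
  refine ENNReal.tsum_le_tsum fun γ => ?_
  rw [ENNReal.tsum_mul_left]
  have key : ind (rCls D (i + 1) γ) * (reach γ : ℝ≥0∞) ≤ ind (rCls D i γ) * reach γ +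
      N * (j₀ * ind (¬rCls D i γ ∧ rCls D (i + 1) γ) +
        ∑' j : ℕ, ind (rCls D (i + 1) γ ∧ (j₀ + j) * N ≤ reach γ)) := by
    refine ind_mul_le_of fun h => ?_
    by_cases h' : rCls D i γ
    · rw [ind_pos h', one_mul]; exact le_self_add
    · refine le_trans ?_ le_add_self
      simp only [ind_and, ind_pos h, ind_pos h', one_mul, mul_one]
      exact reach_cnt _ N j₀ hN
  refine (mul_le_mul_right key _).trans (le_of_eq ?_)
  ring

lemma rM_bound (hc : M.Good D c) : ∃ g : ℕ, ∀ n, rM M D n ≤ 2 * 2 ^ (g * n) := by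
  have hf := f_sum hc
  obtain ⟨c₁, h0, h1, hc₁⟩ := reach_all hc
  have h1t : c₁ ≠ ∞ := ne_top_of_le_ne_top ENNReal.one_ne_top h1
  set β := c * (M.f D [D.e] * (c₁ / 2)) with hβ
  have hβ0 : β ≠ 0 := mul_ne_zero hc.1 (mul_ne_zero ((M.f_ne_zero D).2 (irr_single D))
    (ENNReal.div_ne_zero.2 ⟨h0, by simp⟩))
  have hρ : 1 - β < 1 := ENNReal.sub_lt_self ENNReal.one_ne_top one_ne_zero hβ0
  obtain ⟨g₀, hg₀⟩ : ∃ g₀ : ℕ, (1 - β) ^ g₀ ≤ 2⁻¹ :=
    ((ENNReal.tendsto_pow_atTop_nhds_zero_of_lt_one hρ).eventually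
      (ge_mem_nhds (show (0 : ℝ≥0∞) < 2⁻¹ by simp))).exists
  set S := Fintype.card (Step d) * (1 - (1 - β))⁻¹ / c with hS
  have hSt : S ≠ ∞ := ENNReal.div_ne_top (ENNReal.mul_ne_top (ENNReal.natCast_ne_top _)
    (ENNReal.inv_ne_top.2 (tsub_pos_of_lt hρ).ne')) hc.1
  refine reach_rec (rM M D) (fun i => 2 ^ i * rP M D i) (6 * (3 / c₁) * (g₀ + S)) _
    (ENNReal.mul_ne_top (ENNReal.mul_ne_top (by simp) (ENNReal.div_ne_top (by simp) h0))
      (ENNReal.add_ne_top.2 ⟨ENNReal.natCast_ne_top _, hSt⟩)) (rW_sum hc) ?_ rP_sum ?_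
  · rw [← hf]
    refine ENNReal.tsum_le_tsum fun γ => mul_le_of_le_one_right' (ind_mul_le_of ?_)
    rintro (rfl : γ = [D.e])
    have : reach [D.e] ≤ 1 := reach_le fun p hp k => by
      rcases List.prefix_cons_iff.1 hp with rfl | ⟨t, rfl, ht⟩
      · simp
      · obtain rfl : t = [] := by simpa using ht
        simpa using reach_vec D.e k
    exact_mod_cast this
  · intro i hi
    obtain ⟨a, ha1, ha2⟩ := reach_nat (2 * rM M D i / c₁ + 1) (ENNReal.add_ne_top.2
      ⟨ENNReal.div_ne_top (ENNReal.mul_ne_top (by simp) hi) h0, ENNReal.one_ne_top⟩)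
    have ha0 : a ≠ 0 := by
      rintro rfl
      simp at ha1
    have ha3 : rM M D i ≤ a * (c₁ / 2) := by
      have h2 := le_self_add.trans ha1
      rw [ENNReal.div_le_iff h0 h1t] at h2
      rw [← mul_div_assoc, ENNReal.le_div_iff_mul_le (by simp) (by simp), mul_comm]
      exact h2
    have ha4 : (a : ℝ≥0∞) + 1 ≤ 3 / c₁ * (rM M D i + 1) := by
      have h2 : (3 : ℝ≥0∞) ≤ 3 / c₁ := by
        rw [ENNReal.le_div_iff_mul_le (Or.inl h0) (Or.inl h1t)]
        exact mul_le_of_le_one_right' h1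
      have h3 : 2 * rM M D i / c₁ ≤ 3 / c₁ * rM M D i := by
        rw [div_eq_mul_inv, div_eq_mul_inv, mul_right_comm]
        gcongr
        norm_num
      calc (a : ℝ≥0∞) + 1 ≤ 2 * rM M D i / c₁ + 1 + 1 + 1 := by gcongr
        _ = 2 * rM M D i / c₁ + 3 := by rw [add_assoc, add_assoc]; norm_num
        _ ≤ 3 / c₁ * rM M D i + 3 / c₁ := add_le_add h3 h2
        _ = _ := by ring
    have h2 := fun j => reach_trial hc (fun s => rT_mass hc h1 s (hc₁ i) ha0 ha3) j
    have h3 : ∑' j : ℕ, ∑' γ, M.f D γ * ind (rCls D (i + 1) γ ∧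
        (g₀ * i + j) * (6 * ((a + 1) * 2 ^ i)) ≤ reach γ) ≤ S * 2⁻¹ ^ i := by
      rw [hS, div_eq_mul_inv, mul_right_comm, ← div_eq_mul_inv,
        ENNReal.le_div_iff_mul_le (Or.inl hc.1) (Or.inl hc.ne_top), mul_comm,
        ← ENNReal.tsum_mul_left]
      refine (ENNReal.tsum_le_tsum fun j => h2 (g₀ * i + j)).trans ?_
      simp only [pow_add, ← hβ]
      rw [ENNReal.tsum_mul_left, ENNReal.tsum_mul_left, ENNReal.tsum_geometric, mul_assoc,
        mul_comm ((1 - β) ^ _), pow_mul]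
      gcongr
    have h4 := rM_succ (M := M) (D := D) i (6 * ((a + 1) * 2 ^ i)) (g₀ * i) (by positivity)
    have h5 : (2 : ℝ≥0∞) ^ i * 2⁻¹ ^ i = 1 := by
      rw [← mul_pow, ENNReal.mul_inv_cancel (by simp) (by simp), one_pow]
    calc rM M D (i + 1) + 1
        ≤ rM M D i + ((6 * ((a + 1) * 2 ^ i) : ℕ) : ℝ≥0∞) *
          ((g₀ * i : ℕ) * rP M D i + S * 2⁻¹ ^ i) + 1 := by
          refine add_le_add_left (h4.trans ?_) _
          gcongr
      _ = rM M D i + 1 + 6 * (a + 1) *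
          (g₀ * (i * (2 ^ i * rP M D i)) + S * (2 ^ i * 2⁻¹ ^ i)) := by
          push_cast; ring
      _ ≤ rM M D i + 1 + 6 * (3 / c₁ * (rM M D i + 1)) *
          ((g₀ + S) * (i * (2 ^ i * rP M D i)) + (g₀ + S) * 1) := by
          rw [h5]
          gcongr
          exacts [le_self_add, le_add_self]
      _ = _ := by ring

theorem reach_tail (hc : M.Good D c) : ∃ (g : ℕ) (C : ℝ≥0∞), C ≠ ∞ ∧
    ∀ i : ℕ, ∑' γ, M.f D γ * ind (2 ^ (g * i) ≤ reach γ) ≤ C / 2 ^ i := by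
  obtain ⟨g, hg⟩ := rM_bound hc
  refine ⟨g + 1, ∑' γ, M.f D γ * rW D γ + 2,
    ENNReal.add_ne_top.2 ⟨rW_sum hc, by simp⟩, fun i => ?_⟩
  have h2 : ∀ n : ℕ, (2 : ℝ≥0∞) ^ n ≠ 0 := fun n => pow_ne_zero _ (by simp)
  have h3 : ∀ n : ℕ, (2 : ℝ≥0∞) ^ n ≠ ∞ := fun n => ENNReal.pow_ne_top (by simp)
  rw [ENNReal.le_div_iff_mul_le (Or.inl (h2 i)) (Or.inl (h3 i)),
    ← ENNReal.mul_le_mul_iff_left (h2 (g * i)) (h3 (g * i)), add_mul _ 2]
  refine le_trans ?_ (add_le_add_right (hg i) _)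
  rw [rM, mul_assoc, ← ENNReal.tsum_mul_right, ← ENNReal.tsum_mul_right, ← ENNReal.tsum_add]
  refine ENNReal.tsum_le_tsum fun γ => ?_
  rw [mul_assoc, mul_assoc, ← mul_add]
  refine mul_le_mul_right (ind_mul_le_of fun h => ?_) _
  by_cases h' : rCls D i γ
  · refine le_trans ?_ le_add_self
    rw [ind_pos h', one_mul, ← pow_add, show i + g * i = (g + 1) * i by ring]
    exact_mod_cast h
  · exact le_trans (mul_le_mul_left (rW_ge h') _) le_self_add

end Vale.Agent.P147
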