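import Vale.Agent.P147.Cover
import Vale.Agent.P147.Budget
import Vale.Agent.P147.Hit
import Vale.Agent.P147.Reach
import Vale.Agent.P147.Ent

/-! Escape without backtracking cannot have positive probability in two opposite directions. -/

namespace Vale.Agent.P147

open MeasureTheory ProbabilityTheory Finset Filter
open scoped ENNReal

variable {d : ℕ} {Ω : Type} [MeasurableSpace Ω] {M : Model d Ω} {D : Dir d} {c : ℝ≥0∞}

lemma core_term {c₀ K δ e φ : ℝ} (hc : 0 < c₀) (hK : 0 < K) (hδ : 0 < δ) (he : 0 ≤ e)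
    (hφ : 0 ≤ φ) {I Φ : ℝ≥0∞} (hI : I ≤ ENNReal.ofReal e) (hΦ : Φ ≤ ENNReal.ofReal φ) :
    (2 + 4 * I) / (ENNReal.ofReal c₀ * ENNReal.ofReal K) +
      (ENNReal.ofReal K * ENNReal.ofReal δ + ENNReal.ofReal K / ENNReal.ofReal δ * Φ) /
        ENNReal.ofReal c₀
      ≤ ENNReal.ofReal ((2 + 4 * e) / (c₀ * K) + (K * δ + K / δ * φ) / c₀) := by
  rw [ENNReal.ofReal_add (by positivity) (by positivity), ENNReal.ofReal_div_of_pos (by positivity),
    ENNReal.ofReal_div_of_pos hc, ENNReal.ofReal_add (by positivity) (by positivity),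
    ENNReal.ofReal_add (by positivity) (by positivity), ENNReal.ofReal_mul hc.le,
    ENNReal.ofReal_mul hK.le, ENNReal.ofReal_mul (by positivity : (0 : ℝ) ≤ K / δ),
    ENNReal.ofReal_mul (by norm_num : (0 : ℝ) ≤ 4), ENNReal.ofReal_div_of_pos hδ,
    ENNReal.ofReal_ofNat, ENNReal.ofReal_ofNat]
  gcongr

/-- Geometrically weighted sums. -/
noncomputable def wsum (ε : ℕ → ℝ) (R : ℕ) : ℝ := ∑ r ∈ range (R + 1), (7 / 8 : ℝ) ^ (R - r) * ε r

lemma wsum_succ (ε : ℕ → ℝ) (R : ℕ) : wsum ε (R + 1) = 7 / 8 * wsum ε R + ε (R + 1) := by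
  unfold wsum
  rw [sum_range_succ _ (R + 1), mul_sum, Nat.sub_self, pow_zero, one_mul]
  congr 1
  refine sum_congr rfl fun r hr => ?_
  have : r ≤ R := by simpa [Nat.lt_succ_iff] using hr
  rw [show R + 1 - r = R - r + 1 by omega, pow_succ]; ring

lemma wsum_nonneg {ε : ℕ → ℝ} (h : ∀ r, 0 ≤ ε r) (R : ℕ) : 0 ≤ wsum ε R :=
  sum_nonneg fun r _ => mul_nonneg (by positivity) (h r)

lemma wsum_one (R : ℕ) : wsum (fun _ => 1) R ≤ 8 := by
  induction R with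
  | zero => simp [wsum]
  | succ R ih => rw [wsum_succ]; linarith

lemma wsum_sum (ε : ℕ → ℝ) (N : ℕ) :
    ∑ n ∈ range (N + 1), wsum ε n + 7 * wsum ε N = 8 * ∑ r ∈ range (N + 1), ε r := by
  induction N with
  | zero => simp [wsum]; ring
  | succ N ih => rw [sum_range_succ _ (N + 1), sum_range_succ ε (N + 1), wsum_succ]; linarith

lemma wsum_freq {ε : ℕ → ℝ} (h : ∀ r, 0 ≤ ε r) {C : ℝ}
    (hC : ∀ N : ℕ, ∑ r ∈ range (N + 1), ε r ≤ C * (N + 1)) (N₀ : ℕ) :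
    ∃ n, N₀ ≤ n ∧ wsum ε n ≤ 8 * C + 1 := by
  by_contra hcon
  push Not at hcon
  have hC0 : 0 ≤ C := by simpa using (sum_nonneg fun r _ => h r).trans (hC 0)
  have key : ∀ j : ℕ, j * (8 * C + 1) ≤ ∑ n ∈ range (N₀ + j), wsum ε n := by
    intro j
    induction j with
    | zero => simpa using sum_nonneg fun n _ => wsum_nonneg h n
    | succ j ih =>
      rw [← add_assoc, sum_range_succ]
      push_cast
      linarith [hcon (N₀ + j) (by omega)]
  obtain ⟨j, hj⟩ := exists_nat_gt (8 * C * N₀)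
  have h1 := key (j + 1)
  have h2 := wsum_sum ε (N₀ + j)
  have h3 := hC (N₀ + j)
  have h4 := wsum_nonneg h (N₀ + j)
  rw [← add_assoc] at h1
  push_cast at h1 h3
  nlinarith

lemma core_pow (j : ℕ) : (1 / 2 : ℝ) ^ j ≤ ((7 / 8 : ℝ) ^ j) ^ 4 := by
  rw [← pow_mul, mul_comm, pow_mul]
  exact pow_le_pow_left₀ (by norm_num) (by norm_num) j

/-- Choice of the number of pieces. -/
lemma core_avg (M : Model d Ω) (D : Dir d) (A R : ℕ) (hA : 1 ≤ A) {η : ℝ} (hη : 0 ≤ η)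
    (h : M.eta D (2 ^ R * D.L) ≤ ENNReal.ofReal η) :
    ∃ m, 2 ^ (R + 1) ≤ m ∧ m < 2 ^ (R + 2) ∧ ∃ φ : ℕ → ℝ, (∀ r, 0 ≤ φ r) ∧
      (∀ r, M.Phi D (m - tt (r + 1)) (A * tt (r + 1) * D.L) (2 ^ R * D.L) ≤ ENNReal.ofReal (φ r)) ∧
      ∑ r ∈ range (R + 1), φ r / ((7 / 8 : ℝ) ^ (R - r)) ^ 3 ≤ 12 * A * η := by
  have hL := D.hL
  have hsum : ∀ r, ∑' n, M.Phi D n (A * tt (r + 1) * D.L) (2 ^ R * D.L)
      ≤ ENNReal.ofReal (3 * A * 2 ^ r * η) := by
    intro r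
    have h1 : (1 : ℝ) ≤ A * 2 ^ r :=
      one_le_mul_of_one_le_of_one_le (by exact_mod_cast hA) (one_le_pow₀ (by norm_num))
    refine (Phi_sum M D _ _ (3 * A * 2 ^ r) ?_).trans ?_
    · simp only [tt]
      push_cast
      nlinarith
    · rw [ENNReal.ofReal_mul (by positivity), ← ENNReal.ofReal_natCast]
      push_cast
      gcongr
  have hfin : ∀ r n, M.Phi D n (A * tt (r + 1) * D.L) (2 ^ R * D.L) ≠ ∞ := fun r n =>
    ne_top_of_le_ne_top ENNReal.ofReal_ne_top ((ENNReal.le_tsum n).trans (hsum r))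
  set φ : ℕ → ℕ → ℝ := fun m r =>
    (M.Phi D (m - tt (r + 1)) (A * tt (r + 1) * D.L) (2 ^ R * D.L)).toReal with hφ
  have h2R : 2 ^ (R + 1) = 2 ^ R + 2 ^ R := by ring
  have h2R' : 2 ^ (R + 2) = 2 ^ (R + 1) + 2 ^ (R + 1) := by ring
  have hone : ∀ r ∈ range (R + 1), ∑ m ∈ Ico (2 ^ (R + 1)) (2 ^ (R + 2)), φ m r
      ≤ 3 * A * 2 ^ r * η := by
    intro r hr
    have ht : tt (r + 1) ≤ 2 ^ R :=
      Nat.pow_le_pow_right (by norm_num) (by simpa [Nat.lt_succ_iff] using hr)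
    rw [hφ, ← ENNReal.toReal_sum fun m _ => hfin r _]
    refine ENNReal.toReal_le_of_le_ofReal (by positivity) (le_trans ?_ (hsum r))
    rw [← sum_image (g := fun m => m - tt (r + 1))
      (f := fun n => M.Phi D n (A * tt (r + 1) * D.L) (2 ^ R * D.L))]
    · exact ENNReal.sum_le_tsum _
    · intro a ha b hb hab
      simp only [coe_Ico, Set.mem_Ico] at ha hb hab
      omega
  obtain ⟨m, hm, hle⟩ := Finset.exists_le_of_sum_le (s := Ico (2 ^ (R + 1)) (2 ^ (R + 2)))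
    (f := fun m => ∑ r ∈ range (R + 1), φ m r / ((7 / 8 : ℝ) ^ (R - r)) ^ 3)
    (g := fun _ => 12 * A * η) ⟨2 ^ (R + 1), by
      rw [mem_Ico]; have : 0 < 2 ^ (R + 1) := by positivity
      omega⟩ (by
      rw [sum_comm, sum_const, Nat.card_Ico, h2R', Nat.add_sub_cancel, ← h2R', nsmul_eq_mul]
      calc ∑ r ∈ range (R + 1), ∑ m ∈ Ico (2 ^ (R + 1)) (2 ^ (R + 2)),
            φ m r / ((7 / 8 : ℝ) ^ (R - r)) ^ 3
          ≤ ∑ r ∈ range (R + 1), 3 * A * 2 ^ R * η * ((7 / 8 : ℝ) ^ (R - r) * 1) := by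
            refine sum_le_sum fun r hr => ?_
            have hrR : r ≤ R := by simpa [Nat.lt_succ_iff] using hr
            rw [← sum_div, div_le_iff₀ (by positivity)]
            refine (hone r hr).trans ?_
            have e1 : (2 : ℝ) ^ r = 2 ^ R * (1 / 2) ^ (R - r) := by
              rw [show R = r + (R - r) by omega, pow_add, Nat.add_sub_cancel_left, mul_assoc,
                ← mul_pow]
              norm_num
            have e2 := core_pow (R - r)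
            rw [e1]
            calc 3 * A * (2 ^ R * (1 / 2 : ℝ) ^ (R - r)) * η
                ≤ 3 * A * (2 ^ R * ((7 / 8 : ℝ) ^ (R - r)) ^ 4) * η := by gcongr
              _ = _ := by ring
        _ = 3 * A * 2 ^ R * η * wsum (fun _ => 1) R := by rw [wsum, mul_sum]
        _ ≤ 3 * A * 2 ^ R * η * 8 := by gcongr; exact wsum_one R
        _ = _ := by push_cast; ring)
  rw [mem_Ico] at hm
  exact ⟨m, hm.1, hm.2, φ m, fun r => ENNReal.toReal_nonneg,
    fun r => (ENNReal.ofReal_toReal (hfin r _)).symm.le, hle⟩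

/-- The information at the scales below a well chosen scale is bounded. -/
lemma core_info (hc : M.Good D c) : ∃ C : ℝ, 0 ≤ C ∧ ∀ R₀, ∃ R, R₀ ≤ R ∧ ∃ ε : ℕ → ℝ,
    (∀ r, 0 ≤ ε r) ∧ wsum ε R ≤ C ∧
    (∀ r, info (M.f D) disp (tt (r + 1) - tt r) (tt r) ≤ ENNReal.ofReal (ε r)) ∧
    ∀ m, 2 ^ (R + 1) ≤ m → m < 2 ^ (R + 2) →
      info (M.f D) disp (m - 2 ^ R) (2 ^ R) ≤ ENNReal.ofReal C := by
  have hf := f_sum hc
  obtain ⟨g, C, hC, ht⟩ := reach_tail hc
  obtain ⟨C', hC', he⟩ := ent_le hf disp g C hC fun i => le_trans (ENNReal.tsum_le_tsum fun γ =>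
    mul_le_mul_right (ind_mono fun ⟨k, hk⟩ => hk.trans (le_reach List.prefix_rfl k)) _) (ht i)
  have hfin : ∀ r, ent (M.f D) disp (tt r) ≠ ∞ := by
    intro r
    cases r with
    | zero => simp [tt, ent_zero]
    | succ r => exact ne_top_of_le_ne_top (by finiteness) (he r)
  set H : ℕ → ℝ := fun r => (ent (M.f D) disp (tt r)).toReal with hH
  have hH0 : H 0 = 0 := by simp [hH, tt, ent_zero]
  have hHle : ∀ r : ℕ, H (r + 1) ≤ C'.toReal * (r + 1) := by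
    intro r
    refine ENNReal.toReal_le_of_le_ofReal (by positivity) ((he r).trans (le_of_eq ?_))
    rw [ENNReal.ofReal_mul ENNReal.toReal_nonneg, ENNReal.ofReal_toReal hC',
      ENNReal.ofReal_add (by positivity) (by norm_num), ENNReal.ofReal_natCast, ENNReal.ofReal_one]
  have hgen : ∀ (I : ℝ≥0∞) (a b : ℕ) (x : ℝ), 0 ≤ x →
      I + ent (M.f D) disp (tt a) ≤ ent (M.f D) disp (tt b) + ENNReal.ofReal x →
      0 ≤ H b - H a + x ∧ I ≤ ENNReal.ofReal (H b - H a + x) := by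
    intro I a b x hx h
    have hI : I ≠ ∞ := ne_top_of_le_ne_top (ENNReal.add_ne_top.2 ⟨hfin b, ENNReal.ofReal_ne_top⟩)
      (le_self_add.trans h)
    have h1 := ENNReal.toReal_mono (ENNReal.add_ne_top.2 ⟨hfin b, ENNReal.ofReal_ne_top⟩) h
    rw [ENNReal.toReal_add hI (hfin a), ENNReal.toReal_add (hfin b) ENNReal.ofReal_ne_top,
      ENNReal.toReal_ofReal hx] at h1
    have h2 : I.toReal ≤ H b - H a + x := by simp only [hH]; linarith
    exact ⟨ENNReal.toReal_nonneg.trans h2,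
      (ENNReal.ofReal_toReal hI).symm.le.trans (ENNReal.ofReal_le_ofReal h2)⟩
  set ε : ℕ → ℝ := fun r => H (r + 1) - H r + 3 with hε
  have hstep : ∀ r, 0 ≤ ε r ∧
      info (M.f D) disp (tt (r + 1) - tt r) (tt r) ≤ ENNReal.ofReal (ε r) := by
    intro r
    apply hgen _ r (r + 1) 3 (by norm_num)
    have := info_le hf disp (tt (r + 1) - tt r) (tt r)
    rwa [Nat.sub_add_cancel (tt_mono r), ← ENNReal.ofReal_ofNat 3] at this
  have hsum : ∀ N : ℕ, ∑ r ∈ range (N + 1), ε r ≤ (C'.toReal + 3) * (N + 1) := by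
    intro N
    have : ∑ r ∈ range (N + 1), ε r = H (N + 1) - H 0 + 3 * (N + 1) := by
      simp only [hε]
      rw [sum_add_distrib, sum_range_sub H, sum_const, card_range, nsmul_eq_mul]
      push_cast; ring
    rw [this, hH0]
    linarith [hHle N]
  have hC0 : 0 ≤ C'.toReal := ENNReal.toReal_nonneg
  refine ⟨3 * (8 * (C'.toReal + 3) + 1), by positivity, fun R₀ => ?_⟩
  obtain ⟨n, hn, hw⟩ := wsum_freq (fun r => (hstep r).1) hsum (R₀ + 2)
  obtain ⟨R, rfl⟩ : ∃ R, n = R + 2 := ⟨n - 2, by omega⟩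
  have w1 := wsum_succ ε (R + 1)
  have w2 := wsum_succ ε R
  have w3 := wsum_nonneg (fun r => (hstep r).1) R
  have w4 := (hstep (R + 1)).1
  have w5 := (hstep (R + 2)).1
  refine ⟨R, by omega, ε, fun r => (hstep r).1, by linarith, fun r => (hstep r).2, ?_⟩
  intro m hm1 hm2
  have h2R : 2 ^ (R + 1) = 2 ^ R + 2 ^ R := by ring
  have a1 := info_le hf disp (m - 2 ^ R) (2 ^ R)
  have a2 := info_le hf disp (2 ^ (R + 2) - m) m
  rw [show m - 2 ^ R + 2 ^ R = m by omega] at a1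
  rw [show 2 ^ (R + 2) - m + m = 2 ^ (R + 2) by omega] at a2
  have a3 : info (M.f D) disp (m - 2 ^ R) (2 ^ R) + ent (M.f D) disp (tt (R + 1))
      ≤ ent (M.f D) disp (tt (R + 3)) + ENNReal.ofReal 6 := by
    refine a1.trans ((add_le_add_left (le_add_self.trans a2) 3).trans (le_of_eq ?_))
    rw [ENNReal.ofReal_ofNat, add_assoc]
    norm_num [tt]
  refine (hgen _ _ _ 6 (by norm_num) a3).2.trans (ENNReal.ofReal_le_ofReal ?_)
  have : H (R + 3) - H (R + 1) + 6 = ε (R + 1) + ε (R + 2) := by simp only [hε]; ring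
  rw [this]
  linarith

theorem core (hd : 3 ≤ d) (hc : M.Good D c) (hc' : M.Good D.neg c) : False := by
  have hL := D.hL
  obtain ⟨c₀, hc₀, rfl⟩ : ∃ c₀ : ℝ, 0 < c₀ ∧ c = ENNReal.ofReal c₀ :=
    ⟨c.toReal, ENNReal.toReal_pos hc.1 hc.ne_top, (ENNReal.ofReal_toReal hc.ne_top).symm⟩
  obtain ⟨C, hC, hinfo⟩ := core_info hc
  set μ : ℝ := (∑' γ, M.f D γ * ENNReal.ofReal (D.lev γ)).toReal with hμ
  have hμ0 : 0 ≤ μ := ENNReal.toReal_nonneg
  obtain ⟨A, hA⟩ := exists_nat_gt (8 * μ / D.L)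
  have hA0 : (0 : ℝ) < A := lt_of_le_of_lt (by positivity) hA
  have hA1 : 1 ≤ A := by exact_mod_cast hA0
  have hbad : ∀ m, E (M.f D) m (fun γs => ind (¬∀ j ≤ γs.length,
      D.lev (γs.drop (γs.length - j)).flatten ≤ A * j * D.L)) ≤ ENNReal.ofReal (1 / 8) := by
    intro m
    have h1 := cov_bad hc A m
    rw [← ENNReal.ofReal_toReal (f_mean hc), ← hμ, mul_comm,
      ← ENNReal.le_div_iff_mul_le (Or.inl (ENNReal.ofReal_pos.2 (mul_pos hA0 hL)).ne')
        (Or.inl ENNReal.ofReal_ne_top), ← ENNReal.ofReal_div_of_pos (mul_pos hA0 hL)] at h1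
    refine h1.trans (ENNReal.ofReal_le_ofReal ?_)
    rw [div_lt_iff₀ hL] at hA
    rw [div_le_iff₀ (mul_pos hA0 hL)]
    linarith
  set K : ℝ := 8 * (16 + 4 * C) / c₀ with hK
  have hK0 : 0 < K := by positivity
  set δ : ℝ := c₀ / (64 * K) with hδ
  have hδ0 : 0 < δ := by positivity
  set η : ℝ := δ * c₀ / (96 * A * K) with hη
  have hη0 : 0 < η := by positivity
  obtain ⟨a₀, ha₀⟩ := eta_small M D (ε := ENNReal.ofReal η) (by simpa using hη0)
  obtain ⟨k, hk⟩ := exists_nat_gt (a₀ / D.L)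
  rw [div_lt_iff₀ hL] at hk
  obtain ⟨m₀, hm₀⟩ := hit hd hc hc' k (ε := ENNReal.ofReal (1 / 8)) (by simp)
  obtain ⟨R, hR, ε, hε0, hεw, hεi, hεl⟩ := hinfo (k + m₀)
  have hR2 : R < 2 ^ R := Nat.lt_two_pow_self
  have h2R : 2 ^ (R + 1) = 2 ^ R + 2 ^ R := by ring
  obtain ⟨m, hm1, hm2, φ, hφ0, hφ1, hφ2⟩ := core_avg M D A R hA1 hη0.le (ha₀ _ (by
    have : (k : ℝ) ≤ 2 ^ R := by exact_mod_cast (by omega : k ≤ 2 ^ R)
    nlinarith))
  have hρ : ∀ r, (0 : ℝ) < (7 / 8) ^ (R - r) := fun r => by positivity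
  have main := cover_bound hc hc' (A := A) (R := R) (k := k) hm1 (by omega)
    (fun r => ENNReal.ofReal (K / (7 / 8) ^ (R - r)))
    (fun r => ENNReal.ofReal (δ * ((7 / 8) ^ (R - r)) ^ 2))
    (fun r => by simpa using div_pos hK0 (hρ r)) (fun _ => ENNReal.ofReal_ne_top)
    (fun r => by simpa using mul_pos hδ0 (pow_pos (hρ r) 2)) (fun _ => ENNReal.ofReal_ne_top)
  have t3 := core_term hc₀ (div_pos hK0 (hρ R)) (mul_pos hδ0 (pow_pos (hρ R) 2)) hC hη0.le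
    (hεl m hm1 hm2) ((Phi_zero M D (A * m * D.L) (k * D.L)).trans (ha₀ _ hk.le))
  have t4 := fun r (_ : r ∈ range (R + 1)) => core_term hc₀ (div_pos hK0 (hρ r))
    (mul_pos hδ0 (pow_pos (hρ r) 2)) (hε0 r) (hφ0 r) (hεi r) (hφ1 r)
  have fin := main.trans (add_le_add (hbad m) (add_le_add (hm₀ m (by omega) _)
    (add_le_add t3 (sum_le_sum t4))))
  have hnn : ∀ r ∈ range (R + 1), 0 ≤ (2 + 4 * ε r) / (c₀ * (K / (7 / 8) ^ (R - r))) +
      (K / (7 / 8) ^ (R - r) * (δ * ((7 / 8) ^ (R - r)) ^ 2) +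
        K / (7 / 8) ^ (R - r) / (δ * ((7 / 8) ^ (R - r)) ^ 2) * φ r) / c₀ := by
    intro r _
    have := hε0 r
    have := hφ0 r
    positivity
  rw [← ENNReal.ofReal_sum_of_nonneg hnn, ← ENNReal.ofReal_add (by positivity) (sum_nonneg hnn),
    ← ENNReal.ofReal_add (by positivity) (add_nonneg (by positivity) (sum_nonneg hnn)),
    ← ENNReal.ofReal_add (by positivity)
      (add_nonneg (by positivity) (add_nonneg (by positivity) (sum_nonneg hnn))),
    ENNReal.one_le_ofReal] at fin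
  have hsum : ∑ r ∈ range (R + 1), ((2 + 4 * ε r) / (c₀ * (K / (7 / 8) ^ (R - r))) +
      (K / (7 / 8) ^ (R - r) * (δ * ((7 / 8) ^ (R - r)) ^ 2) +
        K / (7 / 8) ^ (R - r) / (δ * ((7 / 8) ^ (R - r)) ^ 2) * φ r) / c₀)
      = (2 * wsum (fun _ => 1) R + 4 * wsum ε R) / (c₀ * K) + K * δ / c₀ * wsum (fun _ => 1) R +
        K / (δ * c₀) * ∑ r ∈ range (R + 1), φ r / ((7 / 8 : ℝ) ^ (R - r)) ^ 3 := by
    simp only [wsum, mul_sum, ← sum_add_distrib, sum_div]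
    refine sum_congr rfl fun r _ => ?_
    have := hρ r
    field_simp
    try ring
  rw [hsum, Nat.sub_self, pow_zero] at fin
  have w1 := wsum_one R
  have e1 : c₀ * K = 8 * (16 + 4 * C) := by rw [hK]; field_simp
  have e2 : K * δ / c₀ = 1 / 64 := by rw [hδ]; field_simp
  have e3 : K / (δ * c₀) * (12 * A * η) = 1 / 8 := by rw [hη]; field_simp; norm_num
  have b1 : (2 + 4 * C) / (c₀ * (K / 1)) ≤ 1 / 8 := by
    rw [div_one, e1, div_le_iff₀ (by positivity)]; linarith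
  have b2 : (K / 1 * (δ * 1 ^ 2) + K / 1 / (δ * 1 ^ 2) * η) / c₀ ≤ 1 / 64 + 1 / 8 := by
    have : (K / 1 * (δ * 1 ^ 2) + K / 1 / (δ * 1 ^ 2) * η) / c₀
        = K * δ / c₀ + K / (δ * c₀) * η := by field_simp
    rw [this, e2, ← e3]
    have : (1 : ℝ) ≤ A := by exact_mod_cast hA1
    gcongr
    nlinarith
  have b3 : (2 * wsum (fun _ => 1) R + 4 * wsum ε R) / (c₀ * K) ≤ 1 / 8 := by
    rw [e1, div_le_iff₀ (by positivity)]; linarith
  have b4 : K / (δ * c₀) * ∑ r ∈ range (R + 1), φ r / ((7 / 8 : ℝ) ^ (R - r)) ^ 3 ≤ 1 / 8 := by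
    rw [← e3]; gcongr
  rw [e2] at fin
  linarith

end Vale.Agent.P147
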