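import Vale.Agent.P147.Window
import Vale.Agent.P147.Garsia

/-! The first contact lies in one of the windows. -/

namespace Vale.Agent.P147

open MeasureTheory ProbabilityTheory Finset Filter
open scoped ENNReal

variable {d : ℕ} {Ω : Type} [MeasurableSpace Ω] {M : Model d Ω} {D : Dir d} {c : ℝ≥0∞}

lemma cov_exists_min {α : Type*} (P : List α → Prop) (l : List α) (h : P l) :
    ∃ p, p <+: l ∧ P p ∧ ∀ p', p' <+: p → p' ≠ p → ¬P p' := by
  classical
  have hex : ∃ n, P (l.take n) := ⟨l.length, by simpa using h⟩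
  refine ⟨l.take (Nat.find hex), List.take_prefix _ _, Nat.find_spec hex, ?_⟩
  intro p' hp' hne hP
  have h1 : p' = l.take p'.length :=
    List.prefix_iff_eq_take.1 (hp'.trans (List.take_prefix _ _))
  have h2 : p'.length < (l.take (Nat.find hex)).length := by
    rcases hp'.length_le.lt_or_eq with h | h
    · exact h
    · exact absurd (hp'.eq_of_length h) hne
  have h3 : p'.length < Nat.find hex := lt_of_lt_of_le h2 (List.length_take_le _ _)
  exact Nat.find_min hex h3 (h1 ▸ hP)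

/-- Endpoints of the windows, counted from the top. -/
def tt : ℕ → ℕ
  | 0 => 0
  | r + 1 => 2 ^ r

lemma tt_mono (r : ℕ) : tt r ≤ tt (r + 1) := by
  cases r with
  | zero => simp [tt]
  | succ r => simp only [tt]; exact Nat.pow_le_pow_right (by norm_num) (by omega)

/-- The contact event of a window, in terms of the whole list of pieces. -/
def WinE (D : Dir d) (s a₀ : ℝ) (n q : ℕ) (γs ζs : List (List (Step d))) : Prop :=
  Win D s a₀ (γs.take n).flatten ((γs.drop n).take q).flatten ((γs.drop n).drop q).flatten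
    ζs.flatten

lemma E_winE (hc : M.Good D c) (hc' : M.Good D.neg c) (n q t n' : ℕ) (s a₀ : ℝ)
    (K δ : ℝ≥0∞) (hK : K ≠ 0) (hK' : K ≠ ∞) (hδ : δ ≠ 0) (hδ' : δ ≠ ∞) :
    E (M.f D) (n + (q + t)) (fun γs => E (M.f D.neg) n' fun ζs => ind (WinE D s a₀ n q γs ζs))
      ≤ (2 + 4 * info (M.f D) disp q t) / (c * K) + (K * δ + K / δ * M.Phi D n s a₀) / c := by
  refine le_trans (le_of_eq ?_) (window hc hc' n q t n' s a₀ K δ hK hK' hδ hδ')
  rw [E_append]
  refine E_congr' _ fun βs hβ _ => ?_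
  rw [E_append]
  refine E_congr' _ fun gs hg _ => ?_
  congr with ts
  congr with ζs
  simp only [WinE, ← hβ, ← hg, List.take_left', List.drop_left']

lemma cov_win {γs ζs : List (List (Step d))} {n q : ℕ} {s a₀ : ℝ}
    {X l : List (Step d)} (h1 : (γs.take n).flatten <+: X) (h2 : X <+: (γs.take (n + q)).flatten)
    (hs : D.lev (γs.drop n).flatten ≤ s) (ha : ∃ p', p' <+: X ∧ a₀ ≤ D.lev p')
    (hl : l <+: ζs.flatten) (hE : D.Exit (D.lev γs.flatten) (disp γs.flatten) l)
    (hF : FH X (disp γs.flatten) l) : WinE D s a₀ n q γs ζs := by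
  have e1 : (γs.drop n).flatten
      = ((γs.drop n).take q).flatten ++ ((γs.drop n).drop q).flatten := by
    rw [← List.flatten_append, List.take_append_drop]
  have e2 : γs.flatten = (γs.take n).flatten ++ (γs.drop n).flatten := by
    rw [← List.flatten_append, List.take_append_drop]
  have e3 : (γs.take n).flatten ++ ((γs.drop n).take q).flatten ++ ((γs.drop n).drop q).flatten
      = γs.flatten := by
    rw [e2, List.append_assoc, ← e1]
  obtain ⟨p, rfl⟩ := h1
  rw [List.take_add, List.flatten_append, List.prefix_append_right_inj] at h2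
  have e4 : D.lev γs.flatten = D.lev (γs.take n).flatten + D.lev (γs.drop n).flatten := by
    rw [← D.lev_append, ← e2]
  refine ⟨?_, p, l, h2, ha, hl, ?_, ?_⟩
  · rw [← D.lev_append, ← e1]; exact hs
  · rw [e3]
    refine ⟨hE.1, fun p' hp' hne => ⟨(hE.2 p' hp' hne).1, (hE.2 p' hp' hne).2.trans ?_⟩⟩
    linarith
  · rw [e3]; exact hF

lemma cov_irr_take {γs : List (List (Step d))} (h : ∀ γ ∈ γs, D.Irr γ) (n : ℕ) :
    ∀ γ ∈ γs.take n, D.Irr γ := fun γ hγ => h γ (List.mem_of_mem_take hγ)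

lemma cov_take_prefix (γs : List (List (Step d))) (n : ℕ) :
    (γs.take n).flatten <+: γs.flatten := by
  conv_rhs => rw [← List.take_append_drop n γs, List.flatten_append]
  exact List.prefix_append _ _

lemma cover {γs ζs : List (List (Step d))} (h : ∀ γ ∈ γs, D.Irr γ) (h' : ∀ γ ∈ ζs, D.neg.Irr γ)
    {A R k : ℕ} (hm : 2 ^ (R + 1) ≤ γs.length) (hk : k ≤ γs.length)
    (hn : ζs.length = A * γs.length + 1)
    (hA : ∀ j ≤ γs.length, D.lev (γs.drop (γs.length - j)).flatten ≤ A * j * D.L) :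
    (∃ p p', p <+: (γs.take k).flatten ∧ p' <+: ζs.flatten ∧ disp p = disp γs.flatten + disp p') ∨
    WinE D (A * γs.length * D.L) (k * D.L) 0 (γs.length - 2 ^ R) γs ζs ∨
    ∃ r ∈ range (R + 1), WinE D (A * tt (r + 1) * D.L) (2 ^ R * D.L) (γs.length - tt (r + 1))
      (tt (r + 1) - tt r) γs ζs := by
  set m := γs.length with hmdef
  have hy : D.h (disp γs.flatten) = D.lev γs.flatten := rfl
  have hy0 : 0 ≤ D.lev γs.flatten := flatten_above h _ List.prefix_rfl
  have hy1 : D.lev γs.flatten ≤ A * m * D.L := by simpa using hA m le_rfl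
  have hζ := flatten_lev h'
  rw [hn, D.neg_lev, D.neg_L] at hζ
  push_cast at hζ
  obtain ⟨l, hl, hl1, hl2⟩ := cov_exists_min
    (fun p => D.h (disp γs.flatten) + D.lev p < 0) ζs.flatten (by
      have := D.hL
      rw [hy]; nlinarith)
  have hE : D.Exit (D.lev γs.flatten) (disp γs.flatten) l := by
    refine ⟨hl1, fun p hp hne => ⟨not_lt.1 (hl2 p hp hne), ?_⟩⟩
    have := flatten_above h' p (hp.trans hl)
    rw [D.neg_lev] at this
    rw [hy]; linarith
  have hl0 : [] ≠ l := by
    rintro rfl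
    rw [hy, D.lev_nil] at hl1
    linarith
  obtain ⟨X, hX, hX1, hX2⟩ := cov_exists_min (fun p => disp p ∈ sites (disp γs.flatten) l)
    γs.flatten ⟨[], List.nil_prefix, hl0, by simp⟩
  have hF : FH X (disp γs.flatten) l := ⟨hX1, hX2⟩
  have hcomp : ∀ n, (γs.take n).flatten <+: X ∨ X <+: (γs.take n).flatten := fun n =>
    List.prefix_or_prefix_of_prefix (cov_take_prefix γs n) hX
  have hlev : ∀ n ≤ m, n * D.L ≤ D.lev (γs.take n).flatten := by
    intro n hn
    have := flatten_lev (cov_irr_take h n)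
    rwa [List.length_take, min_eq_left hn] at this
  have h2R : 2 ^ (R + 1) = 2 ^ R + 2 ^ R := by ring
  have key : ∀ R' ≤ R + 1, X <+: (γs.take (m - tt R')).flatten ∨
      ∃ r ∈ range (R + 1), WinE D (A * tt (r + 1) * D.L) (2 ^ R * D.L) (m - tt (r + 1))
        (tt (r + 1) - tt r) γs ζs := by
    intro R' hR'
    induction R' with
    | zero => left; simpa [tt, hmdef] using hX
    | succ r ih =>
      rcases ih (by omega) with h1 | h1
      · rcases hcomp (m - tt (r + 1)) with h2 | h2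
        · right
          have ht : tt (r + 1) ≤ 2 ^ R := Nat.pow_le_pow_right (by norm_num) (by omega)
          have ht' := tt_mono r
          refine ⟨r, mem_range.2 (by omega), cov_win h2 ?_ (hA _ (by omega)) ⟨_, h2, ?_⟩ hl hE hF⟩
          · rwa [show m - tt (r + 1) + (tt (r + 1) - tt r) = m - tt r by omega]
          · refine le_trans ?_ (hlev _ (Nat.sub_le _ _))
            have : 2 ^ R ≤ m - tt (r + 1) := by omega
            have h3 : ((2 ^ R : ℕ) : ℝ) ≤ (m - tt (r + 1) : ℕ) := by exact_mod_cast this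
            push_cast at h3
            exact mul_le_mul_of_nonneg_right h3 D.hL.le
        · exact Or.inl h2
      · exact Or.inr h1
  rcases hcomp k with hk1 | hk1
  · rcases key (R + 1) le_rfl with h1 | h1
    · right; left
      refine cov_win (by simp) (by simpa [tt] using h1) (by simpa using hy1)
        ⟨_, hk1, hlev k hk⟩ hl hE hF
    · exact Or.inr (Or.inr h1)
  · left
    obtain ⟨p', hp', _, he⟩ := hX1
    exact ⟨X, p', hk1, hp'.trans hl, he⟩

lemma cov_lev_flatten {γs : List (List (Step d))} (h : ∀ γ ∈ γs, D.Irr γ) :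
    ENNReal.ofReal (D.lev γs.flatten) = (γs.map fun γ => ENNReal.ofReal (D.lev γ)).sum := by
  induction γs with
  | nil => simp
  | cons γ γs ih =>
    have h1 : ∀ γ' ∈ γs, D.Irr γ' := fun γ' hγ => h γ' (List.mem_cons_of_mem _ hγ)
    rw [List.flatten_cons, D.lev_append, ENNReal.ofReal_add
      ((h γ List.mem_cons_self).1.1 _ List.prefix_rfl) (flatten_above h1 _ List.prefix_rfl), ih h1]
    simp

lemma cov_bad (hc : M.Good D c) (A m : ℕ) :
    ENNReal.ofReal (A * D.L) * E (M.f D) m (fun γs => ind (¬∀ j ≤ γs.length,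
        D.lev (γs.drop (γs.length - j)).flatten ≤ A * j * D.L))
      ≤ ∑' γ, M.f D γ * ENNReal.ofReal (D.lev γ) := by
  refine le_trans ?_ (garsia (f_sum hc) (fun γ => ENNReal.ofReal (D.lev γ))
    (ENNReal.ofReal (A * D.L)) m)
  refine mul_le_mul_right ?_ _
  rw [← E_reverse (M.f D) m (fun l => ind (∃ j ≤ m, j * ENNReal.ofReal (A * D.L) <
    ((l.take j).map fun γ => ENNReal.ofReal (D.lev γ)).sum))]
  refine E_mono' _ fun γs hl hs => ind_mono fun h => ?_
  push Not at h
  obtain ⟨j, hj, h⟩ := h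
  refine ⟨j, hl ▸ hj, ?_⟩
  have hI : ∀ γ ∈ γs.drop (γs.length - j), D.Irr γ := fun γ hγ =>
    (M.f_ne_zero D).1 (hs γ (List.mem_of_mem_drop hγ))
  rw [List.take_reverse, List.map_reverse, List.sum_reverse, ← cov_lev_flatten hI,
    ← ENNReal.ofReal_natCast, ← ENNReal.ofReal_mul (by positivity)]
  have := D.hL
  rw [ENNReal.ofReal_lt_ofReal_iff (lt_of_le_of_lt (by positivity) h)]
  linarith

/-- The basic inequality. -/
lemma cover_bound (hc : M.Good D c) (hc' : M.Good D.neg c) {A R k m : ℕ}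
    (hm : 2 ^ (R + 1) ≤ m) (hk : k ≤ m) (K δ : ℕ → ℝ≥0∞) (hK : ∀ r, K r ≠ 0) (hK' : ∀ r, K r ≠ ∞)
    (hδ : ∀ r, δ r ≠ 0) (hδ' : ∀ r, δ r ≠ ∞) :
    1 ≤ E (M.f D) m (fun γs => ind (¬∀ j ≤ γs.length,
        D.lev (γs.drop (γs.length - j)).flatten ≤ A * j * D.L)) +
      (E (M.f D) m (fun γs => E (M.f D.neg) (A * m + 1) fun ζs =>
        ind (∃ p p', p <+: (γs.take k).flatten ∧ p' <+: ζs.flatten ∧
          disp p = disp γs.flatten + disp p')) +
      (((2 + 4 * info (M.f D) disp (m - 2 ^ R) (2 ^ R)) / (c * K R) +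
        (K R * δ R + K R / δ R * M.Phi D 0 (A * m * D.L) (k * D.L)) / c) +
      ∑ r ∈ range (R + 1), ((2 + 4 * info (M.f D) disp (tt (r + 1) - tt r) (tt r)) / (c * K r) +
        (K r * δ r + K r / δ r *
          M.Phi D (m - tt (r + 1)) (A * tt (r + 1) * D.L) (2 ^ R * D.L)) / c))) := by
  have h2R : 2 ^ (R + 1) = 2 ^ R + 2 ^ R := by ring
  have hlast := E_winE hc hc' 0 (m - 2 ^ R) (2 ^ R) (A * m + 1) (A * m * D.L) (k * D.L)
    (K R) (δ R) (hK R) (hK' R) (hδ R) (hδ' R)
  rw [show 0 + (m - 2 ^ R + 2 ^ R) = m by omega] at hlast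
  have hr : ∀ r ∈ range (R + 1), E (M.f D) m (fun γs => E (M.f D.neg) (A * m + 1) fun ζs =>
      ind (WinE D (A * tt (r + 1) * D.L) (2 ^ R * D.L) (m - tt (r + 1)) (tt (r + 1) - tt r) γs ζs))
      ≤ (2 + 4 * info (M.f D) disp (tt (r + 1) - tt r) (tt r)) / (c * K r) +
        (K r * δ r + K r / δ r *
          M.Phi D (m - tt (r + 1)) (A * tt (r + 1) * D.L) (2 ^ R * D.L)) / c := by
    intro r hr
    have := E_winE hc hc' (m - tt (r + 1)) (tt (r + 1) - tt r) (tt r) (A * m + 1)
      (A * tt (r + 1) * D.L) (2 ^ R * D.L) (K r) (δ r) (hK r) (hK' r) (hδ r) (hδ' r)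
    have ht : tt (r + 1) ≤ 2 ^ R :=
      Nat.pow_le_pow_right (by norm_num) (by simpa [Nat.lt_succ_iff] using hr)
    have ht' := tt_mono r
    rwa [show m - tt (r + 1) + (tt (r + 1) - tt r + tt r) = m by omega] at this
  refine le_trans ?_ (add_le_add_right (add_le_add_right
    (add_le_add hlast (sum_le_sum hr)) _) _)
  rw [← E_sum, ← E_add, ← E_add, ← E_add, ← E_const (f_sum hc) m 1]
  refine E_mono' _ fun γs hl hs => ?_
  by_cases hA : ∀ j ≤ γs.length, D.lev (γs.drop (γs.length - j)).flatten ≤ A * j * D.L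
  · rw [ind_neg (not_not.2 hA), zero_add, ← E_sum, ← E_add, ← E_add,
      ← E_const (f_sum hc') (A * m + 1) 1]
    refine E_mono' _ fun ζs hl' hs' => ?_
    subst hl
    rcases cover (fun γ hγ => (M.f_ne_zero D).1 (hs γ hγ))
      (fun γ hγ => (M.f_ne_zero D.neg).1 (hs' γ hγ)) hm hk hl' hA with h | h | ⟨r, hr, h⟩
    · rw [ind_pos h]; exact le_self_add
    · rw [ind_pos h]; exact le_add_left le_self_add
    · refine le_add_left (le_add_left (le_trans (ind_pos h).symm.le ?_))
      exact single_le_sum (f := fun r => ind (WinE D (A * tt (r + 1) * D.L) (2 ^ R * D.L)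
        (γs.length - tt (r + 1)) (tt (r + 1) - tt r) γs ζs)) (fun _ _ => zero_le) hr
  · rw [ind_pos hA]; exact le_self_add

end Vale.Agent.P147
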