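import Mathlib

/-! Random walk in an iid random environment on the integer lattice: the objects of the statement. -/

namespace Vale.Agent.P147

open MeasureTheory ProbabilityTheory Filter
open scoped ENNReal

/-- Sites of the lattice. -/
abbrev Site (d : ℕ) := Fin d → ℤ

/-- The `2 d` coordinate unit steps: a coordinate and a sign. -/
abbrev Step (d : ℕ) := Fin d × Bool

/-- The unit vector of a step. -/
def vec {d : ℕ} (e : Step d) : Site d := Pi.single e.1 (if e.2 then 1 else -1)

/-- Transition vectors: probability vectors on the set of steps. -/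
abbrev Row (d : ℕ) := {p : Step d → ℝ // (∀ e, 0 ≤ p e) ∧ ∑ e, p e = 1}

/-- Environments. -/
abbrev Env (d : ℕ) := Site d → Row d

/-- The probability of a jump from `x` to `y` in the environment `ω`. -/
noncomputable def trans {d : ℕ} (ω : Env d) (x y : Site d) : ℝ :=
  ∑ e, if y = x + vec e then (ω x).1 e else 0

/-- `Q ω` is the law of the Markov chain started at the origin with transitions given by `ω`. -/
def IsQuenched {d : ℕ} (Q : Kernel (Env d) (ℕ → Site d)) : Prop :=
  IsMarkovKernel Q ∧ ∀ (ω : Env d) (n : ℕ) (x : ℕ → Site d),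
    Q ω {X | ∀ i ≤ n, X i = x i} =
      if x 0 = 0 then ∏ i ∈ Finset.range n, ENNReal.ofReal (trans ω (x i) (x (i + 1))) else 0

/-- The iid environment law with row law `μ`. -/
noncomputable def envLaw {d : ℕ} (μ : Measure (Row d)) : Measure (Env d) :=
  Measure.infinitePi fun _ => μ

/-- The event of escape in direction `ℓ`. -/
def Escape {d : ℕ} (ℓ : Fin d → ℝ) : Set (ℕ → Site d) :=
  {X | Tendsto (fun n => ∑ i, (X n i : ℝ) * ℓ i) atTop atTop}

end Vale.Agent.P147
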