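import Vale.Agent.P147.Piece

/-! The pieces form a probability law with finite mean height, dominated by the annealed law. -/

namespace Vale.Agent.P147

open MeasureTheory ProbabilityTheory Finset Filter
open scoped ENNReal

variable {d : ℕ} {Ω : Type} [MeasurableSpace Ω] {M : Model d Ω} {D : Dir d} {c : ℝ≥0∞}

lemma dom_stay (hc : M.Good D c) (T : ℕ) :
    c ≤ ∑' q, ind (q.length = T ∧ D.Above q) * M.W q := by
  refine (hc.2 (T * D.L + 1)).trans ?_
  calc M.u D (T * D.L + 1)
      ≤ ∑' l, ∑' q, ind (q.length = T ∧ D.Above q) *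
          (ind (D.FP (T * D.L + 1) l ∧ q <+: l) * M.W l) := by
        refine ENNReal.tsum_le_tsum fun l => ind_mul_le_of fun hl => ?_
        refine le_trans ?_ (ENNReal.le_tsum (l.take T))
        have h1 : T ≤ l.length := by
          have h2 := (le_abs_self _).trans (D.abs_lev_le l)
          have h3 : (T : ℝ) * D.L ≤ l.length * D.L := by linarith [hl.2.1]
          exact_mod_cast le_of_mul_le_mul_right h3 D.hL
        rw [ind_pos ⟨by simp [h1], fun p hp => hl.1 p (hp.trans (List.take_prefix _ _))⟩,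
          ind_pos ⟨hl, List.take_prefix _ _⟩, one_mul, one_mul]
    _ = ∑' q, ind (q.length = T ∧ D.Above q) *
          ∑' l, ind (D.FP (T * D.L + 1) l ∧ q <+: l) * M.W l := by
        rw [ENNReal.tsum_comm]; simp only [ENNReal.tsum_mul_left]
    _ ≤ _ := by
        refine ENNReal.tsum_le_tsum fun q => mul_le_mul_right ?_ _
        refine M.cons.pf' q _ (fun p hp => hp.2) fun p p' hp hp' h => ?_
        by_contra hne
        exact absurd (hp'.1.2.2 p h hne) (not_lt.2 hp.1.2.1)

theorem stay_lemma (hc : M.Good D c) (δ : List (Step d)) (F : List (Step d) → Prop)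
    (hF : ∀ a, F a → D.Fresh a ∧ δ <+: a)
    (hsep : ∀ a q, F a → F (a ++ q) → D.Above q → q = []) :
    c * ∑' a, ind (F a) * M.W a ≤ M.W δ := by
  rw [tsum_eq_iSup_length, ENNReal.mul_iSup]
  refine iSup_le fun T => ?_
  have key : ∀ a q a' q' : List (Step d), F a → F a' → D.Above q → a ++ q = a' ++ q' →
      a <+: a' → a = a' := by
    rintro a q a' q' ha ha' hq he ⟨r, rfl⟩
    rw [List.append_assoc] at he
    have h1 : q = r ++ q' := List.append_cancel_left he
    have h2 := hsep a r ha ha' fun p hp => hq p (hp.trans ⟨q', h1.symm⟩)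
    rw [h2, List.append_nil]
  calc c * ∑' a, ind (a.length ≤ T) * (ind (F a) * M.W a)
      ≤ ∑' a, ∑' q, ind (a.length ≤ T ∧ F a ∧ q.length = T - a.length ∧ D.Above q) *
          M.W (a ++ q) := by
        rw [← ENNReal.tsum_mul_left]
        refine ENNReal.tsum_le_tsum fun a => ?_
        rw [mul_left_comm]
        refine ind_mul_le_of fun h1 => ?_
        rw [mul_left_comm]
        refine ind_mul_le_of fun h2 => ?_
        refine (mul_le_mul_left (dom_stay hc (T - a.length)) _).trans ?_
        rw [← ENNReal.tsum_mul_right]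
        refine ENNReal.tsum_le_tsum fun q => ?_
        rw [mul_assoc]
        refine ind_mul_le_of fun h3 => ?_
        rw [ind_pos ⟨h1, h2, h3⟩, one_mul, M.W_fresh D (hF a h2).1 h3.2, mul_comm]
    _ = ∑' p : List (Step d) × List (Step d),
          ind (p.1.length ≤ T ∧ F p.1 ∧ p.2.length = T - p.1.length ∧ D.Above p.2) *
          M.W (p.1 ++ p.2) := by rw [ENNReal.tsum_prod']
    _ ≤ ∑' l, ind (l.length = T ∧ δ <+: l) * M.W l := by
        refine tsum_ind_le_of_injOn (fun p => p.1 ++ p.2) ?_ ?_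
        · rintro ⟨a, q⟩ ⟨a', q'⟩ h h' he
          have h1 : a = a' := by
            rcases List.prefix_or_prefix_of_prefix (List.prefix_append a q)
              (he ▸ List.prefix_append a' q') with h2 | h2
            · exact key a q a' q' h.2.1 h'.2.1 h.2.2.2 he h2
            · exact (key a' q' a q h'.2.1 h.2.1 h'.2.2.2 he.symm h2).symm
          subst h1
          have h3 : q = q' := List.append_cancel_left he
          rw [h3]
        · rintro ⟨a, q⟩ h
          have h1 := h.1
          have h2 := h.2.2.1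
          simp only at h1 h2
          rw [ind_pos ⟨by simp only [List.length_append]; omega,
            (hF a h.2.1).2.trans (List.prefix_append _ _)⟩, one_mul]
    _ ≤ M.W δ := M.cons.pf' δ _ (fun p hp => hp.2) fun p q hp hq h =>
        h.eq_of_length (hp.1.trans hq.1.symm)

lemma dom_prod_zero {γs : List (List (Step d))} (h : ¬ ∀ γ ∈ γs, D.Irr γ) :
    (γs.map (M.f D)).prod = 0 := by
  push Not at h
  obtain ⟨γ, h1, h2⟩ := h
  apply List.prod_eq_zero
  have : M.f D γ = 0 := by
    by_contra h3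
    exact h2 ((M.f_ne_zero D).1 h3)
  exact this ▸ List.mem_map_of_mem h1

theorem dom (hc : M.Good D c) (n : ℕ) (δ : List (Step d)) :
    c * E (M.f D) n (fun γs => ind (δ <+: γs.flatten)) ≤ M.W δ := by
  refine le_trans (mul_le_mul_right ?_ c) (stay_lemma hc δ
    (fun a => ∃ γs : List (List (Step d)), γs.length = n ∧ (∀ γ ∈ γs, D.Irr γ) ∧
      γs.flatten = a ∧ δ <+: a) ?_ ?_)
  · rw [E_eq_tsum]
    refine le_trans (ENNReal.tsum_le_tsum fun γs => ?_) (tsum_ind_le_of_injOn
      (p := fun γs : List (List (Step d)) => γs.length = n ∧ (∀ γ ∈ γs, D.Irr γ) ∧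
        δ <+: γs.flatten) (g := fun γs => M.W γs.flatten) List.flatten ?_ ?_)
    · refine ind_mul_le_of fun h1 => ?_
      by_cases h2 : ∀ γ ∈ γs, D.Irr γ
      · rw [mul_comm]
        refine ind_mul_le_of fun h3 => ?_
        rw [ind_pos ⟨h1, h2, h3⟩, one_mul, W_flatten h2]
      · rw [dom_prod_zero h2, zero_mul]; exact zero_le
    · intro γs γs' h h' he
      exact flatten_inj h.2.1 h'.2.1 he
    · intro γs h
      rw [ind_pos ⟨γs, h.1, h.2.1, rfl, h.2.2⟩, one_mul]
  · rintro a ⟨γs, -, h2, rfl, h4⟩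
    exact ⟨flatten_fresh h2, h4⟩
  · rintro a q ⟨γs, h1, h2, rfl, -⟩ ⟨γs', h1', h2', h3', -⟩ hq
    have h := flatten_unique h2 h2' (h1.trans h1'.symm) (q := q) (q' := []) hq
      (fun p hp => by rw [List.prefix_nil.1 hp]; simp) (by rw [h3', List.append_nil])
    subst h
    exact (List.self_eq_append_right.1 h3')

lemma dom_f_le (hc : M.Good D c) : ∑' γ, M.f D γ ≤ 1 := by
  by_contra hlt
  rw [not_le] at hlt
  have h1 : ∀ n : ℕ, c * (∑' γ, M.f D γ) ^ n ≤ 1 := fun n => by
    have h := dom hc n []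
    have h2 := E_prod (M.f D) n fun _ => 1
    simp only [List.map_const', List.prod_replicate, one_pow, mul_one] at h2
    simp only [ind_pos List.nil_prefix, h2, M.W_nil] at h
    exact h
  have h3 : Tendsto (fun n : ℕ => (∑' γ, M.f D γ) ^ n) atTop (nhds ∞) :=
    ENNReal.tendsto_pow_atTop_nhds_top_iff.2 hlt
  have h4 : ∀ n : ℕ, (∑' γ, M.f D γ) ^ n ≤ c⁻¹ := fun n => by
    rw [ENNReal.le_inv_iff_mul_le, mul_comm]; exact h1 n
  have h5 := le_of_tendsto' h3 h4
  rw [top_le_iff, ENNReal.inv_eq_top] at h5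
  exact hc.1 h5

/-- expected number of renewals below `x` among the first `N` -/
noncomputable def domV (M : Model d Ω) (D : Dir d) (N : ℕ) (x : ℝ) : ℝ≥0∞ :=
  ∑ n ∈ range N, E (M.f D) n fun γs => ind (D.lev γs.flatten < x)

lemma domV_succ (N : ℕ) (x : ℝ) :
    domV M D (N + 1) x = ind (0 < x) + ∑' γ, M.f D γ * domV M D N (x - D.lev γ) := by
  simp only [domV]
  rw [sum_range_succ', add_comm]
  simp only [E_succ, E_zero, List.flatten_nil, Dir.lev_nil, mul_sum]
  rw [Summable.tsum_finsetSum fun _ _ => ENNReal.summable]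
  simp only [List.flatten_cons, Dir.lev_append, lt_sub_iff_add_lt']

lemma dom_lev_nonneg {γ : List (Step d)} (h : M.f D γ ≠ 0) : 0 ≤ D.lev γ :=
  ((M.f_ne_zero D).1 h).1.1 γ List.prefix_rfl

lemma domV_def (hc : M.Good D c) (N : ℕ) (x : ℝ) :
    (1 - ∑' γ, M.f D γ) * domV M D N x ≤ 1 := by
  induction N generalizing x with
  | zero => simp [domV]
  | succ N ih =>
    rw [domV_succ, mul_add, ← ENNReal.tsum_mul_left]
    calc _ ≤ (1 - ∑' γ, M.f D γ) + ∑' γ, M.f D γ := by
          refine add_le_add (mul_le_of_le_one_right' (ind_le_one _)) ?_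
          refine ENNReal.tsum_le_tsum fun γ => ?_
          rw [mul_left_comm]
          exact mul_le_of_le_one_right' (ih _)
      _ = 1 := tsub_add_cancel_of_le (dom_f_le hc)

lemma domV_wald (hc : M.Good D c) {y : ℝ} (hy : 0 ≤ y) (N : ℕ) (x : ℝ) :
    (∑' γ, M.f D γ * ENNReal.ofReal (min (D.lev γ) y)) * domV M D N x ≤
      ind (0 < x) * ENNReal.ofReal (x + y) := by
  induction N generalizing x with
  | zero => simp [domV]
  | succ N ih =>
    rw [domV_succ, mul_add, ← ENNReal.tsum_mul_left (f := fun γ => M.f D γ * _),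
      ← ENNReal.tsum_mul_right, ← ENNReal.tsum_add]
    calc _ ≤ ∑' γ, M.f D γ * (ind (0 < x) * ENNReal.ofReal (x + y)) := by
          refine ENNReal.tsum_le_tsum fun γ => ?_
          rw [mul_left_comm _ (M.f D γ), mul_assoc, ← mul_add]
          by_cases h0 : M.f D γ = 0
          · simp [h0]
          refine mul_le_mul_right ?_ _
          have h1 := dom_lev_nonneg h0
          refine (add_le_add_right (ih _) _).trans ?_
          by_cases hx : 0 < x
          · rw [ind_pos hx, mul_one, one_mul]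
            by_cases h2 : 0 < x - D.lev γ
            · rw [ind_pos h2, one_mul, ← ENNReal.ofReal_add (le_min h1 hy) (by linarith)]
              exact ENNReal.ofReal_le_ofReal (by linarith [min_le_left (D.lev γ) y])
            · rw [ind_neg h2, zero_mul, add_zero]
              exact ENNReal.ofReal_le_ofReal (by linarith [min_le_right (D.lev γ) y])
          · rw [ind_neg hx, ind_neg (p := 0 < x - D.lev γ) (by linarith)]; simp
      _ ≤ _ := by
          rw [ENNReal.tsum_mul_right]
          exact mul_le_of_le_one_left' (dom_f_le hc)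

lemma dom_bridge_le (x : ℝ) :
    ∑' b, ind (D.Bridge b ∧ D.lev b < x) * M.W b ≤ ⨆ N, domV M D N x := by
  classical
  have hex : ∀ b : List (Step d), ∃ γs : List (List (Step d)), D.Bridge b →
      (∀ γ ∈ γs, D.Irr γ) ∧ γs.flatten = b := fun b => by
    by_cases h : D.Bridge b
    · obtain ⟨γs, h'⟩ := exists_flatten h
      exact ⟨γs, fun _ => h'⟩
    · exact ⟨[], fun h' => absurd h' h⟩
  choose φ hφ using hex
  simp only [domV]
  rw [← ENNReal.tsum_eq_iSup_nat]
  simp only [E_eq_tsum]
  rw [ENNReal.tsum_comm]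
  refine tsum_ind_le_of_injOn φ ?_ ?_
  · intro b b' h h' he
    rw [← (hφ b h.1).2, ← (hφ b' h'.1).2, he]
  · intro b h
    refine le_trans ?_ (ENNReal.le_tsum (φ b).length)
    rw [ind_pos rfl, one_mul, (hφ b h.1).2, ind_pos h.2, mul_one, ← W_flatten (hφ b h.1).1,
      (hφ b h.1).2]

lemma dom_above_single : D.Above [D.e] := by
  intro p hp
  rcases List.prefix_cons_iff.1 hp with rfl | ⟨t, rfl, ht⟩
  · simp
  · rw [List.prefix_nil.1 ht, D.lev_single]; exact D.hL.le

lemma dom_bridge_ge (hc : M.Good D c) (J : ℕ) :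
    J * (c * M.W [D.e]) ≤ ∑' b, ind (D.Bridge b ∧ D.lev b < (J + 2) * D.L) * M.W b := by
  induction J with
  | zero => simp
  | succ J ih =>
    have hL := D.hL
    have h1 : c * M.W [D.e] ≤ ∑' b, ind (D.Bridge b ∧ (J + 2) * D.L ≤ D.lev b ∧
        D.lev b < (J + 3) * D.L) * M.W b := by
      refine (mul_le_mul_left (hc.2 ((J + 1) * D.L)) _).trans ?_
      rw [Model.u, ← ENNReal.tsum_mul_right]
      simp only [mul_assoc]
      refine tsum_ind_le_of_injOn (fun l => l ++ [D.e]) ?_ ?_
      · intro l l' _ _ he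
        exact List.append_cancel_right he
      · intro l h
        have hfresh : D.Fresh l := fun p hp hne => (h.2.2 p hp hne).trans_le h.2.1
        have hJ : (0 : ℝ) ≤ J := Nat.cast_nonneg J
        have hlt : D.lev l < (J + 2) * D.L := by
          rcases List.eq_nil_or_concat' l with rfl | ⟨l', e', rfl⟩
          · simp only [Dir.lev_nil]; positivity
          · have h2 := h.2.2 l' (List.prefix_append _ _) (by simp)
            have h3 := (le_abs_self _).trans (D.abs_lev_le [e'])
            simp only [List.length_singleton, Nat.cast_one, one_mul] at h3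
            rw [Dir.lev_append]; linarith
        have hge := h.2.1
        rw [ind_pos, one_mul, M.W_fresh D hfresh dom_above_single]
        refine ⟨⟨fun p hp => ?_, l, rfl, fun p hp => ?_⟩, ?_, ?_⟩
        · rcases List.prefix_concat_iff.1 hp with rfl | hp
          · rw [Dir.lev_append, D.lev_single]; linarith [h.1 l List.prefix_rfl]
          · exact h.1 p hp
        · by_cases hne : p = l
          · rw [hne]
          · exact (hfresh p hp hne).le
        · rw [Dir.lev_append, D.lev_single]; linarith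
        · rw [Dir.lev_append, D.lev_single]; linarith
    push_cast
    rw [add_mul, one_mul]
    refine (add_le_add ih h1).trans ?_
    rw [← ENNReal.tsum_add]
    refine ENNReal.tsum_le_tsum fun b => ?_
    rw [← add_mul]
    refine mul_le_mul_left ?_ _
    by_cases h2 : D.Bridge b ∧ D.lev b < (J + 2) * D.L
    · rw [ind_pos h2, ind_neg (fun h => by linarith [h.2.1, h2.2]), add_zero,
        ind_pos ⟨h2.1, by linarith [h2.2]⟩]
    · rw [ind_neg h2, zero_add]
      exact ind_mono fun h => ⟨h.1, by linarith [h.2.2]⟩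

lemma dom_V_ge (hc : M.Good D c) (J : ℕ) :
    J * (c * M.W [D.e]) ≤ ⨆ N, domV M D N ((J + 2) * D.L) :=
  (dom_bridge_ge hc J).trans (dom_bridge_le _)

theorem f_sum (hc : M.Good D c) : ∑' γ, M.f D γ = 1 := by
  refine le_antisymm (dom_f_le hc) ?_
  rw [← tsub_eq_zero_iff_le]
  by_contra hne
  have hk : (1 - ∑' γ, M.f D γ) * (c * M.W [D.e]) ≠ 0 :=
    mul_ne_zero hne (mul_ne_zero hc.1 (M.W_ne_zero _))
  have h1 : ∀ J : ℕ, (J : ℝ≥0∞) * ((1 - ∑' γ, M.f D γ) * (c * M.W [D.e])) ≤ 1 := fun J => by
    rw [mul_left_comm]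
    refine (mul_le_mul_right (dom_V_ge hc J) _).trans ?_
    rw [ENNReal.mul_iSup]
    exact iSup_le fun N => domV_def hc N _
  obtain ⟨J, hJ⟩ := ENNReal.exists_nat_mul_gt hk ENNReal.one_ne_top
  exact absurd (h1 J) (not_le.2 hJ)

theorem f_mean (hc : M.Good D c) : ∑' γ, M.f D γ * ENNReal.ofReal (D.lev γ) ≠ ∞ := by
  have hL := D.hL
  have hk : c * M.W [D.e] ≠ 0 := mul_ne_zero hc.1 (M.W_ne_zero _)
  have hk' : c * M.W [D.e] ≠ ∞ := ENNReal.mul_ne_top hc.ne_top (M.W_ne_top _)
  have h1 : ∀ J : ℕ, (∑' γ, M.f D γ * ENNReal.ofReal (min (D.lev γ) ((J + 3) * D.L))) ≤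
      ENNReal.ofReal (6 * D.L) / (c * M.W [D.e]) := fun J => by
    have hJ : (0 : ℝ) ≤ J := Nat.cast_nonneg J
    have h2 := mul_le_mul_right (dom_V_ge hc (J + 1))
      (∑' γ, M.f D γ * ENNReal.ofReal (min (D.lev γ) ((J + 3) * D.L)))
    rw [ENNReal.mul_iSup] at h2
    have h3 := h2.trans (iSup_le fun N => (domV_wald hc (y := (J + 3) * D.L) (by positivity) N
      _).trans (mul_le_of_le_one_left' (ind_le_one _)))
    have h4 : ENNReal.ofReal ((((J + 1 : ℕ) : ℝ) + 2) * D.L + (J + 3) * D.L) ≤
        ((J + 1 : ℕ) : ℝ≥0∞) * ENNReal.ofReal (6 * D.L) := by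
      rw [← ENNReal.ofReal_natCast, ← ENNReal.ofReal_mul (Nat.cast_nonneg _)]
      apply ENNReal.ofReal_le_ofReal
      push_cast
      nlinarith
    have h5 := h3.trans h4
    rw [mul_left_comm] at h5
    have h6 := (ENNReal.mul_le_mul_iff_right (by simp) (by simp)).1 h5
    rwa [ENNReal.le_div_iff_mul_le (Or.inl hk) (Or.inl hk')]
  refine ne_top_of_le_ne_top (ENNReal.div_ne_top ENNReal.ofReal_ne_top hk)
    (b := ENNReal.ofReal (6 * D.L) / (c * M.W [D.e])) ?_
  rw [ENNReal.tsum_eq_iSup_sum]
  refine iSup_le fun s => le_trans ?_ (h1 (s.sup List.length))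
  refine le_trans (sum_le_sum fun γ hγ => le_of_eq ?_) (ENNReal.sum_le_tsum s)
  rw [min_eq_left]
  have h2 := (le_abs_self _).trans (D.abs_lev_le γ)
  have h3 : (γ.length : ℝ) ≤ (s.sup List.length : ℕ) := by
    exact_mod_cast le_sup (f := List.length) hγ
  nlinarith

end Vale.Agent.P147
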