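import Vale.Agent.P147.Dom

/-! The maximal function of the conditional law of the endpoint. -/

namespace Vale.Agent.P147

open MeasureTheory ProbabilityTheory Finset Filter
open scoped ENNReal

variable {d : ℕ} {Ω : Type} [MeasurableSpace Ω] {M : Model d Ω} {D : Dir d} {c : ℝ≥0∞}

lemma doob_layer {x P : ℝ≥0∞} (h : P = 0 → x = 0) :
    x ≤ 2 * P + ∑' j : ℕ, 2 ^ (j + 2) * P * ind (2 ^ (j + 1) * P < x) := by
  classical
  by_cases h1 : ∃ j : ℕ, x ≤ 2 ^ (j + 1) * P
  · rcases h2 : Nat.find h1 with _ | j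
    · have := Nat.find_spec h1
      rw [h2, zero_add, pow_one] at this
      exact this.trans le_self_add
    · have h3 := Nat.find_spec h1
      have h4 := Nat.find_min h1 (show j < Nat.find h1 by omega)
      rw [h2] at h3
      refine le_trans ?_ (le_add_left (ENNReal.le_tsum j))
      rw [ind_pos (not_le.1 h4), mul_one]
      exact h3
  · have hP : P ≠ 0 := fun h0 => h1 ⟨0, (h h0).trans_le zero_le⟩
    refine le_add_left (le_trans (le_top.trans (ENNReal.tsum_const_eq_top_of_ne_zero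
      (α := ℕ) hP).ge) (ENNReal.tsum_le_tsum fun j => ?_))
    rw [ind_pos (not_le.1 fun h2 => h1 ⟨j, h2⟩), mul_one]
    exact le_mul_of_one_le_left' (one_le_pow₀ one_le_two)

lemma doob_min {α : Type*} {T : List α → Prop} {X p : List α} (hp : p <+: X) (hT : T p) :
    ∃ p', p' <+: X ∧ T p' ∧ ∀ r, r <+: p' → T r → r = p' := by
  obtain ⟨p', h1, h2⟩ := (measure List.length).wf.has_min {r | r <+: X ∧ T r} ⟨p, hp, hT⟩
  exact ⟨p', h1.1, h1.2, fun r h3 h4 =>
    h3.eq_of_length_le (not_lt.1 (h2 r ⟨h3.trans h1.1, h4⟩))⟩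

lemma doob_law_sum {Γ G : Type*} [AddCommGroup G] {f : Γ → ℝ≥0∞} (hf : ∑' γ, f γ = 1)
    (S : Γ → G) (n : ℕ) : ∑' y, law f S n y = 1 := by
  simp only [law]
  rw [← E_tsum, ← E_const hf n 1]
  refine E_congr' f fun l _ _ => ?_
  simpa only [mul_one, eq_comm] using tsum_ind_eq (l.map S).sum fun _ => 1

lemma doob_law_add (q t : ℕ) (y : Site d) : law (M.f D) disp (q + t) y =
    E (M.f D) q fun gs => law (M.f D) disp t (y - disp gs.flatten) := by
  simp only [law, E_append, List.map_append, List.sum_append, disp_flatten, eq_sub_iff_add_eq']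

lemma doob_weak (hc : M.Good D c) (q t : ℕ) (y : Site d) {lam : ℝ≥0∞} (hl : lam ≠ ∞) :
    lam * E (M.f D) q (fun gs => ind (∃ p, p <+: gs.flatten ∧
        2 * lam * M.W p < c * M.A D q t p y)) ≤
      E (M.f D) q fun gs => law (M.f D) disp t (y - disp gs.flatten) *
        ind (lam < law (M.f D) disp t (y - disp gs.flatten)) := by
  set T : List (Step d) → Prop := fun p => 2 * lam * M.W p < c * M.A D q t p y with hT
  set π := E (M.f D) q (fun gs => ind (∃ p, p <+: gs.flatten ∧ T p)) with hπ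
  have h1 : π ≤ ∑' p, ind (T p ∧ ∀ r, r <+: p → T r → r = p) *
      E (M.f D) q (fun gs => ind (p <+: gs.flatten)) := by
    simp only [← E_mul_left, ← E_tsum, ← ind_and]
    refine E_mono _ _ fun gs => le_trans (ind_mono ?_) (ind_exists_le _)
    rintro ⟨p, h1, h2⟩
    obtain ⟨p', h3, h4⟩ := doob_min h1 h2
    exact ⟨p', h4, h3⟩
  have h2 : 2 * lam * π ≤ ∑' p, ind (T p ∧ ∀ r, r <+: p → T r → r = p) * M.A D q t p y := by
    refine (mul_le_mul_right h1 _).trans ?_
    rw [← ENNReal.tsum_mul_left]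
    refine ENNReal.tsum_le_tsum fun p => ?_
    rw [mul_left_comm]
    refine ind_mul_le_of fun hp => ?_
    rw [ind_pos hp, one_mul, ← ENNReal.mul_le_mul_iff_right hc.1 hc.ne_top, mul_left_comm]
    exact (mul_le_mul_right (dom hc q p) _).trans hp.1.le
  have h3 : ∑' p, ind (T p ∧ ∀ r, r <+: p → T r → r = p) * M.A D q t p y ≤
      E (M.f D) q (fun gs => law (M.f D) disp t (y - disp gs.flatten) *
        ind (lam < law (M.f D) disp t (y - disp gs.flatten))) + lam * π := by
    simp only [Model.A, hπ, ← E_mul_left, ← E_tsum, ← E_add, ← mul_assoc, ← ind_and]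
    refine E_mono _ _ fun gs => tsum_ind_le_of_unique (fun p p' h h' => ?_) fun p hp => ?_
    · rcases List.prefix_or_prefix_of_prefix h.2 h'.2 with h1 | h1
      · exact h'.1.2 p h1 h.1.1
      · exact (h.1.2 p' h1 h'.1.1).symm
    · rw [ind_pos (p := ∃ p, p <+: gs.flatten ∧ T p) ⟨p, hp.2, hp.1.1⟩, mul_one]
      by_cases h1 : lam < law (M.f D) disp t (y - disp gs.flatten)
      · rw [ind_pos h1, mul_one]
        exact le_self_add
      · exact le_add_left (not_lt.1 h1)
  have h4 : lam * π ≠ ∞ := ENNReal.mul_ne_top hl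
    (ne_top_of_le_ne_top ENNReal.one_ne_top (E_ind_le_one (f_sum hc) _ _))
  rw [← ENNReal.add_le_add_iff_right h4, ← two_mul, ← mul_assoc]
  exact h2.trans h3

lemma doob_point (hc : M.Good D c) (q t : ℕ) (y : Site d) :
    E (M.f D) q (fun gs => c * ⨆ p, ind (p <+: gs.flatten) * (M.A D q t p y / M.W p)) ≤
      2 * law (M.f D) disp (q + t) y + 4 * E (M.f D) q fun gs =>
        law (M.f D) disp t (y - disp gs.flatten) *
          cnt (law (M.f D) disp t (y - disp gs.flatten)) (law (M.f D) disp (q + t) y) := by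
  set P := law (M.f D) disp (q + t) y with hP
  have hP1 : P ≠ ∞ := ne_top_of_le_ne_top ENNReal.one_ne_top (E_ind_le_one (f_sum hc) _ _)
  have hA : ∀ p, M.A D q t p y ≤ P := fun p => by
    rw [hP, doob_law_add]
    exact E_mono _ _ fun gs => ind_mul_le_of fun _ => le_rfl
  refine (E_mono _ _ fun gs => doob_layer (P := P) fun h0 => ?_).trans ?_
  · simp [le_zero_iff.1 ((hA _).trans h0.le)]
  simp only [cnt, ← ENNReal.tsum_mul_left, E_add, E_tsum, E_const (f_sum hc)]
  refine add_le_add_right (ENNReal.tsum_le_tsum fun j => ?_) _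
  refine le_trans ?_ (mul_le_mul_right (doob_weak hc q t y (lam := 2 ^ j * P)
    (ENNReal.mul_ne_top (ENNReal.pow_ne_top ENNReal.ofNat_ne_top) hP1)) _)
  rw [E_mul_left, ← mul_assoc, show (4 : ℝ≥0∞) * (2 ^ j * P) = 2 ^ (j + 2) * P by ring]
  refine mul_le_mul_right (E_mono _ _ fun gs => ind_mono fun h => ?_) _
  rw [ENNReal.mul_iSup, lt_iSup_iff] at h
  obtain ⟨p, hp⟩ := h
  by_cases h1 : p <+: gs.flatten
  · refine ⟨p, h1, ?_⟩
    rw [ind_pos h1, one_mul, ← mul_div_assoc,
      ENNReal.lt_div_iff_mul_lt (Or.inl (M.W_ne_zero p)) (Or.inl (M.W_ne_top p))] at hp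
    rwa [← mul_assoc, ← pow_succ']
  · simp [ind_neg h1] at hp

theorem doob (hc : M.Good D c) (q t : ℕ) :
    c * E (M.f D) q (fun gs => M.Z D q t gs.flatten) ≤ 2 + 4 * info (M.f D) disp q t := by
  simp only [Model.Z, ← E_mul_left, ← ENNReal.tsum_mul_left, E_tsum]
  refine (ENNReal.tsum_le_tsum fun y => doob_point hc q t y).trans (le_of_eq ?_)
  rw [ENNReal.tsum_add, ENNReal.tsum_mul_left, ENNReal.tsum_mul_left, doob_law_sum (f_sum hc),
    mul_one, ← E_tsum, info]
  refine congrArg (fun x => 2 + 4 * x) (E_congr' _ fun gs _ _ => ?_)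
  rw [← (Equiv.addLeft (disp gs.flatten)).tsum_eq]
  simp only [Equiv.coe_addLeft, add_sub_cancel_left, disp_flatten]

end Vale.Agent.P147
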