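import Vale.Agent.P147.Defs

/-! Existence of the quenched law. -/

namespace Vale.Agent.P147

open MeasureTheory ProbabilityTheory Finset Filter
open scoped ENNReal

variable {d : ℕ}

theorem exist_meas_eval (e : Step d) :
    Measurable fun p : Env d × Site d => ENNReal.ofReal ((p.1 p.2).1 e) := by
  have h : Measurable fun p : Env d × Site d => p.1 p.2 :=
    measurable_from_prod_countable_left fun x => measurable_pi_apply x
  exact ((measurable_pi_apply e).comp (measurable_subtype_coe.comp h)).ennreal_ofReal

/-- One step of the walk. -/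
noncomputable def existStep (d : ℕ) : Kernel (Env d × Site d) (Site d) where
  toFun p := ∑ e, ENNReal.ofReal ((p.1 p.2).1 e) • Measure.dirac (p.2 + vec e)
  measurable' := Measure.measurable_of_measurable_coe _ fun s hs => by
    simp only [Measure.finsetSum_apply, Measure.smul_apply, smul_eq_mul, Measure.dirac_apply' _ hs]
    refine Finset.measurable_sum _ fun e _ => (exist_meas_eval e).mul ?_
    exact (Measurable.of_discrete (f := fun x : Site d => s.indicator 1 (x + vec e))).comp
      measurable_snd

theorem existStep_apply (p : Env d × Site d) :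
    existStep d p = ∑ e, ENNReal.ofReal ((p.1 p.2).1 e) • Measure.dirac (p.2 + vec e) := rfl

theorem existStep_markov : IsMarkovKernel (existStep d) := ⟨fun p => ⟨by
  simp only [existStep_apply, Measure.finsetSum_apply, Measure.smul_apply, smul_eq_mul,
    measure_univ, mul_one]
  rw [← ENNReal.ofReal_sum_of_nonneg fun e _ => (p.1 p.2).2.1 e, (p.1 p.2).2.2,
    ENNReal.ofReal_one]⟩⟩

theorem existStep_single (ω : Env d) (x y : Site d) :
    existStep d (ω, x) {y} = ENNReal.ofReal (trans ω x y) := by
  simp only [existStep_apply, Measure.finsetSum_apply, Measure.smul_apply, smul_eq_mul, trans]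
  rw [ENNReal.ofReal_sum_of_nonneg fun e _ => by
    have := (ω x).2.1 e
    split_ifs <;> positivity]
  refine sum_congr rfl fun e _ => ?_
  by_cases h : y = x + vec e
  · simp [h]
  · simp [h, Ne.symm h]

/-- The walk driven by the random numbers `u`. -/
def existWalk (F : Env d × Site d → unitInterval → Site d) (p : Env d × (ℕ → unitInterval)) :
    ℕ → Site d
  | 0 => 0
  | n + 1 => F (p.1, existWalk F p n) (p.2 n)

theorem existWalk_meas {F : Env d × Site d → unitInterval → Site d}
    (hF : Measurable (Function.uncurry F)) : Measurable (existWalk F) := by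
  refine measurable_pi_lambda _ fun n => ?_
  induction n with
  | zero => exact measurable_const
  | succ n ih =>
    exact hF.comp ((measurable_fst.prodMk ih).prodMk ((measurable_pi_apply n).comp measurable_snd))

theorem existWalk_iff (F : Env d × Site d → unitInterval → Site d)
    (p : Env d × (ℕ → unitInterval)) (x : ℕ → Site d) (n : ℕ) :
    (∀ i ≤ n, existWalk F p i = x i) ↔
      x 0 = 0 ∧ ∀ i < n, F (p.1, x i) (p.2 i) = x (i + 1) := by
  induction n with
  | zero => simp [existWalk, eq_comm]
  | succ n ih =>
    rw [Nat.forall_lt_succ_right, ← and_assoc, ← ih]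
    constructor
    · intro h
      exact ⟨fun i hi => h i (by omega), by rw [← h n (by omega), ← h (n + 1) le_rfl]; rfl⟩
    · rintro ⟨h1, h2⟩ i hi
      rcases Nat.lt_or_ge n i with h | h
      · obtain rfl : i = n + 1 := by omega
        rw [← h2, ← h1 n le_rfl]; rfl
      · exact h1 i h

theorem exists_quenched (d : ℕ) : ∃ Q : Kernel (Env d) (ℕ → Site d), IsQuenched Q := by
  have := existStep_markov (d := d)
  obtain ⟨F, hF, h⟩ := Kernel.exists_measurable_map_eq_unitInterval (existStep d)
  have hw := existWalk_meas hF
  refine ⟨(Kernel.id ×ₖ Kernel.const _ (Measure.infinitePi fun _ : ℕ =>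
    (volume : Measure unitInterval))).map (existWalk F), Kernel.IsMarkovKernel.map _ hw,
    fun ω n x => ?_⟩
  have hs : MeasurableSet {X : ℕ → Site d | ∀ i ≤ n, X i = x i} := by
    simp only [Set.ofPred_forall]
    exact MeasurableSet.iInter fun i => MeasurableSet.iInter fun _ =>
      measurableSet_eq_fun (measurable_pi_apply i) measurable_const
  rw [Kernel.map_apply' _ hw _ hs, Kernel.prod_apply, Kernel.id_apply, Kernel.const_apply,
    Measure.dirac_prod, Measure.map_apply measurable_prodMk_left (hw hs)]
  have e : Prod.mk ω ⁻¹' (existWalk F ⁻¹' {X : ℕ → Site d | ∀ i ≤ n, X i = x i}) =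
      if x 0 = 0 then Set.pi (range n : Finset ℕ) fun i => F (ω, x i) ⁻¹' {x (i + 1)} else ∅ := by
    ext u
    simp only [Set.mem_preimage, Set.mem_ofPred_eq, existWalk_iff]
    split_ifs with h0 <;> simp [h0]
  have hm : ∀ i, Measurable (F (ω, x i)) := fun i => hF.of_uncurry_left
  rw [e]
  split_ifs with h0
  · rw [Measure.infinitePi_pi _ fun i _ => hm i (measurableSet_singleton _)]
    refine prod_congr rfl fun i _ => ?_
    rw [← Measure.map_apply (hm i) (measurableSet_singleton _), h, existStep_single]
  · exact measure_empty

end Vale.Agent.P147
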