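import Vale.Agent.P147.PDefs

/-! The iid elliptic environment is a model; the quenched law exists. -/

namespace Vale.Agent.P147

open MeasureTheory ProbabilityTheory Finset Filter
open scoped ENNReal

variable {d : ℕ}

/-- The weights of an environment. -/
noncomputable def mofW (η : Env d) (x : Site d) (e : Step d) : ℝ≥0∞ := ENNReal.ofReal ((η x).1 e)

theorem mof_meas (x : Site d) (e : Step d) : Measurable fun η : Env d => mofW η x e :=
  ((measurable_pi_apply e).comp
    (measurable_subtype_coe.comp (measurable_pi_apply x))).ennreal_ofReal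

theorem mof_meas_wq (x : Site d) (l : List (Step d)) :
    Measurable fun η : Env d => wq (mofW η) x l := by
  induction l generalizing x with
  | nil => simp
  | cons e l ih => exact (mof_meas x e).mul (ih _)

theorem mof_shift (η : Env d) (x y : Site d) (l : List (Step d)) :
    wq (mofW fun z => η (x + z)) y l = wq (mofW η) (x + y) l := by
  induction l generalizing y with
  | nil => rfl
  | cons e l ih => rw [wq_cons, wq_cons, ih, add_assoc]; rfl

theorem mof_finite (x : Site d) (l : List (Step d)) : (sites x l).Finite := by
  induction l generalizing x with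
  | nil => simp
  | cons e l ih => rw [sites_cons]; exact (ih _).insert x

theorem mof_congr {η η' : Env d} {x : Site d} {l : List (Step d)}
    (h : ∀ z ∈ sites x l, η z = η' z) : wq (mofW η) x l = wq (mofW η') x l := by
  induction l generalizing x with
  | nil => rfl
  | cons e l ih =>
    rw [sites_cons] at h
    rw [wq_cons, wq_cons, ih fun z hz => h z (Set.mem_insert_of_mem _ hz), mofW, mofW,
      h x (Set.mem_insert _ _)]

theorem mof_factor (r : Row d) (x : Site d) (l : List (Step d)) :
    ∃ g : ((mof_finite x l).toFinset → Row d) → ℝ≥0∞, Measurable g ∧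
      ∀ η : Env d, wq (mofW η) x l = g fun i => η i := by
  classical
  refine ⟨fun s => wq (mofW fun z => if h : z ∈ (mof_finite x l).toFinset then s ⟨z, h⟩ else r) x l,
    (mof_meas_wq x l).comp (measurable_pi_lambda _ fun z => ?_), fun η => mof_congr fun z hz => ?_⟩
  · split_ifs with h
    · exact measurable_pi_apply _
    · exact measurable_const
  · rw [dif_pos ((mof_finite x l).mem_toFinset.2 hz)]

theorem mof_vec_inj : Function.Injective (vec : Step d → Site d) := by
  rintro ⟨i, b⟩ ⟨j, c⟩ h
  have h1 := congrFun h i
  by_cases hij : i = j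
  · subst hij
    cases b <;> cases c <;> simp_all [vec]
  · cases b <;> simp [vec, hij] at h1

theorem mof_trans (η : Env d) (x : Site d) (e : Step d) : trans η x (x + vec e) = (η x).1 e := by
  simp [trans, mof_vec_inj.eq_iff]

theorem mof_prod (η : Env d) (x : Site d) (l : List (Step d)) :
    ∏ i ∈ range l.length, ENNReal.ofReal
      (trans η (x + disp (l.take i)) (x + disp (l.take (i + 1)))) = wq (mofW η) x l := by
  induction l generalizing x with
  | nil => simp
  | cons e l ih =>
    rw [List.length_cons, prod_range_succ', wq_cons, ← ih, mul_comm]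
    simp only [List.take_succ_cons, disp_cons, List.take_zero, disp_nil, add_zero,
      add_assoc x, mof_trans, mofW]

theorem exists_model (μ : Measure (Row d)) [IsProbabilityMeasure μ]
    (hμ : ∀ᵐ p ∂μ, ∀ e, 0 < p.1 e) (Q : Kernel (Env d) (ℕ → Site d)) (hQ : IsQuenched Q) :
    ∃ M : Model d (Env d), ∀ l, (Q ∘ₘ envLaw μ) (cyl l) = M.W l := by
  have hP : IsProbabilityMeasure (envLaw μ) := by unfold envLaw; infer_instance
  have hW : ∀ x l, ∫⁻ η, wq (mofW η) x l ∂envLaw μ = ∫⁻ η, wq (mofW η) 0 l ∂envLaw μ := by
    intro x l
    have h := Measure.infinitePi_map_piCongrLeft (fun _ : Site d => μ) (Equiv.addLeft x).symm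
    unfold envLaw
    conv_rhs => rw [← h]
    rw [lintegral_map (mof_meas_wq 0 l) (MeasurableEquiv.measurable _)]
    refine lintegral_congr fun η => ?_
    have e : (MeasurableEquiv.piCongrLeft (fun _ : Site d => Row d) (Equiv.addLeft x).symm) η =
        fun z => η (x + z) := by
      funext z
      simp [MeasurableEquiv.piCongrLeft, Equiv.piCongrLeft_apply_eq_cast]
    rw [e, mof_shift, add_zero]
  refine ⟨⟨envLaw μ, hP, mofW, fun η x => ?_, mof_meas, ?_,
    fun l => ∫⁻ η, wq (mofW η) 0 l ∂envLaw μ, hW, fun x l y l' hd => ?_⟩, fun l => ?_⟩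
  · unfold mofW
    rw [← ENNReal.ofReal_sum_of_nonneg fun e _ => (η x).2.1 e, (η x).2.2, ENNReal.ofReal_one]
  · refine ae_all_iff.2 fun x => ?_
    have h := (measurePreserving_eval_infinitePi (fun _ : Site d => μ) x).quasiMeasurePreserving.ae
      hμ
    exact h.mono fun η hη e => (ENNReal.ofReal_pos.2 (hη e)).ne'
  · obtain ⟨r⟩ := nonempty_of_isProbabilityMeasure μ
    obtain ⟨g, hg, h1⟩ := mof_factor r x l
    obtain ⟨g', hg', h2⟩ := mof_factor r y l'
    have h3 := ((iIndepFun_infinitePi (P := fun _ : Site d => μ) (X := fun _ => id)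
      fun _ => measurable_id).indepFun_finset _ _
        (Set.Finite.disjoint_toFinset (hs := mof_finite x l) (ht := mof_finite y l') |>.2 hd)
        fun i => measurable_pi_apply i).comp hg hg'
    rw [← hW x l, ← hW y l']
    refine lintegral_mul_eq_lintegral_mul_lintegral_of_indepFun'' (mof_meas_wq x l).aemeasurable
      (mof_meas_wq y l').aemeasurable ?_
    rw [funext h1, funext h2]
    exact h3
  · have hs : MeasurableSet (cyl l) := by
      simp only [cyl, Set.ofPred_forall]
      exact MeasurableSet.iInter fun i => MeasurableSet.iInter fun _ =>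
        measurable_pi_apply i (measurableSet_singleton _)
    rw [Measure.bind_apply hs Q.aemeasurable]
    refine lintegral_congr fun η => ?_
    rw [cyl, hQ.2 η l.length fun i => disp (l.take i), if_pos (by simp), ← mof_prod]
    simp only [zero_add]

end Vale.Agent.P147
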