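import Vale.Agent.P147.PDefs

/-! Repeated trials in fresh half spaces. -/

namespace Vale.Agent.P147

open MeasureTheory ProbabilityTheory Finset Filter
open scoped ENNReal

variable {d : ℕ} {Ω : Type} [MeasurableSpace Ω] {M : Model d Ω} {D : Dir d} {c : ℝ≥0∞}

/-- The shortest initial segment with a given property. -/
lemma trial_first {α : Type*} (P : List α → Prop) (l : List α) (h : P l) :
    ∃ a, a <+: l ∧ P a ∧ ∀ p, p <+: a → p ≠ a → ¬ P p := by
  induction hn : l.length using Nat.strong_induction_on generalizing l with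
  | _ n ih =>
    by_cases hex : ∃ p, p <+: l ∧ p ≠ l ∧ P p
    · obtain ⟨p, hp, hne, hP⟩ := hex
      have hlt : p.length < l.length :=
        lt_of_le_of_ne hp.length_le fun he => hne (hp.eq_of_length he)
      obtain ⟨a, ha, h1, h2⟩ := ih p.length (hn ▸ hlt) p hP rfl
      exact ⟨a, ha.trans hp, h1, h2⟩
    · exact ⟨l, List.prefix_refl l, h, fun p hp hne hP => hex ⟨p, hp, hne, hP⟩⟩

/-- First passage above `t` inside the slab. -/
def trialLv (D : Dir d) (Θ : Site d →+ ℝ) (lo hi t : ℝ) (a : List (Step d)) : Prop :=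
  (∀ p, p <+: a → lo ≤ D.lev p ∧ D.lev p ≤ hi) ∧ t ≤ Θ (disp a) ∧
    ∀ p, p <+: a → p ≠ a → Θ (disp p) < t

lemma trial_step (M : Model d Ω) (D : Dir d) (Θ : Site d →+ ℝ) (st B lo hi t : ℝ)
    (hst : ∀ e, Θ (vec e) ≤ st) (hst0 : 0 < st) (ht : 0 ≤ t) (β : ℝ≥0∞)
    (T : List (Step d) → Prop)
    (hT : ∀ δ, T δ → hi - lo < D.lev δ ∧ ∀ p, p <+: δ → 0 ≤ Θ (disp p) ∧ Θ (disp p) ≤ B)
    (hpf : ∀ p q, T p → T q → p <+: q → p = q) (hβ : β ≤ ∑' δ, ind (T δ) * M.W δ)
    (a : List (Step d)) (ha : trialLv D Θ lo hi t a) :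
    ∑' q, ind (trialLv D Θ lo hi (t + (B + st)) (a ++ q)) * M.W (a ++ q) ≤ (1 - β) * M.W a := by
  have h1 : Θ (disp a) < t + st := by
    rcases List.eq_nil_or_concat a with rfl | ⟨a', e, rfl⟩
    · rw [disp_nil, map_zero]; linarith
    · have h2 := ha.2.2 a' (by simp) (by simp)
      have h3 := hst e
      rw [List.concat_eq_append, disp_append, map_add, disp_cons, disp_nil, add_zero]
      linarith
  have hW : ∀ δ, T δ → M.W (a ++ δ) = M.W a * M.W δ := by
    intro δ hδ
    apply M.W_append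
    rw [Set.disjoint_left]
    rintro z ⟨p, hp, hne, rfl⟩ ⟨q, hq, _, he⟩
    have h2 := ha.2.2 p hp hne
    have h3 := ((hT δ hδ).2 q hq).1
    have h4 := congrArg Θ he
    have h5 := ha.2.1
    simp only [zero_add, map_add] at h4
    linarith
  have hx1 : ∀ p q, trialLv D Θ lo hi (t + (B + st)) (a ++ p) → T q → p <+: q → False := by
    intro p q hp hq hpq
    have h2 := ((hT q hq).2 p hpq).2
    have h3 := hp.2.1
    rw [disp_append, map_add] at h3
    linarith
  have hx2 : ∀ p q, T p → trialLv D Θ lo hi (t + (B + st)) (a ++ q) → p <+: q → False := by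
    intro p q hp hq hpq
    have h2 := (hT p hp).1
    have h3 := (hq.1 (a ++ p) ((List.prefix_append_right_inj a).2 hpq)).2
    have h4 := (ha.1 a (List.prefix_refl a)).1
    rw [Dir.lev_append] at h3
    linarith
  have hF := M.cons.pf a (fun q => trialLv D Θ lo hi (t + (B + st)) (a ++ q) ∨ T q) (by
    rintro p q (hp | hp) (hq | hq) hpq
    · by_contra hne
      have := hq.2.2 (a ++ p) ((List.prefix_append_right_inj a).2 hpq)
        fun h => hne (List.append_cancel_left h)
      exact absurd hp.2.1 (not_le.2 this)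
    · exact (hx1 p q hp hq hpq).elim
    · exact (hx2 p q hp hq hpq).elim
    · exact hpf p q hp hq hpq)
  have hsum : ∑' q, ind (trialLv D Θ lo hi (t + (B + st)) (a ++ q)) * M.W (a ++ q)
      + β * M.W a ≤ M.W a := by
    refine le_trans ?_ hF
    refine le_trans (add_le_add_right (mul_le_mul_left hβ _) _) ?_
    rw [← ENNReal.tsum_mul_right, ← ENNReal.tsum_add]
    refine ENNReal.tsum_le_tsum fun q => ?_
    by_cases hq : T q
    · rw [ind_neg fun h => hx1 q q h hq (List.prefix_refl q), ind_pos hq, ind_pos (Or.inr hq),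
        hW q hq, zero_mul, zero_add, one_mul, one_mul, mul_comm]
    · rw [ind_neg hq, zero_mul, zero_mul, add_zero]
      exact mul_le_mul_left (ind_mono Or.inl) _
  rw [ENNReal.sub_mul fun _ _ => M.W_ne_top a, one_mul]
  exact ENNReal.le_sub_of_add_le_right
    (ne_top_of_le_ne_top (M.W_ne_top a) (le_add_self.trans hsum)) hsum

theorem trial (M : Model d Ω) (D : Dir d) (Θ : Site d →+ ℝ) (st B lo hi : ℝ)
    (hst : ∀ e, Θ (vec e) ≤ st) (hst0 : 0 < st) (hB : 0 ≤ B) (β : ℝ≥0∞)
    (T : List (Step d) → Prop)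
    (hT : ∀ δ, T δ → hi - lo < D.lev δ ∧ ∀ p, p <+: δ → 0 ≤ Θ (disp p) ∧ Θ (disp p) ≤ B)
    (hpf : ∀ p q, T p → T q → p <+: q → p = q) (hβ : β ≤ ∑' δ, ind (T δ) * M.W δ) (j : ℕ) :
    ∑' a, ind ((∀ p, p <+: a → lo ≤ D.lev p ∧ D.lev p ≤ hi) ∧ j * (B + st) ≤ Θ (disp a) ∧
      ∀ p, p <+: a → p ≠ a → Θ (disp p) < j * (B + st)) * M.W a ≤ (1 - β) ^ j := by
  change ∑' a, ind (trialLv D Θ lo hi (j * (B + st)) a) * M.W a ≤ (1 - β) ^ j
  induction j with
  | zero =>
    have := M.cons.pf [] (trialLv D Θ lo hi (((0 : ℕ) : ℝ) * (B + st))) fun p q hp hq h => by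
      by_contra hne
      exact absurd (hq.2.2 p h hne) (not_lt.2 hp.2.1)
    simpa only [M.W_nil, List.nil_append, pow_zero] using this
  | succ j ih =>
    have ht : (0 : ℝ) ≤ j * (B + st) := by positivity
    have he : ((j + 1 : ℕ) : ℝ) * (B + st) = j * (B + st) + (B + st) := by push_cast; ring
    rw [he]
    have hex : ∀ x : List (Step d), ∃ y : List (Step d) × List (Step d),
        trialLv D Θ lo hi (j * (B + st) + (B + st)) x →
          trialLv D Θ lo hi (j * (B + st)) y.1 ∧ y.1 ++ y.2 = x := by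
      intro x
      by_cases hx : trialLv D Θ lo hi (j * (B + st) + (B + st)) x
      · obtain ⟨a, ⟨q, rfl⟩, h1, h2⟩ := trial_first (fun p => j * (B + st) ≤ Θ (disp p)) x
          (by linarith [hx.2.1])
        exact ⟨(a, q), fun _ => ⟨⟨fun p hp => hx.1 p (hp.trans (List.prefix_append a q)), h1,
          fun p hp hne => not_le.1 (h2 p hp hne)⟩, rfl⟩⟩
      · exact ⟨([], []), fun h => absurd h hx⟩
    choose φ hφ using hex
    calc ∑' a, ind (trialLv D Θ lo hi (j * (B + st) + (B + st)) a) * M.W a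
        ≤ ∑' y : List (Step d) × List (Step d), ind (trialLv D Θ lo hi (j * (B + st)) y.1) *
            (ind (trialLv D Θ lo hi (j * (B + st) + (B + st)) (y.1 ++ y.2)) *
              M.W (y.1 ++ y.2)) := by
          refine tsum_ind_le_of_injOn φ ?_ ?_
          · intro x x' hx hx' h
            rw [← (hφ x hx).2, ← (hφ x' hx').2, h]
          · intro x hx
            rw [ind_pos (hφ x hx).1, (hφ x hx).2, ind_pos hx, one_mul, one_mul]
      _ ≤ ∑' a, (1 - β) * (ind (trialLv D Θ lo hi (j * (B + st)) a) * M.W a) := by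
          rw [ENNReal.tsum_prod']
          refine ENNReal.tsum_le_tsum fun a => ?_
          simp only []
          rw [ENNReal.tsum_mul_left]
          refine ind_mul_le_of fun ha => ?_
          rw [ind_pos ha, one_mul]
          exact trial_step M D Θ st B lo hi _ hst hst0 ht β T hT hpf hβ a ha
      _ ≤ (1 - β) ^ (j + 1) := by
          rw [ENNReal.tsum_mul_left, pow_succ']
          exact mul_le_mul_right ih _

end Vale.Agent.P147
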