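import Vale.Agent.P147.Dom
import Vale.Agent.P147.Trial
import Vale.Agent.P147.Garsia

/-! Null events for the annealed law. -/

namespace Vale.Agent.P147

open MeasureTheory ProbabilityTheory Finset Filter
open scoped ENNReal

variable {d : ℕ} {Ω : Type} [MeasurableSpace Ω] {M : Model d Ω} {D : Dir d} {c : ℝ≥0∞}

lemma null_cover (P : Measure (ℕ → Site d)) (hP : ∀ l, P (cyl l) = M.W l)
    {Ev : Set (ℕ → Site d)} (F : List (Step d) → Prop)
    (h : ∀ X ∈ Ev, ∃ l, F l ∧ X ∈ cyl l) : P Ev ≤ ∑' l, ind (F l) * M.W l := by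
  have h1 : Ev ⊆ ⋃ l, {X | F l ∧ X ∈ cyl l} := fun X hX => Set.mem_iUnion.2 (h X hX)
  refine (measure_mono h1).trans ((measure_iUnion_le _).trans (ENNReal.tsum_le_tsum fun l => ?_))
  by_cases hl : F l
  · rw [ind_pos hl, one_mul, ← hP]
    exact measure_mono fun X hX => hX.2
  · simp [hl]

lemma null_length (s : ℕ → Step d) (n : ℕ) : (pre s n).length = n := by simp [pre]

lemma null_succ (s : ℕ → Step d) (n : ℕ) : pre s (n + 1) = pre s n ++ [s n] := by
  simp [pre, List.range_succ]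

lemma null_take (s : ℕ → Step d) {i n : ℕ} (h : i ≤ n) : (pre s n).take i = pre s i := by
  rw [pre, ← List.map_take, List.take_range, min_eq_left h, pre]

lemma null_pre_le (s : ℕ → Step d) {i n : ℕ} (h : i ≤ n) : pre s i <+: pre s n :=
  null_take s h ▸ List.take_prefix _ _

lemma null_of_le {s : ℕ → Step d} {n : ℕ} {p : List (Step d)} (h : p <+: pre s n) :
    p.length ≤ n ∧ p = pre s p.length := by
  have h1 : p.length ≤ n := h.length_le.trans_eq (null_length s n)
  exact ⟨h1, (List.prefix_iff_eq_take.1 h).trans (null_take s h1)⟩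

lemma null_of_lt {s : ℕ → Step d} {n : ℕ} {p : List (Step d)} (h : p <+: pre s n)
    (hne : p ≠ pre s n) : p.length < n :=
  lt_of_le_of_ne (null_of_le h).1 fun e => hne (by rw [(null_of_le h).2, e])

lemma null_mem {s : ℕ → Step d} {X : ℕ → Site d} (h : ∀ n, X n = disp (pre s n)) (n : ℕ) :
    X ∈ cyl (pre s n) := fun i hi => by
  rw [null_length] at hi
  rw [null_take s hi, h]

lemma null_vec_inj : Function.Injective (vec : Step d → Site d) := by
  rintro ⟨i, b⟩ ⟨j, b'⟩ h
  have h1 := congrFun h i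
  by_cases hij : i = j
  · subst hij
    cases b <;> cases b' <;> simp_all [vec]
  · cases b <;> simp [vec, hij] at h1

lemma null_take_succ {l : List (Step d)} {n : ℕ} (h : n < l.length) :
    disp (l.take (n + 1)) = disp (l.take n) + vec l[n] := by
  rw [List.take_succ_eq_append_getElem h, disp_append, disp_cons, disp_nil, add_zero]

lemma null_take_eq {l l' : List (Step d)} {n : ℕ} (h1 : n ≤ l.length) (h2 : n ≤ l'.length)
    (h : ∀ i ≤ n, disp (l.take i) = disp (l'.take i)) : l.take n = l'.take n := by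
  induction n with
  | zero => simp
  | succ n ih =>
    have h3 := ih (by omega) (by omega) fun i hi => h i (by omega)
    have h4 := h (n + 1) le_rfl
    rw [null_take_succ h1, null_take_succ h2, h3, add_right_inj] at h4
    rw [List.take_succ_eq_append_getElem h1, List.take_succ_eq_append_getElem h2, h3,
      null_vec_inj h4]

lemma null_meas (l : List (Step d)) : MeasurableSet (cyl l) := by
  have : cyl l = ⋂ i ∈ Set.Iic l.length, (fun X : ℕ → Site d => X i) ⁻¹' {disp (l.take i)} := by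
    ext X; simp [cyl]
  rw [this]
  exact MeasurableSet.biInter (Set.to_countable _) fun i _ =>
    measurable_pi_apply i (measurableSet_singleton _)

theorem null0 (P : Measure (ℕ → Site d)) [IsProbabilityMeasure P] (hP : ∀ l, P (cyl l) = M.W l) :
    P {X | ¬NN X} = 0 := by
  have h1 : ∀ n : ℕ, P (⋃ l : List (Step d), {X | l.length = n ∧ X ∈ cyl l})ᶜ = 0 := by
    intro n
    have hm : ∀ l : List (Step d), MeasurableSet {X | l.length = n ∧ X ∈ cyl l} := fun l =>
      (MeasurableSet.const _).inter (null_meas l)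
    rw [prob_compl_eq_zero_iff (MeasurableSet.iUnion hm), measure_iUnion _ hm, ← M.W_nil,
      ← M.cons.level [] n]
    · congr with l
      by_cases hl : l.length = n
      · rw [ind_pos hl, one_mul, List.nil_append, ← hP]
        simp [hl]
      · simp [hl, ind_neg]
    · intro l l' hne
      rw [Function.onFun, Set.disjoint_left]
      rintro X ⟨a1, a2⟩ ⟨b1, b2⟩
      apply hne
      have := null_take_eq a1.ge b1.ge fun i hi => (a2 i (a1 ▸ hi)).symm.trans (b2 i (b1 ▸ hi))
      rwa [List.take_of_length_le a1.le, List.take_of_length_le b1.le] at this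
  refine measure_mono_null (fun X hX => ?_) (measure_iUnion_null h1)
  by_contra h
  simp only [Set.mem_iUnion, Set.mem_compl_iff, not_exists, not_forall, not_not,
    Set.mem_ofPred_eq] at h
  have h2 : ∀ n, ∃ e, X (n + 1) = X n + vec e := by
    intro n
    obtain ⟨l, a1, a2⟩ := h (n + 1)
    exact ⟨l[n], by rw [a2 (n + 1) a1.ge, a2 n (by omega), null_take_succ (by omega)]⟩
  choose s hs using h2
  refine hX ⟨s, fun n => ?_⟩
  induction n with
  | zero =>
    obtain ⟨l, -, a2⟩ := h 0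
    simpa [pre] using a2 0 (Nat.zero_le _)
  | succ n ih => rw [hs, ih, null_succ]; simp

lemma null_first {α : Type*} (Q : List α → Prop) {l : List α} (h : Q l) :
    ∃ p, p <+: l ∧ Q p ∧ ∀ p', p' <+: p → p' ≠ p → ¬ Q p' := by
  induction hn : l.length using Nat.strong_induction_on generalizing l with
  | _ n ih =>
    by_cases h1 : ∃ p', p' <+: l ∧ p' ≠ l ∧ Q p'
    · obtain ⟨p', a1, a2, a3⟩ := h1
      obtain ⟨p, b1, b2⟩ := ih p'.length
        (hn ▸ lt_of_le_of_ne a1.length_le fun e => a2 (a1.eq_of_length e)) a3 rfl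
      exact ⟨p, b1.trans a1, b2⟩
    · exact ⟨l, List.prefix_rfl, h, fun p' a1 a2 a3 => h1 ⟨p', a1, a2, a3⟩⟩

lemma null_group {α : Type*} {v : List α → ℝ≥0∞} (hv : Cons v) (F G : List α → Prop)
    (hF : ∀ p q, F p → F q → p <+: q → p = q) (h : ∀ l, F l → ∃ p, p <+: l ∧ G p) :
    ∑' l, ind (F l) * v l ≤ ∑' p, ind (G p) * v p := by
  calc ∑' l, ind (F l) * v l ≤ ∑' l, ∑' p, ind (G p) * (ind (F l ∧ p <+: l) * v l) := by
        refine ENNReal.tsum_le_tsum fun l => ind_mul_le_of fun hl => ?_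
        obtain ⟨p, a1, a2⟩ := h l hl
        refine le_trans ?_ (ENNReal.le_tsum p)
        rw [ind_pos a2, ind_pos ⟨hl, a1⟩, one_mul, one_mul]
    _ = ∑' p, ind (G p) * ∑' l, ind (F l ∧ p <+: l) * v l := by
        rw [ENNReal.tsum_comm]
        simp only [ENNReal.tsum_mul_left]
    _ ≤ _ := ENNReal.tsum_le_tsum fun p => mul_le_mul_right
        (hv.pf' p _ (fun _ h => h.2) fun a b ha hb => hF a b ha.1 hb.1) _

lemma null_small (M : Model d Ω) (x : Site d) (l : List (Step d)) {δ : ℝ≥0∞} (hδ : δ ≠ 0) :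
    ∃ ε : ℝ≥0∞, ε ≠ 0 ∧ ε ≠ ∞ ∧ M.P {η | wq (M.ω η) x l < ε} ≤ δ := by
  have := M.prob
  have h1 := tendsto_measure_iInter_atTop (μ := M.P)
    (s := fun n : ℕ => {η | wq (M.ω η) x l < ((n + 1 : ℕ) : ℝ≥0∞)⁻¹})
    (fun n => (measurableSet_lt (M.meas_wq x l) measurable_const).nullMeasurableSet)
    (fun n m hnm η hη => lt_of_lt_of_le hη (ENNReal.inv_le_inv.2 (by exact_mod_cast by omega)))
    ⟨0, measure_ne_top _ _⟩
  have h2 : M.P (⋂ n : ℕ, {η | wq (M.ω η) x l < ((n + 1 : ℕ) : ℝ≥0∞)⁻¹}) = 0 := by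
    refine measure_mono_null (t := {η | ¬ ∀ x l, wq (M.ω η) x l ≠ 0}) (fun η hη hη' => ?_)
      (ae_iff.1 M.wq_pos)
    obtain ⟨n, hn⟩ := ENNReal.exists_inv_nat_lt (hη' x l)
    have h3 : wq (M.ω η) x l < ((n + 1 : ℕ) : ℝ≥0∞)⁻¹ := Set.mem_iInter.1 hη n
    exact lt_asymm (h3.trans_le (ENNReal.inv_le_inv.2 (by exact_mod_cast by omega))) hn
  rw [h2] at h1
  obtain ⟨n, hn⟩ := (h1.eventually (ge_mem_nhds (pos_iff_ne_zero.2 hδ))).exists
  exact ⟨_, by simp, by simp, hn⟩

lemma null_split (M : Model d Ω) (F : List (Step d) → Prop) (x : Site d) (r : List (Step d))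
    {C ε : ℝ≥0∞} (h0 : ε ≠ 0) (h1 : ε ≠ ∞)
    (hC : ∀ η, ∑' l, ind (F l) * wq (M.ω η) 0 l ≤ C) :
    ∑' l, ind (F l) * M.W l ≤ C * M.P {η | wq (M.ω η) x r < ε} +
      ε⁻¹ * ∫⁻ η, wq (M.ω η) x r * ∑' l, ind (F l) * wq (M.ω η) 0 l ∂M.P := by
  have hm : MeasurableSet {η | wq (M.ω η) x r < ε} :=
    measurableSet_lt (M.meas_wq x r) measurable_const
  have h2 : ∑' l, ind (F l) * M.W l = ∫⁻ η, ∑' l, ind (F l) * wq (M.ω η) 0 l ∂M.P := by
    rw [lintegral_tsum fun l => ((M.meas_wq 0 l).const_mul _).aemeasurable]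
    congr with l
    rw [lintegral_const_mul _ (M.meas_wq 0 l), M.hW]
  rw [h2, ← lintegral_indicator_const hm, ← lintegral_const_mul' _ _ (ENNReal.inv_ne_top.2 h0),
    ← lintegral_add_left (measurable_const.indicator hm)]
  refine lintegral_mono fun η => ?_
  by_cases hη : η ∈ {η | wq (M.ω η) x r < ε}
  · rw [Set.indicator_of_mem hη]
    exact (hC η).trans le_self_add
  · refine le_trans ?_ le_add_self
    rw [← mul_assoc]
    refine le_mul_of_one_le_left zero_le ?_
    rw [← ENNReal.inv_mul_cancel h0 h1]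
    exact mul_le_mul_right (not_lt.1 hη) _

lemma null_rep (D : Dir d) (j : ℕ) : D.lev (List.replicate j D.e) = j * D.L := by
  induction j with
  | zero => simp
  | succ j ih =>
    rw [List.replicate_succ', Dir.lev_append, ih, Dir.lev_single]
    push_cast; ring

lemma null_rep_le {α : Type*} {e : α} {j : ℕ} {p : List α} (h : p <+: List.replicate j e) :
    p.length ≤ j ∧ p = List.replicate p.length e := List.prefix_replicate_iff.1 h

lemma null_fp {a : ℝ} {p q : List (Step d)} (h1 : a ≤ D.lev p)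
    (h2 : ∀ p', p' <+: q → p' ≠ q → D.lev p' < a) (h : p <+: q) : p = q := by
  by_contra hne
  exact absurd (h2 p h hne) (not_lt.2 h1)

lemma null_anti (M : Model d Ω) (D : Dir d) {a a' : ℝ} (h : a ≤ a') : M.u D a' ≤ M.u D a := by
  refine null_group M.cons _ _ (fun p q hp hq => null_fp hp.2.1 hq.2.2) fun l hl => ?_
  obtain ⟨p, a1, a2, a3⟩ := null_first (fun p => a ≤ D.lev p) (h.trans hl.2.1)
  exact ⟨p, a1, fun q hq => hl.1 q (hq.trans a1), a2, fun q b1 b2 => not_le.1 (a3 q b1 b2)⟩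

lemma null_nat (D : Dir d) (b : ℝ) : ∃ j : ℕ, b < j * D.L := by
  obtain ⟨j, hj⟩ := exists_nat_gt (b / D.L)
  exact ⟨j, (div_lt_iff₀ D.hL).1 hj⟩

theorem null1 (P : Measure (ℕ → Site d)) (hP : ∀ l, P (cyl l) = M.W l)
    (h : ⨅ a, M.u D a = 0) :
    P {X | NN X ∧ (∃ b : ℝ, ∀ n, -b ≤ D.h (X n)) ∧ ∀ a : ℝ, ∃ n, a ≤ D.h (X n)} = 0 := by
  refine measure_mono_null (t := ⋃ j : ℕ, {X | NN X ∧ (∀ n, -(j * D.L) ≤ D.h (X n)) ∧
    ∀ a : ℝ, ∃ n, a ≤ D.h (X n)}) ?_ (measure_iUnion_null fun j => ?_)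
  · rintro X ⟨h1, ⟨b, h2⟩, h3⟩
    obtain ⟨j, hj⟩ := null_nat D b
    exact Set.mem_iUnion.2 ⟨j, h1, fun n => by linarith [h2 n], h3⟩
  set r := List.replicate j D.e with hr
  have hjL : 0 ≤ j * D.L := mul_nonneg (Nat.cast_nonneg j) D.hL.le
  refine nonpos_iff_eq_zero.1 (ENNReal.le_of_forall_pos_le_add fun δ hδ _ => ?_)
  obtain ⟨ε, e0, e1, e2⟩ := null_small M (-disp r) r (δ := δ) (by exact_mod_cast hδ.ne')
  have h1 : ∀ a : ℝ, P {X | NN X ∧ (∀ n, -(j * D.L) ≤ D.h (X n)) ∧
      ∀ a : ℝ, ∃ n, a ≤ D.h (X n)} ≤ δ + ε⁻¹ * M.u D a := by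
    intro a'
    set a := max a' 1 with ha
    have ha0 : 0 < a := lt_max_of_lt_right one_pos
    let F : List (Step d) → Prop := fun l => (∀ p, p <+: l → -(j * D.L) ≤ D.lev p) ∧
      a ≤ D.lev l ∧ ∀ p, p <+: l → p ≠ l → D.lev p < a
    refine (null_cover P hP F ?_).trans ((null_split M F (-disp r) r e0 e1 (C := 1)
      fun η => ?_).trans (add_le_add (by rwa [one_mul]) (mul_le_mul_right ?_ _)))
    · rintro X ⟨⟨s, hs⟩, h2, h3⟩
      obtain ⟨n, hn⟩ := h3 a
      rw [hs] at hn
      obtain ⟨p, a1, a2, a3⟩ := null_first (fun p => a ≤ D.lev p) (l := pre s n) hn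
      refine ⟨p, ⟨fun q hq => ?_, a2, fun q b1 b2 => not_le.1 (a3 q b1 b2)⟩, ?_⟩
      · rw [(null_of_le (hq.trans a1)).2, Dir.lev, ← hs]
        exact h2 _
      · rw [(null_of_le a1).2]
        exact null_mem hs _
    · simpa using (cons_wq (M.row η) 0).pf [] F fun p q hp hq => null_fp hp.2.1 hq.2.2
    · refine le_trans ?_ (null_anti M D (show a' ≤ a + j * D.L by linarith [le_max_left a' 1]))
      simp only [Model.u, ← M.hW (-disp r)]
      simp only [← lintegral_const_mul _ (M.meas_wq _ _)]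
      rw [← lintegral_tsum fun l => ((M.meas_wq _ l).const_mul _).aemeasurable]
      refine lintegral_mono fun η => ?_
      rw [← ENNReal.tsum_mul_left]
      simp only [mul_left_comm (wq (M.ω η) (-disp r) r)]
      refine tsum_ind_le_of_injOn (fun l => r ++ l) (fun _ _ _ _ e => List.append_cancel_left e)
        fun l hl => ?_
      rw [wq_append, neg_add_cancel, ind_pos, one_mul]
      have key : ∀ p, p <+: r ++ l → (0 ≤ D.lev p ∧ D.lev p ≤ j * D.L) ∨
          ∃ q, q <+: l ∧ p = r ++ q := by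
        intro p hp
        rcases List.prefix_or_prefix_of_prefix hp (List.prefix_append r l) with h2 | ⟨q, rfl⟩
        · obtain ⟨b1, b2⟩ := null_rep_le h2
          rw [b2, null_rep]
          exact Or.inl ⟨mul_nonneg (Nat.cast_nonneg _) D.hL.le,
            mul_le_mul_of_nonneg_right (by exact_mod_cast b1) D.hL.le⟩
        · exact Or.inr ⟨q, (List.prefix_append_right_inj r).1 hp, rfl⟩
      refine ⟨fun p hp => ?_, ?_, fun p hp hne => ?_⟩
      · rcases key p hp with h2 | ⟨q, h2, rfl⟩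
        · exact h2.1
        · rw [Dir.lev_append, null_rep]
          linarith [hl.1 q h2]
      · rw [Dir.lev_append, null_rep]
        linarith [hl.2.1]
      · rcases key p hp with h2 | ⟨q, h2, rfl⟩
        · linarith [h2.2]
        · rw [Dir.lev_append, null_rep]
          linarith [hl.2.2 q h2 fun e => hne (by rw [e])]
  have h2 := le_iInf h1
  rwa [← ENNReal.add_iInf, ← ENNReal.mul_iInf_of_ne (ENNReal.inv_ne_zero.2 e1)
    (ENNReal.inv_ne_top.2 e0), h, mul_zero, add_comm] at h2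

lemma null_avg {p A K : ℝ≥0∞} (hK : K ≠ ∞) (h : ∀ N : ℕ, N * p ≤ N * A + K) : p ≤ A := by
  refine ENNReal.le_of_forall_pos_le_add fun ε hε _ => ?_
  obtain ⟨N, h1, h2⟩ := ENNReal.exists_nat_pos_mul_gt (a := ε) (by exact_mod_cast hε.ne') hK
  refine (ENNReal.mul_le_mul_iff_right (a := N) (by exact_mod_cast h1.ne') (by simp)).1 ?_
  rw [mul_add]
  exact (h N).trans (add_le_add le_rfl h2.le)

lemma null_site (M : Model d Ω) (D : Dir d) (b : ℝ) (x : Site d) {δ : ℝ≥0∞} (hδ : δ ≠ 0) :
    ∃ K : ℝ≥0∞, K ≠ ∞ ∧ ∀ N : ℕ, ∑' l, ind ((∀ p, p <+: l → -b ≤ D.lev p ∧ D.lev p ≤ b) ∧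
      l.length < N ∧ disp l = x) * M.W l ≤ N * δ + K := by
  have := M.prob
  obtain ⟨j, hj⟩ := null_nat D (2 * b)
  set r := List.replicate j D.e with hr
  obtain ⟨ε, e0, e1, e2⟩ := null_small M x r hδ
  refine ⟨ε⁻¹, ENNReal.inv_ne_top.2 e0, fun N => (null_split M _ x r e0 e1 (C := N)
    fun η => ?_).trans (add_le_add (mul_le_mul_right e2 _) ?_)⟩
  · calc _ ≤ ∑' l : List (Step d), ∑ n ∈ range N, ind (l.length = n) * wq (M.ω η) 0 ([] ++ l) := by
          refine ENNReal.tsum_le_tsum fun l => ind_mul_le_of fun hl => ?_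
          refine le_trans ?_ (single_le_sum (f := fun n => ind (l.length = n) *
            wq (M.ω η) 0 ([] ++ l)) (fun _ _ => zero_le) (mem_range.2 hl.2.1))
          rw [ind_pos rfl, one_mul, List.nil_append]
      _ = ∑ n ∈ range N, ∑' l : List (Step d), ind (l.length = n) * wq (M.ω η) 0 ([] ++ l) :=
          Summable.tsum_finsetSum fun _ _ => ENNReal.summable
      _ = N := by simp only [(cons_wq (M.row η) 0).level [], wq_nil]; simp
  · refine mul_le_of_le_one_right zero_le ((lintegral_mono (g := fun _ => 1) fun η => ?_).trans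
      (by simp))
    let G : List (Step d) → Prop := fun m => ∃ l, (∀ p, p <+: l → -b ≤ D.lev p ∧ D.lev p ≤ b) ∧
      disp l = x ∧ m = l ++ r
    have h1 : ∑' m, ind (G m) * wq (M.ω η) 0 m ≤ 1 := by
      simpa using (cons_wq (M.row η) 0).pf [] G (by
        rintro _ _ ⟨l, a1, a2, rfl⟩ ⟨l', b1, b2, rfl⟩ h
        have h2 : l <+: l' := List.prefix_of_prefix_length_le ((List.prefix_append l r).trans h)
          (List.prefix_append l' r) (by simpa using h.length_le)
        obtain ⟨t, rfl⟩ := h2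
        rw [List.append_assoc, List.prefix_append_right_inj] at h
        rcases List.prefix_or_prefix_of_prefix h (List.prefix_append t r) with h3 | h3
        · have h4 := (b1 _ ((List.prefix_append_right_inj l).2 h3)).2
          rw [Dir.lev_append, null_rep] at h4
          linarith [(a1 l List.prefix_rfl).1]
        · have h4 : D.lev (l ++ t) = D.lev l := by rw [Dir.lev, Dir.lev, a2, b2]
          rw [Dir.lev_append, (null_rep_le h3).2, null_rep, add_eq_left, mul_eq_zero,
            Nat.cast_eq_zero, List.length_eq_zero_iff] at h4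
          rw [h4.resolve_right D.hL.ne', List.append_nil])
    refine le_trans ?_ h1
    rw [← ENNReal.tsum_mul_left]
    simp only [mul_left_comm (wq (M.ω η) x r)]
    refine tsum_ind_le_of_injOn (fun l => l ++ r) (fun _ _ _ _ e => List.append_cancel_right e)
      fun l hl => ?_
    rw [ind_pos ⟨l, hl.1, hl.2.2, rfl⟩, one_mul, wq_append, zero_add, hl.2.2, mul_comm]

/-- a signed coordinate plus the normalised height -/
noncomputable def null_th (D : Dir d) (e : Step d) : Site d →+ ℝ where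
  toFun x := (if e.2 then 1 else -1) * (x e.1 : ℝ) + D.h x / D.L
  map_zero' := by simp
  map_add' x y := by
    simp only [Pi.add_apply, Int.cast_add, map_add]
    ring

lemma null_th_apply (D : Dir d) (e : Step d) (x : Site d) :
    null_th D e x = (if e.2 then 1 else -1) * (x e.1 : ℝ) + D.h x / D.L := rfl

lemma null_coord (e e' : Step d) : |(if e.2 then 1 else -1) * (vec e' e.1 : ℝ)| ≤ 1 := by
  obtain ⟨i, b⟩ := e
  obtain ⟨j, b'⟩ := e'
  by_cases h : i = j
  · subst h
    cases b <;> cases b' <;> simp [vec]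
  · simp [vec, h]

lemma null_far (M : Model d Ω) (D : Dir d) (b : ℝ) : ∃ (β : ℝ≥0∞) (B : ℝ), β ≠ 0 ∧
    ∀ (e : Step d) (J n : ℕ), ∑' l, ind ((∀ p, p <+: l → -b ≤ D.lev p ∧ D.lev p ≤ b) ∧
      l.length = n ∧ J * B ≤ null_th D e (disp l)) * M.W l ≤ (1 - β) ^ J := by
  obtain ⟨j, hj⟩ := null_nat D (2 * b)
  set r := List.replicate j D.e with hr
  refine ⟨M.W r, 2 * j + 2, M.W_ne_zero r, fun e J n => ?_⟩
  refine le_trans ?_ (trial M D (null_th D e) 2 (2 * j) (-b) b (fun e' => ?_) two_pos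
    (by positivity) (M.W r) (fun l => l = r) ?_ (fun p q hp hq _ => hp.trans hq.symm)
    (tsum_ind_eq r M.W).ge J)
  · refine null_group M.cons _ _
      (fun p q hp hq h => h.eq_of_length (hp.2.1.trans hq.2.1.symm)) fun l hl => ?_
    obtain ⟨p, a1, a2, a3⟩ := null_first (fun p => J * (2 * j + 2 : ℝ) ≤ null_th D e (disp p))
      hl.2.2
    exact ⟨p, a1, fun q hq => hl.1 q (hq.trans a1), a2, fun q b1 b2 => not_le.1 (a3 q b1 b2)⟩
  · have h1 := (abs_le.1 (null_coord e e')).2
    have h2 : D.h (vec e') / D.L ≤ 1 := (div_le_one D.hL).2 (abs_le.1 (D.hle e')).2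
    rw [null_th_apply]
    linarith
  · rintro _ rfl
    refine ⟨by rw [null_rep]; linarith, fun p hp => ?_⟩
    obtain ⟨b1, b2⟩ := null_rep_le hp
    have h1 : disp p = p.length • vec D.e := by
      rw [b2]; simp [disp]
    have h2 : null_th D e (vec D.e) = (if e.2 then 1 else -1) * (vec D.e e.1 : ℝ) + 1 := by
      rw [null_th_apply, D.he, div_self D.hL.ne']
    have h3 := abs_le.1 (null_coord e D.e)
    have h4 : (p.length : ℝ) ≤ j := by exact_mod_cast b1
    have h5 : (0 : ℝ) ≤ p.length := Nat.cast_nonneg _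
    rw [h1, map_nsmul, nsmul_eq_mul, h2]
    constructor <;> nlinarith

theorem null2 (D : Dir d) (P : Measure (ℕ → Site d)) (hP : ∀ l, P (cyl l) = M.W l) :
    P {X | NN X ∧ ∃ b : ℝ, ∀ n, |D.h (X n)| ≤ b} = 0 := by
  classical
  refine measure_mono_null (t := ⋃ b : ℕ, {X | NN X ∧ ∀ n, |D.h (X n)| ≤ b}) ?_
    (measure_iUnion_null fun b => ?_)
  · rintro X ⟨h1, b, h2⟩
    exact Set.mem_iUnion.2 ⟨⌈b⌉₊, h1, fun n => (h2 n).trans (Nat.le_ceil b)⟩
  obtain ⟨β, B, hβ, hfar⟩ := null_far M D b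
  set p := P {X | NN X ∧ ∀ n, |D.h (X n)| ≤ b} with hp
  let S : List (Step d) → Prop := fun l => ∀ p, p <+: l → -(b : ℝ) ≤ D.lev p ∧ D.lev p ≤ b
  have h1 : ∀ J : ℕ, p ≤ Fintype.card (Step d) * (1 - β) ^ J := by
    intro J
    obtain ⟨R, hR⟩ := exists_nat_gt (J * B + b / D.L)
    set Box : Finset (Site d) := Fintype.piFinset fun _ => Icc (-(R : ℤ)) R with hBox
    have h2 : ∀ n, p ≤ Fintype.card (Step d) * (1 - β) ^ J +
        ∑ x ∈ Box, ∑' l, ind (S l ∧ l.length = n ∧ disp l = x) * M.W l := by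
      intro n
      refine (null_cover P hP (fun l => S l ∧ l.length = n) ?_).trans ?_
      · rintro X ⟨⟨s, hs⟩, h3⟩
        refine ⟨pre s n, ⟨fun q hq => ?_, null_length s n⟩, null_mem hs n⟩
        rw [(null_of_le hq).2, Dir.lev, ← hs]
        exact abs_le.1 (h3 _)
      · calc _ ≤ ∑' l, (∑ e : Step d, ind (S l ∧ l.length = n ∧ J * B ≤ null_th D e (disp l)) *
              M.W l + ∑ x ∈ Box, ind (S l ∧ l.length = n ∧ disp l = x) * M.W l) := by
              refine ENNReal.tsum_le_tsum fun l => ind_mul_le_of fun hl => ?_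
              by_cases h3 : ∃ e, J * B ≤ null_th D e (disp l)
              · obtain ⟨e, he⟩ := h3
                refine le_trans (le_trans ?_ (single_le_sum (f := fun e => ind (S l ∧
                  l.length = n ∧ J * B ≤ null_th D e (disp l)) * M.W l) (fun _ _ => zero_le)
                  (mem_univ e))) le_self_add
                rw [ind_pos ⟨hl.1, hl.2, he⟩, one_mul]
              · push Not at h3
                have h4 : disp l ∈ Box := by
                  rw [hBox, Fintype.mem_piFinset]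
                  intro k
                  have a1 := h3 (k, true)
                  have a2 := h3 (k, false)
                  have a3 : -(b : ℝ) / D.L ≤ D.h (disp l) / D.L :=
                    div_le_div_of_nonneg_right (hl.1 l List.prefix_rfl).1 D.hL.le
                  rw [neg_div] at a3
                  simp only [null_th_apply, if_true, Bool.false_eq_true, if_false] at a1 a2
                  have a4 : (-(R : ℤ) : ℝ) ≤ disp l k := by push_cast; linarith
                  have a5 : (disp l k : ℝ) ≤ (R : ℤ) := by push_cast; linarith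
                  exact mem_Icc.2 ⟨by exact_mod_cast a4, by exact_mod_cast a5⟩
                refine le_trans (le_trans ?_ (single_le_sum (f := fun x => ind (S l ∧
                  l.length = n ∧ disp l = x) * M.W l) (fun _ _ => zero_le) h4)) le_add_self
                rw [ind_pos ⟨hl.1, hl.2, rfl⟩, one_mul]
          _ ≤ _ := by
              rw [ENNReal.tsum_add, Summable.tsum_finsetSum fun _ _ => ENNReal.summable,
                Summable.tsum_finsetSum fun _ _ => ENNReal.summable]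
              refine add_le_add ((sum_le_card_nsmul _ _ _ fun e _ => hfar e J n).trans ?_) le_rfl
              rw [nsmul_eq_mul, card_univ]
    refine ENNReal.le_of_forall_pos_le_add fun ε hε _ => ?_
    have hδ : (ε : ℝ≥0∞) / Box.card ≠ 0 :=
      (ENNReal.div_pos (by exact_mod_cast hε.ne') (by simp)).ne'
    choose K hK hK' using fun x => null_site M D b x hδ
    refine null_avg (K := ∑ x ∈ Box, K x) (ENNReal.sum_ne_top.2 fun x _ => hK x) fun N => ?_
    calc N * p = ∑ n ∈ range N, p := by simp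
      _ ≤ ∑ n ∈ range N, (Fintype.card (Step d) * (1 - β) ^ J +
          ∑ x ∈ Box, ∑' l, ind (S l ∧ l.length = n ∧ disp l = x) * M.W l) :=
          sum_le_sum fun n _ => h2 n
      _ ≤ N * (Fintype.card (Step d) * (1 - β) ^ J) + ∑ x ∈ Box, (N * (ε / Box.card) + K x) := by
          rw [sum_add_distrib, sum_comm]
          refine add_le_add (by simp) (sum_le_sum fun x _ => le_trans ?_ (hK' x N))
          rw [← Summable.tsum_finsetSum fun _ _ => ENNReal.summable]
          refine ENNReal.tsum_le_tsum fun l => ?_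
          by_cases hl : l.length < N
          · rw [sum_eq_single l.length (fun n _ hn => by
              rw [ind_neg fun h => hn h.2.1.symm, zero_mul]) fun h => absurd (mem_range.2 hl) h]
            exact mul_le_mul_left (ind_mono fun h => ⟨h.1, hl, h.2.2⟩) _
          · rw [sum_eq_zero fun n hn => by
              rw [ind_neg fun h => hl (h.2.1.trans_lt (mem_range.1 hn)), zero_mul]]
            exact zero_le
      _ ≤ _ := by
          rw [sum_add_distrib, mul_add, add_assoc, sum_const, nsmul_eq_mul,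
            mul_left_comm (Box.card : ℝ≥0∞)]
          exact add_le_add le_rfl (add_le_add (mul_le_mul_right ENNReal.mul_div_le _) le_rfl)
  have h2 : Tendsto (fun J : ℕ => (Fintype.card (Step d) : ℝ≥0∞) * (1 - β) ^ J) atTop
      (nhds (Fintype.card (Step d) * 0)) :=
    ENNReal.Tendsto.const_mul (ENNReal.tendsto_pow_atTop_nhds_zero_of_lt_one
      (ENNReal.sub_lt_self ENNReal.one_ne_top one_ne_zero hβ))
      (Or.inr (ENNReal.natCast_ne_top _))
  rw [mul_zero] at h2
  exact nonpos_iff_eq_zero.1 (ge_of_tendsto' h2 h1)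

theorem null3 (hc : M.Good D c) (P : Measure (ℕ → Site d)) (hP : ∀ l, P (cyl l) = M.W l) :
    P {X | NN X ∧ (∀ a : ℝ, ∃ n, a ≤ D.h (X n)) ∧ ∃ b : ℝ, ∃ᶠ n in atTop, D.h (X n) < b} = 0 := by
  classical
  refine measure_mono_null (t := ⋃ b : ℕ, {X | NN X ∧ (∀ a : ℝ, ∃ n, a ≤ D.h (X n)) ∧
    ∃ᶠ n in atTop, D.h (X n) < b}) ?_ (measure_iUnion_null fun b => ?_)
  · rintro X ⟨h1, h2, b, h3⟩
    exact Set.mem_iUnion.2 ⟨⌈b⌉₊, h1, h2, h3.mono fun n hn => hn.trans_le (Nat.le_ceil b)⟩
  let TS : List (Step d) → Prop := fun a => D.Fresh a ∧ b < D.lev a ∧ ∃ p0, p0 <+: a ∧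
    D.lev p0 ≤ b ∧ ∀ p, p0 <+: p → p <+: a → p ≠ a → ¬ (D.Fresh p ∧ b < D.lev p)
  have h1 := stay_lemma hc [] TS (fun a ha => ⟨ha.1, List.nil_prefix⟩) (by
    rintro a q ⟨a1, a2, -⟩ ⟨-, -, p0, b1, b2, b3⟩ hq
    by_contra hne
    rcases List.prefix_or_prefix_of_prefix b1 (List.prefix_append a q) with h | ⟨t, rfl⟩
    · exact b3 a h (List.prefix_append a q) (by simpa using hne) ⟨a1, a2⟩
    · have := hq t ((List.prefix_append_right_inj a).1 b1)
      rw [Dir.lev_append] at b2
      linarith)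
  have h2 : ∑' a, ind (TS a) * M.W a ≠ ∞ := by
    intro h
    rw [h, ENNReal.mul_top hc.1, top_le_iff] at h1
    exact M.W_ne_top _ h1
  refine nonpos_iff_eq_zero.1 (ENNReal.le_of_forall_pos_le_add fun ε hε _ => ?_)
  obtain ⟨B, hB⟩ := tail_small _ h2 (fun a => (a.length : ℝ)) (ε := ε) (by exact_mod_cast hε.ne')
  rw [zero_add]
  refine le_trans ?_ (hB B le_rfl)
  simp only [← mul_assoc, ← ind_and]
  refine null_cover P hP _ ?_
  rintro X ⟨⟨s, hs⟩, h3, h4⟩
  obtain ⟨n0, a1, a2⟩ := frequently_atTop.1 h4 ⌈B⌉₊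
  have hlev : ∀ n, D.lev (pre s n) = D.h (X n) := fun n => by rw [hs, Dir.lev]
  have h5 : ∃ n, n0 ≤ n ∧ D.Fresh (pre s n) ∧ b < D.lev (pre s n) := by
    obtain ⟨n, hn⟩ := h3 (max (n0 * D.L) b + 1)
    rw [← hlev] at hn
    obtain ⟨p, b1, b2, b3⟩ := null_first (fun p => max (n0 * D.L) b + 1 ≤ D.lev p) hn
    refine ⟨p.length, ?_, ?_, ?_⟩
    · have b4 := (abs_le.1 (D.abs_lev_le p)).2
      have b5 : (n0 : ℝ) * D.L ≤ p.length * D.L := by linarith [le_max_left (n0 * D.L) b]
      exact_mod_cast le_of_mul_le_mul_right b5 D.hL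
    · rw [← (null_of_le b1).2]
      exact fun q c1 c2 => (not_le.1 (b3 q c1 c2)).trans_le b2
    · rw [← (null_of_le b1).2]
      linarith [le_max_right (n0 * D.L) b]
  obtain ⟨b1, b2, b3⟩ := Nat.find_spec h5
  refine ⟨pre s (Nat.find h5), ⟨?_, b2, b3, pre s n0, null_pre_le s b1, ?_, fun p c1 c2 c3 => ?_⟩,
    null_mem hs _⟩
  · rw [null_length]
    exact (Nat.le_ceil B).trans (by exact_mod_cast a1.trans b1)
  · rw [hlev]; exact a2.le
  · rw [(null_of_le c2).2]
    exact fun h => Nat.find_min h5 (null_of_lt c2 c3)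
      ⟨(null_length s n0).ge.trans c1.length_le, h⟩

end Vale.Agent.P147
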