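import Vale.Agent.P147.Core
import Vale.Agent.P147.Null
import Vale.Agent.P147.ModelOf
import Vale.Agent.P147.Exist

/-! Assembly of the directional zero-one law. -/

namespace Vale.Agent.P147

open MeasureTheory ProbabilityTheory Finset Filter
open scoped ENNReal

variable {d : ℕ}

/-- The linear functional of a real vector. -/
def finLin (ℓ : Fin d → ℝ) : Site d →+ ℝ where
  toFun x := ∑ i, (x i : ℝ) * ℓ i
  map_zero' := by simp
  map_add' x y := by simp [add_mul, sum_add_distrib]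

lemma finLin_vec (ℓ : Fin d → ℝ) (e : Step d) :
    finLin ℓ (vec e) = if e.2 then ℓ e.1 else -ℓ e.1 := by
  obtain ⟨i, b⟩ := e
  show ∑ j, (((Pi.single i (if b then 1 else -1) : Fin d → ℤ) j : ℤ) : ℝ) * ℓ j = _
  rw [sum_eq_single i (fun j _ hj => by simp [hj]) (by simp)]
  cases b <;> simp

lemma exists_dir {ℓ : Fin d → ℝ} (hℓ : ℓ ≠ 0) : ∃ D : Dir d, D.h = finLin ℓ := by
  obtain ⟨j, hj⟩ := Function.ne_iff.1 hℓ
  obtain ⟨i, -, hi⟩ := exists_max_image univ (fun i => |ℓ i|) ⟨j, mem_univ j⟩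
  refine ⟨⟨finLin ℓ, (i, decide (0 ≤ ℓ i)), |ℓ i|,
    (abs_pos.2 hj).trans_le (hi j (mem_univ j)), ?_, fun e => ?_⟩, rfl⟩
  · rw [finLin_vec]
    by_cases h : 0 ≤ ℓ i
    · simp [h, abs_of_nonneg h]
    · simp [h, abs_of_neg (not_le.1 h)]
  · rw [finLin_vec]
    split_ifs
    · exact hi _ (mem_univ _)
    · rw [abs_neg]; exact hi _ (mem_univ _)

lemma fin_bdd {f : ℕ → ℝ} (h : Tendsto f atTop atTop) : ∃ b : ℝ, ∀ n, -b ≤ f n := by
  obtain ⟨b, hb⟩ := h.isBoundedUnder_ge_atTop.bddBelow_range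
  exact ⟨-b, fun n => by simpa using hb ⟨n, rfl⟩⟩

theorem final (hd : 3 ≤ d) {Ω : Type} [MeasurableSpace Ω] (M : Model d Ω) (D : Dir d)
    (P : Measure (ℕ → Site d)) [IsProbabilityMeasure P] (hP : ∀ l, P (cyl l) = M.W l) :
    P {X | Tendsto (fun n => D.h (X n)) atTop atTop} = 0 ∨
      P {X | Tendsto (fun n => D.h (X n)) atTop atTop} = 1 := by
  by_cases h1 : ⨅ a, M.u D a = 0
  · left
    refine measure_mono_null (fun X hX => ?_) (measure_union_null (null0 P hP) (null1 P hP h1))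
    by_cases hN : NN X
    · exact Or.inr ⟨hN, fin_bdd hX, fun a => (hX.eventually_ge_atTop a).exists⟩
    · exact Or.inl hN
  right
  have h2 : ⨅ a, M.u D.neg a = 0 := by
    by_contra h2
    have hne : min (⨅ a, M.u D a) (⨅ a, M.u D.neg a) ≠ 0 := by
      rcases min_choice (⨅ a, M.u D a) (⨅ a, M.u D.neg a) with h | h <;> rwa [h]
    exact core hd (M := M) (D := D) ⟨hne, fun a => (min_le_left _ _).trans (iInf_le _ a)⟩
      ⟨hne, fun a => (min_le_right _ _).trans (iInf_le _ a)⟩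
  have hc : P {X | Tendsto (fun n => D.h (X n)) atTop atTop}ᶜ = 0 := by
    refine measure_mono_null (fun X hX => ?_) (measure_union_null (null0 P hP)
      (measure_union_null (null3 (D := D) ⟨h1, fun a => iInf_le _ a⟩ P hP)
        (measure_union_null (null1 P hP h2) (null2 D P hP))))
    by_cases hN : NN X
    swap
    · exact Or.inl hN
    right
    by_cases hu : ∀ a : ℝ, ∃ n, a ≤ D.h (X n)
    · refine Or.inl ⟨hN, hu, ?_⟩
      have : ¬∀ b : ℝ, ∀ᶠ n in atTop, b ≤ D.h (X n) := fun h => hX (tendsto_atTop.2 h)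
      push Not at this
      exact this
    right
    push Not at hu
    obtain ⟨a, ha⟩ := hu
    by_cases hl : ∀ a : ℝ, ∃ n, a ≤ D.neg.h (X n)
    · exact Or.inl ⟨hN, ⟨a, fun n => by simpa [Dir.neg] using (ha n).le⟩, hl⟩
    push Not at hl
    obtain ⟨a', ha'⟩ := hl
    refine Or.inr ⟨hN, max a a', fun n => abs_le.2 ⟨?_, (ha n).le.trans (le_max_left _ _)⟩⟩
    have := ha' n
    simp only [Dir.neg, AddMonoidHom.neg_apply] at this
    linarith [le_max_right a a']
  refine le_antisymm prob_le_one ?_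
  have := measure_union_le (μ := P) {X | Tendsto (fun n => D.h (X n)) atTop atTop}
    {X | Tendsto (fun n => D.h (X n)) atTop atTop}ᶜ
  rwa [Set.union_compl_self, measure_univ, hc, add_zero] at this

theorem zero_one (hd : 3 ≤ d) (μ : Measure (Row d)) [IsProbabilityMeasure μ]
    (hμ : ∀ᵐ p ∂μ, ∀ e, 0 < p.1 e) (Q : Kernel (Env d) (ℕ → Site d)) (hQ : IsQuenched Q)
    (ℓ : Fin d → ℝ) (hℓ : ℓ ≠ 0) :
    (Q ∘ₘ envLaw μ) (Escape ℓ) = 0 ∨ (Q ∘ₘ envLaw μ) (Escape ℓ) = 1 := by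
  obtain ⟨M, hM⟩ := exists_model μ hμ Q hQ
  obtain ⟨D, hD⟩ := exists_dir hℓ
  have := hQ.1
  have : IsProbabilityMeasure (envLaw μ) := by unfold envLaw; infer_instance
  have h := final hd M D (Q ∘ₘ envLaw μ) hM
  rw [hD] at h
  exact h

end Vale.Agent.P147
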