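import Vale.Agent.P147.Basic

/-! Expectations over lists of independent identically distributed entries. -/

namespace Vale.Agent.P147

open Finset
open scoped ENNReal

variable {Γ : Type*}

/-- Expectation of `φ` over lists of `n` independent entries with law `f`. -/
noncomputable def E (f : Γ → ℝ≥0∞) : ℕ → (List Γ → ℝ≥0∞) → ℝ≥0∞
  | 0, φ => φ []
  | n + 1, φ => ∑' γ, f γ * E f n fun l => φ (γ :: l)

variable (f : Γ → ℝ≥0∞)

@[simp] lemma E_zero (φ : List Γ → ℝ≥0∞) : E f 0 φ = φ [] := rfl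

lemma E_succ (n : ℕ) (φ : List Γ → ℝ≥0∞) :
    E f (n + 1) φ = ∑' γ, f γ * E f n fun l => φ (γ :: l) := rfl

/-- Monotonicity; only lists of the right length with entries in the support matter. -/
lemma E_mono' {n : ℕ} {φ ψ : List Γ → ℝ≥0∞}
    (h : ∀ l : List Γ, l.length = n → (∀ γ ∈ l, f γ ≠ 0) → φ l ≤ ψ l) : E f n φ ≤ E f n ψ := by
  induction n generalizing φ ψ with
  | zero => exact h [] rfl (by simp)
  | succ n ih =>
    refine ENNReal.tsum_le_tsum fun γ => ?_
    by_cases hγ : f γ = 0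
    · simp [hγ]
    · refine mul_le_mul_right (ih fun l hl hf => h _ (by simp [hl]) ?_) _
      intro a ha
      rcases List.mem_cons.1 ha with rfl | ha
      exacts [hγ, hf a ha]

lemma E_mono (n : ℕ) {φ ψ : List Γ → ℝ≥0∞} (h : ∀ l, φ l ≤ ψ l) : E f n φ ≤ E f n ψ :=
  E_mono' f fun l _ _ => h l

lemma E_congr' {n : ℕ} {φ ψ : List Γ → ℝ≥0∞}
    (h : ∀ l : List Γ, l.length = n → (∀ γ ∈ l, f γ ≠ 0) → φ l = ψ l) : E f n φ = E f n ψ :=
  le_antisymm (E_mono' f fun l a b => (h l a b).le) (E_mono' f fun l a b => (h l a b).ge)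

lemma E_tsum {ι : Type*} (n : ℕ) (φ : ι → List Γ → ℝ≥0∞) :
    E f n (fun l => ∑' i, φ i l) = ∑' i, E f n (φ i) := by
  induction n generalizing φ with
  | zero => rfl
  | succ n ih =>
    simp only [E_succ, ih, ← ENNReal.tsum_mul_left]
    exact ENNReal.tsum_comm

lemma E_mul_left (n : ℕ) (c : ℝ≥0∞) (φ : List Γ → ℝ≥0∞) :
    E f n (fun l => c * φ l) = c * E f n φ := by
  induction n generalizing φ with
  | zero => rfl
  | succ n ih =>
    simp only [E_succ, ih, ← ENNReal.tsum_mul_left]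
    congr with γ; ring

lemma E_mul_right (n : ℕ) (c : ℝ≥0∞) (φ : List Γ → ℝ≥0∞) :
    E f n (fun l => φ l * c) = E f n φ * c := by
  simp only [mul_comm _ c, E_mul_left]

lemma E_add (n : ℕ) (φ ψ : List Γ → ℝ≥0∞) :
    E f n (fun l => φ l + ψ l) = E f n φ + E f n ψ := by
  induction n generalizing φ ψ with
  | zero => rfl
  | succ n ih => simp only [E_succ, ih, mul_add, ENNReal.tsum_add]

lemma E_fun_zero (n : ℕ) : E f n (fun _ => 0) = 0 := by
  simpa using E_mul_left f n 0 fun _ => 0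

lemma E_sum {ι : Type*} (n : ℕ) (s : Finset ι) (φ : ι → List Γ → ℝ≥0∞) :
    E f n (fun l => ∑ i ∈ s, φ i l) = ∑ i ∈ s, E f n (φ i) := by
  classical
  induction s using Finset.induction_on with
  | empty => simpa using E_fun_zero f n
  | insert a s ha ih => simp only [sum_insert ha, E_add, ih]

lemma E_append (n m : ℕ) (φ : List Γ → ℝ≥0∞) :
    E f (n + m) φ = E f n fun a => E f m fun b => φ (a ++ b) := by
  induction n generalizing φ with
  | zero => simp
  | succ n ih =>
    rw [Nat.succ_add, E_succ, E_succ]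
    simp only [ih, List.cons_append]

lemma E_one (φ : List Γ → ℝ≥0∞) : E f 1 φ = ∑' γ, f γ * φ [γ] := rfl

lemma E_snoc (n : ℕ) (φ : List Γ → ℝ≥0∞) :
    E f (n + 1) φ = E f n fun a => ∑' γ, f γ * φ (a ++ [γ]) := by
  rw [E_append]; rfl

/-- Fubini for two independent lists. -/
lemma E_comm {Γ' : Type*} (f' : Γ' → ℝ≥0∞) (n m : ℕ) (φ : List Γ → List Γ' → ℝ≥0∞) :
    E f n (fun a => E f' m fun b => φ a b) = E f' m fun b => E f n fun a => φ a b := by
  induction n generalizing φ with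
  | zero => rfl
  | succ n ih =>
    simp only [E_succ, ih, E_tsum, E_mul_left]

lemma E_reverse (n : ℕ) (φ : List Γ → ℝ≥0∞) : E f n (fun l => φ l.reverse) = E f n φ := by
  induction n generalizing φ with
  | zero => rfl
  | succ n ih =>
    rw [E_snoc f n φ, E_succ, E_tsum]
    congr with γ
    rw [E_mul_left, ← ih fun a => φ (a ++ [γ])]
    simp

lemma E_eq_tsum (n : ℕ) (φ : List Γ → ℝ≥0∞) :
    E f n φ = ∑' l : List Γ, ind (l.length = n) * ((l.map f).prod * φ l) := by
  induction n generalizing φ with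
  | zero =>
    simp only [List.length_eq_zero_iff]
    rw [tsum_ind_eq [] fun l : List Γ => (l.map f).prod * φ l]; simp
  | succ n ih =>
    rw [tsum_list, ind_neg (by simp), zero_mul, zero_add, E_succ]
    congr with γ
    rw [ih, ← ENNReal.tsum_mul_left]
    congr with l
    simp only [List.length_cons, Nat.add_right_cancel_iff, List.map_cons, List.prod_cons]
    ring

lemma E_prod (n : ℕ) (g : Γ → ℝ≥0∞) :
    E f n (fun l => (l.map g).prod) = (∑' γ, f γ * g γ) ^ n := by
  induction n with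
  | zero => simp
  | succ n ih =>
    simp only [E_succ, List.map_cons, List.prod_cons, E_mul_left, ih]
    rw [pow_succ', ← ENNReal.tsum_mul_right]
    congr with γ; ring

variable {f}

lemma E_const (hf : ∑' γ, f γ = 1) (n : ℕ) (c : ℝ≥0∞) : E f n (fun _ => c) = c := by
  induction n with
  | zero => rfl
  | succ n ih => rw [E_succ, ih, ENNReal.tsum_mul_right, hf, one_mul]

lemma E_le_const (hf : ∑' γ, f γ = 1) {n : ℕ} {φ : List Γ → ℝ≥0∞} {c : ℝ≥0∞}
    (h : ∀ l : List Γ, l.length = n → (∀ γ ∈ l, f γ ≠ 0) → φ l ≤ c) : E f n φ ≤ c :=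
  (E_mono' f h).trans (E_const hf n c).le

lemma E_ind_le_one (hf : ∑' γ, f γ = 1) (n : ℕ) (p : List Γ → Prop) :
    E f n (fun l => ind (p l)) ≤ 1 :=
  E_le_const hf fun _ _ _ => ind_le_one _

lemma E_take (hf : ∑' γ, f γ = 1) {k n : ℕ} (h : k ≤ n) (φ : List Γ → ℝ≥0∞) :
    E f n (fun l => φ (l.take k)) = E f k φ := by
  obtain ⟨m, rfl⟩ := Nat.exists_eq_add_of_le h
  rw [E_append]
  refine E_congr' f fun a ha _ => ?_
  simp only [← ha, List.take_left']
  exact E_const hf m _

lemma E_drop (hf : ∑' γ, f γ = 1) (k m : ℕ) (φ : List Γ → ℝ≥0∞) :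
    E f (k + m) (fun l => φ (l.drop k)) = E f m φ := by
  rw [E_append]
  refine (E_congr' f fun a ha _ => ?_).trans (E_const hf k _)
  simp only [← ha, List.drop_left']

/-- Mean of an additive functional. -/
lemma E_map_sum (hf : ∑' γ, f γ = 1) (n : ℕ) (g : Γ → ℝ≥0∞) :
    E f n (fun l => (l.map g).sum) = n * ∑' γ, f γ * g γ := by
  induction n with
  | zero => simp
  | succ n ih =>
    simp only [E_succ, List.map_cons, List.sum_cons, E_add, ih, E_const hf, mul_add,
      ENNReal.tsum_add, ENNReal.tsum_mul_right, hf]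
    push_cast; ring

/-- Union bound over the entries. -/
lemma E_exists_mem (hf : ∑' γ, f γ = 1) (n : ℕ) (p : Γ → Prop) :
    E f n (fun l => ind (∃ γ ∈ l, p γ)) ≤ n * ∑' γ, f γ * ind (p γ) := by
  rw [← E_map_sum hf]
  refine E_mono f n fun l => ind_le_of ?_
  rintro ⟨γ, hγ, hp⟩
  exact (ind_pos hp).symm.le.trans
    (List.le_sum_of_mem (List.mem_map_of_mem (f := fun γ => ind (p γ)) hγ))

end Vale.Agent.P147
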