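import Vale.Agent.P147.PDefs

/-! The key inequality. -/

namespace Vale.Agent.P147

open MeasureTheory ProbabilityTheory Finset Filter
open scoped ENNReal

variable {d : ℕ} {Ω : Type} [MeasurableSpace Ω] {M : Model d Ω} {D : Dir d} {c : ℝ≥0∞}

lemma key_first {α : Type*} (P : List α → Prop) (l : List α) (h : P l) :
    ∃ p, p <+: l ∧ P p ∧ ∀ q, q <+: p → q ≠ p → ¬ P q := by
  induction hn : l.length using Nat.strong_induction_on generalizing l with
  | _ n ih =>
    by_cases h' : ∃ q, q <+: l ∧ q ≠ l ∧ P q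
    · obtain ⟨q, h1, h2, h3⟩ := h'
      obtain ⟨p, h4, h5⟩ := ih q.length
        (hn ▸ lt_of_le_of_ne h1.length_le fun h => h2 (h1.eq_of_length h)) q h3 rfl
      exact ⟨p, h4.trans h1, h5⟩
    · exact ⟨l, List.prefix_rfl, h, fun q h1 h2 h3 => h' ⟨q, h1, h2, h3⟩⟩

lemma key_exit_pf {b : ℝ} {y : Site d} {p q : List (Step d)} (hp : D.Exit b y p)
    (hq : D.Exit b y q) (h : p <+: q) : p = q := by
  by_contra hne
  exact absurd hp.1 (not_lt.2 (hq.2 p h hne).1)

lemma key_FH_unique {β X p q : List (Step d)} {y : Site d} {l : List (Step d)} (hp : p <+: X)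
    (hq : q <+: X) (h1 : FH (β ++ p) y l) (h2 : FH (β ++ q) y l) : p = q := by
  by_contra hne
  rcases List.prefix_or_prefix_of_prefix hp hq with h | h
  · exact h2.2 _ ((List.prefix_append_right_inj β).2 h)
      (fun h' => hne (List.append_cancel_left h')) h1.1
  · exact h1.2 _ ((List.prefix_append_right_inj β).2 h)
      (fun h' => hne (List.append_cancel_left h').symm) h2.1

/-- The quenched probability of leaving through the negative levels. -/
noncomputable def key_r (D : Dir d) (b : ℝ) (ω : Site d → Step d → ℝ≥0∞) (x : Site d) : ℝ≥0∞ :=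
  ∑' ρ, ind (D.Exit b x ρ) * wq ω x ρ

variable {ω : Site d → Step d → ℝ≥0∞}

lemma key_r_le (hω : ∀ x, ∑ e, ω x e = 1) (b : ℝ) (x : Site d) : key_r D b ω x ≤ 1 := by
  simpa [key_r] using (cons_wq hω x).pf [] (D.Exit b x) fun _ _ => key_exit_pf

lemma key_small (hω : ∀ x, ∑ e, ω x e = 1) (b : ℝ) (δ : ℝ≥0∞) (y : Site d) :
    ∑' l, ind (D.Exit b y l ∧ ∃ x ∈ sites y l, key_r D b ω x < δ) * wq ω y l ≤ δ := by
  set G : List (Step d) → Prop := fun p => key_r D b ω (y + disp p) < δ ∧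
    ∀ q, q <+: p → q ≠ p → ¬ key_r D b ω (y + disp q) < δ with hG
  have h1 : ∀ l : List (Step d), ∃ x : List (Step d) × List (Step d),
      (D.Exit b y l ∧ ∃ x ∈ sites y l, key_r D b ω x < δ) →
        x.1 ++ x.2 = l ∧ G x.1 ∧ D.Exit b (y + disp x.1) x.2 := by
    intro l
    by_cases h : D.Exit b y l ∧ ∃ x ∈ sites y l, key_r D b ω x < δ
    · obtain ⟨h2, _, ⟨p, h3, -, rfl⟩, h4⟩ := h
      obtain ⟨q, h5, h6⟩ := key_first (fun p => key_r D b ω (y + disp p) < δ) p h4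
      obtain ⟨t, rfl⟩ := h5.trans h3
      have h7 : ∀ s, D.h (y + disp q) + D.lev s = D.h y + D.lev (q ++ s) := fun s => by
        rw [map_add, Dir.lev_append, add_assoc]; rfl
      refine ⟨(q, t), fun _ => ⟨rfl, h6, ?_, fun s h8 h9 => ?_⟩⟩
      · rw [h7]; exact h2.1
      · rw [h7]
        exact h2.2 _ ((List.prefix_append_right_inj q).2 h8)
          fun h' => h9 (List.append_cancel_left h')
    · exact ⟨([], []), fun h' => absurd h' h⟩
  choose φ hφ using h1
  refine (tsum_ind_le_of_injOn (G := fun x : List (Step d) × List (Step d) =>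
    ind (G x.1) * wq ω y x.1 * (ind (D.Exit b (y + disp x.1) x.2) * wq ω (y + disp x.1) x.2))
    φ (fun l l' h h' he => by rw [← (hφ l h).1, he, (hφ l' h').1]) fun l h => ?_).trans ?_
  · obtain ⟨h2, h3, h4⟩ := hφ l h
    rw [ind_pos h3, ind_pos h4, one_mul, one_mul, ← wq_append, h2]
  · rw [ENNReal.tsum_prod']
    simp only [ENNReal.tsum_mul_left]
    have h2 := (cons_wq hω y).pf [] G fun p q hp hq h => by
      by_contra hne
      exact hq.2 p h hne hp.1
    simp only [List.nil_append, wq_nil] at h2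
    refine le_trans (ENNReal.tsum_le_tsum fun p => ?_)
      (ENNReal.tsum_mul_right.trans_le ((mul_le_mul_left h2 δ).trans_eq (one_mul δ)))
    by_cases hp : G p
    · exact mul_le_mul_right hp.1.le _
    · simp [ind_neg hp]

/-- The mass carried by the initial segment `p`. -/
noncomputable def key_phi (D : Dir d) (β : List (Step d)) (b : ℝ) (ω : Site d → Step d → ℝ≥0∞)
    (a : List (Step d) → Site d → ℝ≥0∞) (Adm : List (Step d) → Prop) (S : Site d → Prop)
    (p : List (Step d)) : ℝ≥0∞ :=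
  ∑' y, ∑' l, ind (Adm p ∧ D.Exit b y l ∧ FH (β ++ p) y l ∧ S (disp (β ++ p))) * (a p y * wq ω y l)

lemma key_along {β : List (Step d)} {b : ℝ} {K C : ℝ≥0∞} {a : List (Step d) → Site d → ℝ≥0∞}
    {Adm : List (Step d) → Prop} {S : Site d → Prop}
    (hZ : ∀ X : List (Step d), ∑' y, ⨆ p, ind (p <+: X ∧ Adm p) * a p y ≤ K)
    (hC : ∀ y, ∑' l, ind (D.Exit b y l ∧ ∃ x ∈ sites y l, S x) * wq ω y l ≤ C)
    (X : List (Step d)) : ∑' p, ind (p <+: X) * key_phi D β b ω a Adm S p ≤ K * C := by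
  simp only [key_phi, ← ENNReal.tsum_mul_left, ← mul_assoc, ← ind_and]
  rw [ENNReal.tsum_comm]
  refine le_trans (ENNReal.tsum_le_tsum fun y => ?_)
    (ENNReal.tsum_mul_right.trans_le (mul_le_mul_left (hZ X) C))
  rw [ENNReal.tsum_comm]
  refine le_trans (ENNReal.tsum_le_tsum fun l => ?_)
    (ENNReal.tsum_mul_left.trans_le (mul_le_mul_right (hC y) _))
  simp only [mul_assoc]
  refine tsum_ind_le_of_unique (fun p q hp hq => key_FH_unique hp.1 hq.1 hp.2.2.2.1 hq.2.2.2.1)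
    fun p hp => ?_
  rw [ind_pos ⟨hp.2.2.1, _, hp.2.2.2.1.1, hp.2.2.2.2⟩, one_mul]
  refine mul_le_mul_left (le_iSup_of_le p ?_) _
  rw [ind_pos ⟨hp.1, hp.2.1⟩, one_mul]

lemma key_point (hω : ∀ x, ∑ e, ω x e = 1) (β : List (Step d)) (b : ℝ) (K δ : ℝ≥0∞) (hδ : δ ≠ 0)
    (hδ' : δ ≠ ∞) (a : List (Step d) → Site d → ℝ≥0∞) (Adm F : List (Step d) → Prop)
    (hZ : ∀ X : List (Step d), ∑' y, ⨆ p, ind (p <+: X ∧ Adm p) * a p y ≤ K)
    (hF : ∀ p ρ, Adm p → D.Exit b (disp (β ++ p)) ρ → F (p ++ ρ)) :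
    ∑' p, ∑' y, ∑' l, ind (Adm p ∧ D.Exit b y l ∧ FH (β ++ p) y l) *
        (a p y * (wq ω 0 (β ++ p) * wq ω y l))
      ≤ K * δ * wq ω 0 β + K / δ * ∑' π, ind (F π) * wq ω 0 (β ++ π) := by
  have h1 := (cons_wq hω 0).psum β _ _
    (key_along (D := D) (β := β) (S := fun x => key_r D b ω x < δ) hZ (key_small hω b δ))
  have h2 := key_along (D := D) (β := β) (ω := ω) (S := fun x => δ ≤ key_r D b ω x) (C := 1) hZ
    fun y => le_trans (ENNReal.tsum_le_tsum fun l => mul_le_mul_left (ind_mono And.left) _)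
      (key_r_le hω b y)
  set φ := key_phi D β b ω a Adm fun x => δ ≤ key_r D b ω x with hφ
  have h3 : ∀ p, wq ω 0 (β ++ p) * φ p ≤
      δ⁻¹ * ∑' π, ind (F π) * wq ω 0 (β ++ π) * (ind (p <+: π) * φ p) := by
    intro p
    by_cases hp : Adm p ∧ δ ≤ key_r D b ω (disp (β ++ p))
    · have h4 : wq ω 0 (β ++ p) * φ p * key_r D b ω (disp (β ++ p)) ≤
          ∑' π, ind (F π) * wq ω 0 (β ++ π) * (ind (p <+: π) * φ p) := by
        rw [key_r, ← ENNReal.tsum_mul_left]
        simp only [mul_left_comm _ (ind _)]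
        refine tsum_ind_le_of_injOn (fun ρ => p ++ ρ)
          (fun _ _ _ _ h => List.append_cancel_left h) fun ρ hρ => ?_
        rw [ind_pos (hF p ρ hp.1 hρ), ind_pos (List.prefix_append p ρ), one_mul, one_mul,
          ← List.append_assoc, wq_append _ _ (β ++ p), zero_add, mul_right_comm]
      calc wq ω 0 (β ++ p) * φ p = δ⁻¹ * (wq ω 0 (β ++ p) * φ p * δ) := by
            rw [mul_comm δ⁻¹, mul_assoc _ δ, ENNReal.mul_inv_cancel hδ hδ', mul_one]
        _ ≤ _ := mul_le_mul_right ((mul_le_mul_right hp.2 _).trans h4) _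
    · have h4 : φ p = 0 := by
        simp only [hφ, key_phi, ENNReal.tsum_eq_zero]
        intro y l
        rw [ind_neg fun h => hp ⟨h.1, h.2.2.2⟩, zero_mul]
      simp [h4]
  have h4 : ∑' p, wq ω 0 (β ++ p) * φ p ≤ K / δ * ∑' π, ind (F π) * wq ω 0 (β ++ π) := by
    refine (ENNReal.tsum_le_tsum h3).trans ?_
    rw [ENNReal.tsum_mul_left, ENNReal.tsum_comm, div_eq_mul_inv, mul_comm K, mul_assoc,
      mul_comm K, ← ENNReal.tsum_mul_right]
    refine mul_le_mul_right (ENNReal.tsum_le_tsum fun π => ?_) _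
    rw [ENNReal.tsum_mul_left]
    exact mul_le_mul_right ((h2 π).trans_eq (mul_one K)) _
  refine le_trans ?_ (add_le_add h1 h4)
  rw [← ENNReal.tsum_add]
  refine ENNReal.tsum_le_tsum fun p => ?_
  simp only [hφ, key_phi, ← ENNReal.tsum_mul_left, ← ENNReal.tsum_add]
  refine ENNReal.tsum_le_tsum fun y => ENNReal.tsum_le_tsum fun l => ind_mul_le_of fun h => ?_
  rw [mul_left_comm]
  rcases lt_or_ge (key_r D b ω (disp (β ++ p))) δ with h5 | h5
  · rw [ind_pos ⟨h.1, h.2.1, h.2.2, h5⟩, one_mul]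
    exact le_self_add
  · rw [ind_pos (p := _ ∧ _ ∧ _ ∧ δ ≤ _) ⟨h.1, h.2.1, h.2.2, h5⟩, one_mul]
    exact le_add_self

theorem key (M : Model d Ω) (D : Dir d) (β : List (Step d)) (b : ℝ) (K δ : ℝ≥0∞) (hδ : δ ≠ 0)
    (hδ' : δ ≠ ∞) (a : List (Step d) → Site d → ℝ≥0∞) (Adm F : List (Step d) → Prop)
    (hZ : ∀ X : List (Step d), ∑' y, ⨆ p, ind (p <+: X ∧ Adm p) * a p y ≤ K)
    (hF : ∀ p ρ, Adm p → D.Exit b (disp (β ++ p)) ρ → F (p ++ ρ)) :
    ∑' p, ∑' y, ∑' l, ind (Adm p ∧ D.Exit b y l ∧ FH (β ++ p) y l) *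
        (M.W (β ++ p) * a p y * M.W l)
      ≤ K * δ * M.W β + K / δ * ∑' π, ind (F π) * M.W (β ++ π) := by
  have h1 : ∀ p y l, ind (Adm p ∧ D.Exit b y l ∧ FH (β ++ p) y l) *
      (M.W (β ++ p) * a p y * M.W l) = ∫⁻ η, ind (Adm p ∧ D.Exit b y l ∧ FH (β ++ p) y l) *
        (a p y * (wq (M.ω η) 0 (β ++ p) * wq (M.ω η) y l)) ∂M.P := by
    intro p y l
    by_cases h : Adm p ∧ D.Exit b y l ∧ FH (β ++ p) y l
    · simp only [ind_pos h, one_mul]
      rw [lintegral_const_mul _ ((M.meas_wq 0 _).fun_mul (M.meas_wq y l)), M.hind, mul_right_comm,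
        mul_comm]
      rw [Set.disjoint_left]
      rintro _ ⟨q, h2, h3, rfl⟩
      rw [zero_add]
      exact h.2.2.2 q h2 h3
    · simp [ind_neg h]
  have hm : ∀ p y l, Measurable fun η => ind (Adm p ∧ D.Exit b y l ∧ FH (β ++ p) y l) *
      (a p y * (wq (M.ω η) 0 (β ++ p) * wq (M.ω η) y l)) := fun p y l =>
    (((M.meas_wq 0 _).fun_mul (M.meas_wq y l)).const_mul _).const_mul _
  have hm' : ∀ π, Measurable fun η => ind (F π) * wq (M.ω η) 0 (β ++ π) := fun π =>
    (M.meas_wq 0 _).const_mul _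
  simp only [h1]
  simp only [← lintegral_tsum fun l => (hm _ _ l).aemeasurable]
  simp only [← lintegral_tsum fun y => (Measurable.tsum (hm _ y)).aemeasurable]
  rw [← lintegral_tsum fun p =>
    (Measurable.tsum fun y => Measurable.tsum (hm p y)).aemeasurable]
  refine (lintegral_mono fun η => key_point (M.row η) β b K δ hδ hδ' a Adm F hZ hF).trans_eq ?_
  rw [lintegral_add_left ((M.meas_wq 0 β).const_mul _), lintegral_const_mul _ (M.meas_wq 0 β),
    lintegral_const_mul _ (Measurable.tsum hm'),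
    lintegral_tsum fun π => (hm' π).aemeasurable, M.hW]
  simp only [lintegral_const_mul _ (M.meas_wq 0 _), M.hW]

end Vale.Agent.P147
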