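import Vale.Agent.P147.Iid

/-! Definitions used in the proof of the zero-one law. -/

namespace Vale.Agent.P147

open MeasureTheory Finset
open scoped ENNReal

variable {d : ℕ}

lemma disp_flatten (γs : List (List (Step d))) : disp γs.flatten = (γs.map disp).sum := by
  induction γs with
  | nil => rfl
  | cons γ γs ih => simp [ih]

namespace Dir

variable (D : Dir d)

/-- The last step is the special step, made from a point of maximal level. -/
def Top (l : List (Step d)) : Prop :=
  ∃ l', l = l' ++ [D.e] ∧ ∀ p, p <+: l' → D.lev p ≤ D.lev l'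

/-- Bridges. -/
def Bridge (l : List (Step d)) : Prop := D.Above l ∧ D.Top l

/-- Irreducible bridges. -/
def Irr (l : List (Step d)) : Prop :=
  D.Bridge l ∧ ∀ p q, l = p ++ q → D.Bridge p → D.Above q → q = []

/-- A path from the origin which ends at its first negative level and has reached the level `a`. -/
def FailR (a : ℝ) (l : List (Step d)) : Prop :=
  (∃ b, D.Exit b 0 l) ∧ ∃ p, p <+: l ∧ a ≤ D.lev p

end Dir

/-- The largest coordinate (in absolute value) along a path. -/
def reach (l : List (Step d)) : ℕ :=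
  (range (l.length + 1)).sup fun σ => univ.sup fun k => (disp (l.take σ) k).natAbs

lemma le_reach {p l : List (Step d)} (h : p <+: l) (k : Fin d) : (disp p k).natAbs ≤ reach l := by
  rw [List.prefix_iff_eq_take.1 h]
  refine le_trans ?_ (le_sup (f := fun σ => univ.sup fun k => (disp (l.take σ) k).natAbs)
    (mem_range.2 (Nat.lt_succ_of_le h.length_le)))
  exact le_sup (f := fun k => (disp (l.take p.length) k).natAbs) (mem_univ k)

lemma reach_le {l : List (Step d)} {B : ℕ} (h : ∀ p, p <+: l → ∀ k, (disp p k).natAbs ≤ B) :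
    reach l ≤ B :=
  Finset.sup_le fun σ _ => Finset.sup_le fun k _ => h _ (List.take_prefix σ l) k

/-- The endpoint of `X` is the first point of `X` on the trace of the path `l` started at `y`. -/
def FH (X : List (Step d)) (y : Site d) (l : List (Step d)) : Prop :=
  disp X ∈ sites y l ∧ ∀ p, p <+: X → p ≠ X → disp p ∉ sites y l

/-- The contact event in one window. -/
def Win (D : Dir d) (s a₀ : ℝ) (β g τ ζ : List (Step d)) : Prop :=
  D.lev g + D.lev τ ≤ s ∧ ∃ p l, p <+: g ∧ (∃ p', p' <+: β ++ p ∧ a₀ ≤ D.lev p') ∧ l <+: ζ ∧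
    D.Exit (D.lev β + s) (disp (β ++ g ++ τ)) l ∧ FH (β ++ p) (disp (β ++ g ++ τ)) l

section Entropy

variable {Γ G : Type*} [AddCommGroup G]

/-- Law of the sum of `n` independent steps. -/
noncomputable def law (f : Γ → ℝ≥0∞) (S : Γ → G) (n : ℕ) (y : G) : ℝ≥0∞ :=
  E f n fun l => ind ((l.map S).sum = y)

/-- A discrete version of the positive part of `log₂ (a / b)`. -/
noncomputable def cnt (a b : ℝ≥0∞) : ℝ≥0∞ := ∑' j : ℕ, ind (2 ^ j * b < a)

/-- Entropy of the sum of `n` steps. -/
noncomputable def ent (f : Γ → ℝ≥0∞) (S : Γ → G) (n : ℕ) : ℝ≥0∞ :=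
  ∑' y, law f S n y * cnt 1 (law f S n y)

/-- Information on the first `q` steps carried by the sum of `q + t` steps. -/
noncomputable def info (f : Γ → ℝ≥0∞) (S : Γ → G) (q t : ℕ) : ℝ≥0∞ :=
  E f q fun l => ∑' s, law f S t s * cnt (law f S t s) (law f S (q + t) ((l.map S).sum + s))

end Entropy

namespace Model

variable {Ω : Type} [MeasurableSpace Ω] (M : Model d Ω) (D : Dir d)

/-- The law of the pieces. -/
noncomputable def f (γ : List (Step d)) : ℝ≥0∞ := ind (D.Irr γ) * M.W γ

lemma f_ne_zero {γ : List (Step d)} : M.f D γ ≠ 0 ↔ D.Irr γ := by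
  constructor
  · intro h
    by_contra h'
    exact h (by rw [f, ind_neg h', zero_mul])
  · intro h
    rw [f, ind_pos h, one_mul]
    exact M.W_ne_zero γ

lemma f_of_irr {γ : List (Step d)} (h : D.Irr γ) : M.f D γ = M.W γ := by
  rw [f, ind_pos h, one_mul]

/-- Escape in the direction `D` without backtracking has probability at least `c > 0`. -/
def Good (c : ℝ≥0∞) : Prop := c ≠ 0 ∧ ∀ a, c ≤ M.u D a

/-- Probability of going below the origin after having reached the level `a`. -/
noncomputable def eta (a : ℝ) : ℝ≥0∞ := ∑' l, ind (D.FailR a l) * M.W l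

/-- The localised failure probability. -/
noncomputable def Phi (n : ℕ) (s a₀ : ℝ) : ℝ≥0∞ :=
  ∑' βs : List (List (Step d)), ind (βs.length = n ∧ ∀ γ ∈ βs, D.Irr γ) *
    ∑' π, ind (D.Exit (D.lev βs.flatten + s) 0 (βs.flatten ++ π) ∧
      ∃ p', p' <+: βs.flatten ++ π ∧ a₀ ≤ D.lev p') * M.W (βs.flatten ++ π)

/-- Joint weight of the initial segment `p` of `q` pieces and of the endpoint `y` after `t` more
pieces. -/
noncomputable def A (q t : ℕ) (p : List (Step d)) (y : Site d) : ℝ≥0∞ :=
  E (M.f D) q fun gs => ind (p <+: gs.flatten) * law (M.f D) disp t (y - disp gs.flatten)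

/-- Total mass of the maximal function along the path `X`. -/
noncomputable def Z (q t : ℕ) (X : List (Step d)) : ℝ≥0∞ :=
  ∑' y, ⨆ p, ind (p <+: X) * (M.A D q t p y / M.W p)

lemma u_le_one (a : ℝ) : M.u D a ≤ 1 := by
  have := M.cons.pf [] (D.FP a) fun p q hp hq h => by
    by_contra hne
    exact absurd (hq.2.2 p h hne) (not_lt.2 hp.2.1)
  simpa [M.W_nil, u] using this

variable {M D}

lemma Good.le_one {c : ℝ≥0∞} (h : M.Good D c) : c ≤ 1 := (h.2 0).trans (M.u_le_one D 0)

lemma Good.ne_top {c : ℝ≥0∞} (h : M.Good D c) : c ≠ ∞ :=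
  ne_top_of_le_ne_top ENNReal.one_ne_top h.le_one

end Model

/-- The first `n` steps of a sequence of steps. -/
def pre (s : ℕ → Step d) (n : ℕ) : List (Step d) := (List.range n).map s

/-- Nearest neighbour paths from the origin. -/
def NN (X : ℕ → Site d) : Prop := ∃ s : ℕ → Step d, ∀ n, X n = disp (pre s n)

/-- The cylinder of a finite path. -/
def cyl (l : List (Step d)) : Set (ℕ → Site d) := {X | ∀ i ≤ l.length, X i = disp (l.take i)}

end Vale.Agent.P147
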