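import Vale.Agent.P147.PDefs

/-! Combinatorics of bridges. -/

namespace Vale.Agent.P147

open MeasureTheory ProbabilityTheory Finset Filter
open scoped ENNReal

variable {d : ℕ} {Ω : Type} [MeasurableSpace Ω] {M : Model d Ω} {D : Dir d} {c : ℝ≥0∞}

lemma piece_cases {α : Type*} {p a b : List α} (h : p <+: a ++ b) :
    (p <+: a ∧ p ≠ a) ∨ ∃ r, r <+: b ∧ p = a ++ r := by
  rcases List.prefix_or_prefix_of_prefix h (List.prefix_append a b) with h1 | ⟨r, rfl⟩
  · by_cases h2 : p = a
    · exact Or.inr ⟨[], List.nil_prefix, by simpa using h2⟩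
    · exact Or.inl ⟨h1, h2⟩
  · exact Or.inr ⟨r, (List.prefix_append_right_inj a).1 h, rfl⟩

lemma piece_ne_nil {l : List (Step d)} (h : D.Bridge l) : l ≠ [] := by
  obtain ⟨l', rfl, -⟩ := h.2
  simp

lemma piece_above_append {a b : List (Step d)} (ha : D.Above a) (hb : D.Above b) :
    D.Above (a ++ b) := by
  intro p hp
  rcases piece_cases hp with h | ⟨r, hr, rfl⟩
  · exact ha p h.1
  · rw [D.lev_append]
    exact add_nonneg (ha a List.prefix_rfl) (hb r hr)

lemma piece_above_nil : D.Above [] := fun p hp => by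
  rw [List.prefix_nil.1 hp]
  simp

theorem Dir.Bridge.gap {l p : List (Step d)} (h : D.Bridge l) (hp : p <+: l) (hne : p ≠ l) :
    D.lev p + D.L ≤ D.lev l := by
  obtain ⟨l', rfl, h2⟩ := h.2
  rw [D.lev_append, D.lev_single]
  exact add_le_add_left (h2 p ((List.prefix_concat_iff.1 hp).resolve_left hne)) _

theorem flatten_above {γs : List (List (Step d))} (h : ∀ γ ∈ γs, D.Irr γ) :
    D.Above γs.flatten := by
  induction γs with
  | nil => exact piece_above_nil
  | cons γ γs ih =>
    exact piece_above_append (h γ (by simp)).1.1 (ih fun g hg => h g (by simp [hg]))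

theorem flatten_gap {γs : List (List (Step d))} (h : ∀ γ ∈ γs, D.Irr γ) {p : List (Step d)}
    (hp : p <+: γs.flatten) (hne : p ≠ γs.flatten) : D.lev p + D.L ≤ D.lev γs.flatten := by
  induction γs generalizing p with
  | nil => exact absurd (List.prefix_nil.1 hp) hne
  | cons γ γs ih =>
    have h' : ∀ g ∈ γs, D.Irr g := fun g hg => h g (by simp [hg])
    rw [List.flatten_cons] at hp hne ⊢
    rw [D.lev_append]
    rcases piece_cases hp with h1 | ⟨r, hr, rfl⟩
    · have h2 := (h γ (by simp)).1.gap h1.1 h1.2
      have h3 := flatten_above h' _ List.prefix_rfl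
      linarith
    · have h2 := ih h' hr fun e => hne (by rw [e])
      rw [D.lev_append]
      linarith

theorem flatten_fresh {γs : List (List (Step d))} (h : ∀ γ ∈ γs, D.Irr γ) :
    D.Fresh γs.flatten := fun p hp hne => by
  have := flatten_gap h hp hne
  linarith [D.hL]

theorem flatten_lev_le {γs : List (List (Step d))} (h : ∀ γ ∈ γs, D.Irr γ) {p : List (Step d)}
    (hp : p <+: γs.flatten) : D.lev p ≤ D.lev γs.flatten := by
  by_cases hne : p = γs.flatten
  · rw [hne]
  · exact (flatten_fresh h p hp hne).le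

theorem flatten_lev {γs : List (List (Step d))} (h : ∀ γ ∈ γs, D.Irr γ) :
    γs.length * D.L ≤ D.lev γs.flatten := by
  induction γs with
  | nil => simp
  | cons γ γs ih =>
    have h1 := ih fun g hg => h g (by simp [hg])
    have h2 := (h γ (by simp)).1
    have h3 := h2.gap List.nil_prefix (piece_ne_nil h2).symm
    rw [List.flatten_cons, D.lev_append, List.length_cons]
    rw [D.lev_nil] at h3
    push_cast
    linarith

theorem W_flatten {γs : List (List (Step d))} (h : ∀ γ ∈ γs, D.Irr γ) :
    M.W γs.flatten = (γs.map (M.f D)).prod := by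
  induction γs with
  | nil => simpa using M.W_nil
  | cons γ γs ih =>
    have h' : ∀ g ∈ γs, D.Irr g := fun g hg => h g (by simp [hg])
    have h2 := h γ (by simp)
    rw [List.flatten_cons, M.W_fresh D (fun p hp hne => by
      linarith [h2.1.gap hp hne, D.hL]) (flatten_above h'), ih h', List.map_cons, List.prod_cons,
      M.f_of_irr D h2]

lemma piece_first {g g' a a' : List (Step d)} (h : D.Irr g) (h' : D.Irr g') (ha : D.Above a)
    (ha' : D.Above a') (he : g ++ a = g' ++ a') : g = g' := by
  rcases List.append_eq_append_iff.1 he with ⟨r, rfl, rfl⟩ | ⟨r, rfl, rfl⟩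
  · rw [h'.2 g r rfl h.1 fun p hp => ha p (hp.trans (List.prefix_append _ _)), List.append_nil]
  · rw [h.2 g' r rfl h'.1 fun p hp => ha' p (hp.trans (List.prefix_append _ _)), List.append_nil]

theorem flatten_unique {γs γs' : List (List (Step d))} (h : ∀ γ ∈ γs, D.Irr γ)
    (h' : ∀ γ ∈ γs', D.Irr γ) (hl : γs.length = γs'.length) {q q' : List (Step d)}
    (hq : D.Above q) (hq' : D.Above q') (he : γs.flatten ++ q = γs'.flatten ++ q') :
    γs = γs' := by
  induction γs generalizing γs' with
  | nil => exact (List.length_eq_zero_iff.1 hl.symm).symm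
  | cons γ γs ih =>
    cases γs' with
    | nil => simp at hl
    | cons γ' γs' =>
      have h1 : ∀ g ∈ γs, D.Irr g := fun g hg => h g (by simp [hg])
      have h1' : ∀ g ∈ γs', D.Irr g := fun g hg => h' g (by simp [hg])
      rw [List.flatten_cons, List.flatten_cons, List.append_assoc, List.append_assoc] at he
      obtain rfl := piece_first (h γ (by simp)) (h' γ' (by simp))
        (piece_above_append (flatten_above h1) hq) (piece_above_append (flatten_above h1') hq') he
      rw [ih h1 h1' (by simpa using hl) (List.append_cancel_left he)]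

theorem flatten_inj {γs γs' : List (List (Step d))} (h : ∀ γ ∈ γs, D.Irr γ)
    (h' : ∀ γ ∈ γs', D.Irr γ) (he : γs.flatten = γs'.flatten) : γs = γs' := by
  induction γs generalizing γs' with
  | nil =>
    cases γs' with
    | nil => rfl
    | cons γ' γs' =>
      exact absurd (List.append_eq_nil_iff.1 he.symm).1 (piece_ne_nil (h' γ' (by simp)).1)
  | cons γ γs ih =>
    cases γs' with
    | nil => exact absurd (List.append_eq_nil_iff.1 he).1 (piece_ne_nil (h γ (by simp)).1)
    | cons γ' γs' =>
      have h1 : ∀ g ∈ γs, D.Irr g := fun g hg => h g (by simp [hg])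
      have h1' : ∀ g ∈ γs', D.Irr g := fun g hg => h' g (by simp [hg])
      rw [List.flatten_cons, List.flatten_cons] at he
      obtain rfl := piece_first (h γ (by simp)) (h' γ' (by simp)) (flatten_above h1)
        (flatten_above h1') he
      rw [ih h1 h1' (List.append_cancel_left he)]

lemma piece_top_right {p q : List (Step d)} (h : D.Top (p ++ q)) (hq : q ≠ []) : D.Top q := by
  obtain ⟨l', e, h2⟩ := h
  obtain ⟨q', x, rfl⟩ : ∃ q' x, q = q' ++ [x] :=
    ⟨q.dropLast, q.getLast hq, (List.dropLast_append_getLast hq).symm⟩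
  rw [← List.append_assoc] at e
  obtain ⟨rfl, e2⟩ := List.append_inj' e rfl
  refine ⟨q', by rw [e2], fun r hr => ?_⟩
  have := h2 (p ++ r) ((List.prefix_append_right_inj p).2 hr)
  rw [D.lev_append, D.lev_append] at this
  linarith

theorem exists_flatten {l : List (Step d)} (h : D.Bridge l) :
    ∃ γs : List (List (Step d)), (∀ γ ∈ γs, D.Irr γ) ∧ γs.flatten = l := by
  induction hn : l.length using Nat.strong_induction_on generalizing l with
  | _ n ih =>
    by_cases h1 : D.Irr l
    · exact ⟨[l], by simpa using h1, by simp⟩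
    · have h2 : ¬ ∀ p q, l = p ++ q → D.Bridge p → D.Above q → q = [] := fun h2 => h1 ⟨h, h2⟩
      push Not at h2
      obtain ⟨p, q, rfl, hp, hq, hne⟩ := h2
      have a1 := List.length_pos_iff.2 hne
      have a2 := List.length_pos_iff.2 (piece_ne_nil hp)
      rw [List.length_append] at hn
      obtain ⟨γs, b1, rfl⟩ := ih _ (by omega) hp rfl
      obtain ⟨γs', b2, rfl⟩ := ih _ (by omega) ⟨hq, piece_top_right h.2 hne⟩ rfl
      exact ⟨γs ++ γs', fun g hg => (List.mem_append.1 hg).elim (b1 g) (b2 g), by simp⟩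

theorem irr_single (D : Dir d) : D.Irr [D.e] := by
  refine ⟨⟨fun p hp => ?_, [], rfl, fun p hp => by rw [List.prefix_nil.1 hp]⟩,
    fun p q e hp _ => ?_⟩
  · rcases List.prefix_cons_iff.1 hp with rfl | ⟨t, rfl, ht⟩
    · simp
    · rw [List.prefix_nil.1 ht, D.lev_single]
      exact D.hL.le
  · have a1 := List.length_pos_iff.2 (piece_ne_nil hp)
    have a2 := congrArg List.length e
    rw [List.length_append, List.length_singleton] at a2
    exact List.length_eq_zero_iff.1 (by omega)

theorem irr_pair (D : Dir d) {e : Step d} (he : e ≠ D.e) (h : 0 ≤ D.h (vec e)) :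
    D.Irr [e, D.e] := by
  have h1 : D.lev [e] = D.h (vec e) := by simp [Dir.lev]
  have h2 : ∀ p, p <+: [e] → 0 ≤ D.lev p ∧ D.lev p ≤ D.lev [e] := by
    intro p hp
    rcases List.prefix_cons_iff.1 hp with rfl | ⟨t, rfl, ht⟩
    · rw [h1, D.lev_nil]
      exact ⟨le_rfl, h⟩
    · rw [List.prefix_nil.1 ht, h1]
      exact ⟨h, le_rfl⟩
  refine ⟨⟨piece_above_append (a := [e]) (fun p hp => (h2 p hp).1) (irr_single D).1.1,
    [e], rfl, fun p hp => (h2 p hp).2⟩, fun p q e1 hp _ => ?_⟩
  obtain ⟨l', rfl, -⟩ := hp.2
  cases l' with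
  | nil => exact absurd (List.cons.inj e1).1 he
  | cons a l' =>
    have a2 := congrArg List.length e1
    simp only [List.length_append, List.length_cons, List.length_nil] at a2
    exact List.length_eq_zero_iff.1 (by omega)

end Vale.Agent.P147
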