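import Vale.Agent.P147.Dom
import Vale.Agent.P147.Garsia
import Vale.Agent.P147.Trial

/-! Auxiliary results for the tail of the size of a piece. -/

namespace Vale.Agent.P147

open MeasureTheory ProbabilityTheory Finset Filter
open scoped ENNReal

variable {d : ℕ} {Ω : Type} [MeasurableSpace Ω] {M : Model d Ω} {D : Dir d} {c : ℝ≥0∞}

lemma reach_first {α : Type*} (Q : List α → Prop) (X : List α) (hX : Q X) :
    ∃ δ, δ <+: X ∧ Q δ ∧ ∀ p, p <+: δ → p ≠ δ → ¬Q p := by
  induction h : X.length using Nat.strong_induction_on generalizing X with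
  | _ n ih =>
    by_cases hq : ∀ p, p <+: X → p ≠ X → ¬Q p
    · exact ⟨X, List.prefix_refl X, hX, hq⟩
    · simp only [not_forall, not_not] at hq
      obtain ⟨p, hp, hne, hQ⟩ := hq
      have hl : p.length < n := by
        rw [← h]
        exact lt_of_le_of_ne hp.length_le fun he => hne (hp.eq_of_length he)
      obtain ⟨δ, h1, h2, h3⟩ := ih _ hl p hQ rfl
      exact ⟨δ, h1.trans hp, h2, h3⟩

lemma reach_cnt (r N j₀ : ℕ) (hN : 0 < N) :
    (r : ℝ≥0∞) ≤ N * (j₀ + ∑' j : ℕ, ind ((j₀ + j) * N ≤ r)) := by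
  have h1 : r ≤ N * (j₀ + (r / N + 1 - j₀)) := by
    have := Nat.lt_mul_div_succ r hN
    exact this.le.trans (Nat.mul_le_mul_left _ (by omega))
  have h2 : ((r / N + 1 - j₀ : ℕ) : ℝ≥0∞) ≤ ∑' j : ℕ, ind ((j₀ + j) * N ≤ r) := by
    refine le_trans ?_ (ENNReal.sum_le_tsum (range (r / N + 1 - j₀)))
    rw [sum_congr rfl (g := fun _ => (1 : ℝ≥0∞))]
    · simp
    · intro j hj
      rw [mem_range] at hj
      refine ind_pos ((Nat.le_div_iff_mul_le hN).1 (by omega))
  calc (r : ℝ≥0∞) ≤ ((N * (j₀ + (r / N + 1 - j₀)) : ℕ) : ℝ≥0∞) := by exact_mod_cast h1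
    _ = N * (j₀ + ((r / N + 1 - j₀ : ℕ) : ℝ≥0∞)) := by rw [Nat.cast_mul, Nat.cast_add]
    _ ≤ _ := by gcongr

lemma reach_lower (s : ℕ → ℝ≥0∞) (h0 : ∀ i, s i ≠ 0) (i₀ : ℕ) (b : ℝ≥0∞) (hb : b ≠ 0)
    (h : ∀ i, i₀ ≤ i → b ≤ s i) : ∃ c₁ : ℝ≥0∞, c₁ ≠ 0 ∧ c₁ ≤ 1 ∧ ∀ i, c₁ ≤ s i := by
  induction i₀ generalizing b with
  | zero => exact ⟨min b 1, by simp [hb], min_le_right _ _,
      fun i => (min_le_left _ _).trans (h i (Nat.zero_le _))⟩
  | succ n ih =>
    refine ih (min b (s n)) (by simp [hb, h0]) fun i hi => ?_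
    rcases Nat.eq_or_lt_of_le hi with rfl | hi
    · exact min_le_right _ _
    · exact (min_le_left _ _).trans (h i hi)

lemma reach_nat (y : ℝ≥0∞) (hy : y ≠ ∞) : ∃ a : ℕ, y ≤ a ∧ (a : ℝ≥0∞) ≤ y + 1 := by
  lift y to NNReal using hy
  refine ⟨⌈y⌉₊, ?_, ?_⟩
  · exact_mod_cast Nat.le_ceil y
  · exact_mod_cast (Nat.ceil_lt_add_one (zero_le (a := y))).le

lemma reach_rec (m x : ℕ → ℝ≥0∞) (C K : ℝ≥0∞) (hC : C ≠ ∞) (hK : K ≠ ∞) (h0 : m 0 ≤ 1)
    (hx : ∑' i, x i ≤ K)
    (h : ∀ i : ℕ, m i ≠ ∞ → m (i + 1) + 1 ≤ (m i + 1) * (1 + C * (i * x i + 1))) :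
    ∃ g : ℕ, ∀ n, m n ≤ 2 * 2 ^ (g * n) := by
  have hxi : ∀ i, x i ≠ ∞ := fun i => ne_top_of_le_ne_top hK ((ENNReal.le_tsum i).trans hx)
  set y : ℕ → ℝ≥0∞ := fun i => C * (i * x i + 1) with hy
  have hyt : ∀ i, y i ≠ ∞ := fun i =>
    ENNReal.mul_ne_top hC (ENNReal.add_ne_top.2
      ⟨ENNReal.mul_ne_top (ENNReal.natCast_ne_top i) (hxi i), ENNReal.one_ne_top⟩)
  have h1 : ∀ n, m n + 1 ≤ 2 * ENNReal.ofReal (Real.exp (∑ i ∈ range n, (y i).toReal)) := by
    intro n
    induction n with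
    | zero =>
      simp only [range_zero, sum_empty, Real.exp_zero, ENNReal.ofReal_one, mul_one]
      rw [← one_add_one_eq_two]
      gcongr
    | succ n ih =>
      have hm : m n ≠ ∞ := ne_top_of_le_ne_top
        (ENNReal.mul_ne_top (by simp) ENNReal.ofReal_ne_top) (le_self_add.trans ih)
      have h2 : 1 + y n ≤ ENNReal.ofReal (Real.exp (y n).toReal) := by
        calc 1 + y n = ENNReal.ofReal ((y n).toReal + 1) := by
              rw [ENNReal.ofReal_add ENNReal.toReal_nonneg zero_le_one,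
                ENNReal.ofReal_toReal (hyt n), ENNReal.ofReal_one, add_comm]
          _ ≤ _ := ENNReal.ofReal_le_ofReal (Real.add_one_le_exp _)
      rw [sum_range_succ, Real.exp_add, ENNReal.ofReal_mul (Real.exp_pos _).le, ← mul_assoc]
      exact (h n hm).trans (mul_le_mul' ih h2)
  have hCK : C * (K + 1) ≠ ∞ :=
    ENNReal.mul_ne_top hC (ENNReal.add_ne_top.2 ⟨hK, ENNReal.one_ne_top⟩)
  have h3 : ∀ n, ∑ i ∈ range n, (y i).toReal ≤ n * (C * (K + 1)).toReal := by
    intro n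
    have h4 : ∑ i ∈ range n, y i ≤ n * (C * (K + 1)) := by
      calc ∑ i ∈ range n, y i ≤ ∑ i ∈ range n, C * (n * x i + 1) := by
            refine sum_le_sum fun i hi => ?_
            have : (i : ℝ≥0∞) ≤ n := by exact_mod_cast (mem_range.1 hi).le
            simp only [hy]
            gcongr
        _ = C * (n * ∑ i ∈ range n, x i + n) := by
            rw [← mul_sum, sum_add_distrib, ← mul_sum]; simp
        _ ≤ C * (n * K + n) := by
            have := (ENNReal.sum_le_tsum (f := x) (range n)).trans hx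
            gcongr
        _ = _ := by ring
    rw [← ENNReal.toReal_sum fun i _ => hyt i, ← ENNReal.toReal_natCast n,
      ← ENNReal.toReal_mul]
    exact ENNReal.toReal_mono (ENNReal.mul_ne_top (ENNReal.natCast_ne_top n) hCK) h4
  obtain ⟨g, hg⟩ := exists_nat_ge ((C * (K + 1)).toReal / Real.log 2)
  have hl : 0 < Real.log 2 := Real.log_pos one_lt_two
  rw [div_le_iff₀ hl] at hg
  refine ⟨g, fun n => le_self_add.trans ((h1 n).trans (mul_le_mul_right ?_ _))⟩
  have h5 : Real.exp (∑ i ∈ range n, (y i).toReal) ≤ 2 ^ (g * n) := by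
    calc Real.exp (∑ i ∈ range n, (y i).toReal) ≤ Real.exp ((g * n : ℕ) * Real.log 2) := by
          refine Real.exp_le_exp.2 ((h3 n).trans ?_)
          push_cast
          nlinarith [Nat.cast_nonneg (α := ℝ) n]
      _ = 2 ^ (g * n) := by rw [Real.exp_nat_mul, Real.exp_log two_pos]
  refine (ENNReal.ofReal_le_ofReal h5).trans (le_of_eq ?_)
  rw [ENNReal.ofReal_pow zero_le_two, ENNReal.ofReal_ofNat]

/-- Height classes of pieces. -/
def rCls (D : Dir d) : ℕ → List (Step d) → Prop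
  | 0, γ => γ = [D.e]
  | i + 1, γ => D.lev γ ≤ 2 ^ i * D.L

/-- A weight which dominates the size of the height class. -/
noncomputable def rW (D : Dir d) (γ : List (Step d)) : ℝ≥0∞ :=
  1 + ENNReal.ofReal (2 / D.L) * ENNReal.ofReal (D.lev γ)

lemma rW_ge {i : ℕ} {γ : List (Step d)} (h : ¬rCls D i γ) : 2 ^ i ≤ rW D γ := by
  cases i with
  | zero => rw [pow_zero]; exact le_self_add
  | succ i =>
    have hL := D.hL
    simp only [rCls, not_le] at h
    refine le_trans ?_ le_add_self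
    rw [← ENNReal.ofReal_mul (by positivity), ← ENNReal.ofReal_ofNat 2,
      ← ENNReal.ofReal_pow zero_le_two]
    refine ENNReal.ofReal_le_ofReal ?_
    rw [div_mul_eq_mul_div, le_div_iff₀ hL, pow_succ]
    linarith

lemma rW_sum (hc : M.Good D c) : ∑' γ, M.f D γ * rW D γ ≠ ∞ := by
  have : ∀ γ, M.f D γ * rW D γ =
      M.f D γ + ENNReal.ofReal (2 / D.L) * (M.f D γ * ENNReal.ofReal (D.lev γ)) := by
    intro γ; rw [rW]; ring
  simp only [this]
  rw [ENNReal.tsum_add, ENNReal.tsum_mul_left, f_sum hc]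
  exact ENNReal.add_ne_top.2
    ⟨ENNReal.one_ne_top, ENNReal.mul_ne_top ENNReal.ofReal_ne_top (f_mean hc)⟩

lemma rCls_mono {i j : ℕ} {γ : List (Step d)} (h : rCls D (i + 1) γ) (hij : i < j) :
    rCls D j γ := by
  obtain ⟨k, rfl⟩ := Nat.exists_eq_add_of_lt hij
  have hL := D.hL
  simp only [rCls] at h ⊢
  refine h.trans (mul_le_mul_of_nonneg_right ?_ hL.le)
  exact pow_le_pow_right₀ one_le_two (Nat.le_add_right _ _)

lemma rCls_single (D : Dir d) (i : ℕ) : rCls D i [D.e] := by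
  cases i with
  | zero => rfl
  | succ i =>
    simp only [rCls, Dir.lev_single]
    exact le_mul_of_one_le_left D.hL.le (one_le_pow₀ one_le_two)

/-- With probability bounded below, all of `2 ^ i` pieces are in the class `i`. -/
lemma reach_all (hc : M.Good D c) : ∃ c₁ : ℝ≥0∞, c₁ ≠ 0 ∧ c₁ ≤ 1 ∧
    ∀ i, c₁ ≤ E (M.f D) (2 ^ i) fun l => ind (∀ γ ∈ l, rCls D i γ) := by
  have hf := f_sum hc
  have hL := D.hL
  obtain ⟨B₀, hB⟩ := tail_small (fun γ => M.f D γ * rW D γ) (rW_sum hc) D.lev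
    (ε := 2⁻¹) (by simp)
  obtain ⟨i₀, hi₀⟩ := pow_unbounded_of_one_lt (B₀ / D.L) (one_lt_two (α := ℝ))
  rw [div_lt_iff₀ hL] at hi₀
  refine reach_lower _ (fun i => ?_) (i₀ + 1) 2⁻¹ (by simp) fun i hi => ?_
  · have h1 : E (M.f D) (2 ^ i) (fun l => (l.map fun γ => ind (γ = [D.e])).prod) ≤
        E (M.f D) (2 ^ i) fun l => ind (∀ γ ∈ l, rCls D i γ) := by
      refine E_mono _ _ fun l => ?_
      by_cases h : ∀ γ ∈ l, rCls D i γ
      · rw [ind_pos h]
        refine (List.prod_le_pow_card _ 1 fun x hx => ?_).trans (one_pow _).le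
        obtain ⟨γ, _, rfl⟩ := List.mem_map.1 hx
        exact ind_le_one _
      · simp only [not_forall] at h
        obtain ⟨γ, hγ, hn⟩ := h
        rw [List.prod_eq_zero]
        · exact zero_le
        · refine List.mem_map.2 ⟨γ, hγ, ind_neg ?_⟩
          rintro rfl
          exact hn (rCls_single D i)
    rw [E_prod] at h1
    simp only [mul_comm (M.f D _), tsum_ind_eq] at h1
    exact ne_of_gt (lt_of_lt_of_le (pos_iff_ne_zero.2
      (pow_ne_zero _ ((M.f_ne_zero D).2 (irr_single D)))) h1)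
  · obtain ⟨k, rfl⟩ : ∃ k, i = k + 1 := ⟨i - 1, by omega⟩
    have h1 : E (M.f D) (2 ^ (k + 1)) (fun l => ind (∃ γ ∈ l, ¬rCls D (k + 1) γ)) ≤ 2⁻¹ := by
      refine (E_exists_mem hf _ _).trans (le_trans ?_ (hB (2 ^ k * D.L) ?_))
      · rw [← ENNReal.tsum_mul_left]
        refine ENNReal.tsum_le_tsum fun γ => ?_
        by_cases h : rCls D (k + 1) γ
        · rw [ind_neg (not_not.2 h)]; simp
        · have h2 := rW_ge h
          rw [ind_pos h, ind_pos (le_of_lt (by simpa only [rCls, not_le] using h)), mul_one,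
            one_mul, mul_comm]
          push_cast
          gcongr
      · refine hi₀.le.trans (mul_le_mul_of_nonneg_right ?_ hL.le)
        exact pow_le_pow_right₀ one_le_two (by omega)
    have h2 : (1 : ℝ≥0∞) ≤ E (M.f D) (2 ^ (k + 1)) (fun l => ind (∀ γ ∈ l, rCls D (k + 1) γ)) +
        E (M.f D) (2 ^ (k + 1)) (fun l => ind (∃ γ ∈ l, ¬rCls D (k + 1) γ)) := by
      rw [← E_add, ← E_const hf (2 ^ (k + 1)) 1]
      refine E_mono _ _ fun l => ?_
      rw [← ind_add_not (∀ γ ∈ l, rCls D (k + 1) γ)]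
      exact add_le_add_right (ind_mono fun h => by simpa using h) _
    have h3 := h2.trans (add_le_add_right h1 _)
    rw [← ENNReal.inv_two_add_inv_two] at h3
    exact (ENNReal.add_le_add_iff_right (by simp)).1 h3

end Vale.Agent.P147
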