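import Vale.Agent.P147.Doob
import Vale.Agent.P147.Key

/-! The probability of a first contact in one window. -/

namespace Vale.Agent.P147

open MeasureTheory ProbabilityTheory Finset Filter
open scoped ENNReal

variable {d : ℕ} {Ω : Type} [MeasurableSpace Ω] {M : Model d Ω} {D : Dir d} {c : ℝ≥0∞}

lemma window_split {α : Type*} {r a b : List α} (h : r <+: a ++ b) :
    r <+: a ∨ ∃ r', r' <+: b ∧ r = a ++ r' := by
  rcases List.prefix_or_prefix_of_prefix h (List.prefix_append a b) with h1 | ⟨r', rfl⟩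
  · exact Or.inl h1
  · exact Or.inr ⟨r', (List.prefix_append_right_inj a).1 h, rfl⟩

lemma window_max {α : Type*} {T : List α → Prop} {X p : List α} (hp : p <+: X) (hT : T p) :
    ∃ p', T p' ∧ ∀ r, r <+: X → T r → r <+: p' := by
  obtain ⟨p', h1, h2⟩ := (measure fun r : List α => X.length - r.length).wf.has_min
    {r | r <+: X ∧ T r} ⟨p, hp, hT⟩
  refine ⟨p', h1.2, fun r h3 h4 => List.prefix_of_prefix_length_le h3 h1.1 ?_⟩
  have h5 : ¬ X.length - r.length < X.length - p'.length := h2 r ⟨h3, h4⟩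
  have := h3.length_le
  omega

lemma window_Z_mono (q t : ℕ) {X Y : List (Step d)} (h : X <+: Y) : M.Z D q t X ≤ M.Z D q t Y :=
  ENNReal.tsum_le_tsum fun _ => iSup_mono fun _ =>
    mul_le_mul_left (ind_mono fun h1 => h1.trans h) _

lemma window_main (hc' : M.Good D.neg c) (q t n' : ℕ) (s a₀ : ℝ)
    {K δ : ℝ≥0∞} (hδ : δ ≠ 0) (hδ' : δ ≠ ∞) {βs : List (List (Step d))} (hβ : ∀ γ ∈ βs, D.Irr γ) :
    c * (E (M.f D) q fun gs => E (M.f D) t fun ts => E (M.f D.neg) n' fun ζs =>
        ind (Win D s a₀ βs.flatten gs.flatten ts.flatten ζs.flatten ∧ M.Z D q t gs.flatten ≤ K))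
      ≤ K * δ + K / δ * ((∑' π, ind (D.Exit (D.lev βs.flatten + s) 0 (βs.flatten ++ π) ∧
        ∃ p', p' <+: βs.flatten ++ π ∧ a₀ ≤ D.lev p') * M.W (βs.flatten ++ π)) /
          M.W βs.flatten) := by
  have hab := flatten_above hβ
  have hfr := flatten_fresh hβ
  have hle := fun p => flatten_lev_le hβ (p := p)
  generalize βs.flatten = β at hab hfr hle ⊢
  set Adm : List (Step d) → Prop := fun p => D.Above p ∧ (∀ r, r <+: p → D.lev r ≤ s) ∧
    (∃ p', p' <+: β ++ p ∧ a₀ ≤ D.lev p') ∧ M.Z D q t p ≤ K with hAdm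
  have h1 := key M D β (D.lev β + s) K δ hδ hδ' (fun p y => M.A D q t p (y - disp β) / M.W p) Adm
    (fun π => D.Exit (D.lev β + s) 0 (β ++ π) ∧ ∃ p', p' <+: β ++ π ∧ a₀ ≤ D.lev p') ?_ ?_
  · rw [← mul_div_assoc, ← ENNReal.mul_div_cancel_right (a := K * δ) (M.W_ne_zero β) (M.W_ne_top β),
      ← ENNReal.add_div, ENNReal.le_div_iff_mul_le (Or.inl (M.W_ne_zero β))
        (Or.inl (M.W_ne_top β))]
    refine le_trans ?_ h1
    have h2 : (E (M.f D) q fun gs => E (M.f D) t fun ts => E (M.f D.neg) n' fun ζs =>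
        ind (Win D s a₀ β gs.flatten ts.flatten ζs.flatten ∧ M.Z D q t gs.flatten ≤ K)) ≤
        ∑' p, ∑' y, ∑' l, ind (Adm p ∧ D.Exit (D.lev β + s) y l ∧ FH (β ++ p) y l) *
          (M.A D q t p (y - disp β) * E (M.f D.neg) n' fun ζs => ind (l <+: ζs.flatten)) := by
      simp only [Model.A, law, ← E_mul_right (M.f D), ← E_mul_left (M.f D)]
      simp only [← E_mul_left, ← E_tsum]
      refine E_mono' _ fun gs _ hg => E_mono' _ fun ts _ ht => E_mono _ _ fun ζs => ind_le_of ?_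
      rintro ⟨⟨h3, p, l, h4, h5, h6, h7, h8⟩, h9⟩
      have hg' : ∀ γ ∈ gs, D.Irr γ := fun γ h => (M.f_ne_zero D).1 (hg γ h)
      have h10 := flatten_above (fun γ h => (M.f_ne_zero D).1 (ht γ h)) _ List.prefix_rfl
      refine le_trans ?_ (ENNReal.le_tsum p)
      refine le_trans ?_ (ENNReal.le_tsum (disp (β ++ gs.flatten ++ ts.flatten)))
      refine le_trans ?_ (ENNReal.le_tsum l)
      rw [ind_pos h4, ind_pos h6, ind_pos, ind_pos]
      · simp
      · rw [← disp_flatten, disp_append, disp_append]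
        abel
      · exact ⟨⟨fun r hr => flatten_above hg' r (hr.trans h4), fun r hr => by
          linarith [flatten_lev_le hg' (hr.trans h4)], h5, (window_Z_mono q t h4).trans h9⟩, h7, h8⟩
    refine (mul_le_mul_left (mul_le_mul_right h2 _) _).trans ?_
    simp only [← ENNReal.tsum_mul_left, ← ENNReal.tsum_mul_right]
    refine ENNReal.tsum_le_tsum fun p => ENNReal.tsum_le_tsum fun y =>
      ENNReal.tsum_le_tsum fun l => ?_
    rw [mul_left_comm, mul_assoc]
    refine ind_mul_le_of fun h3 => ?_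
    rw [ind_pos h3, one_mul, M.W_fresh D hfr h3.1.1, mul_assoc (M.W β),
      ENNReal.mul_div_cancel (M.W_ne_zero p) (M.W_ne_top p), mul_left_comm, mul_comm _ (M.W β),
      mul_assoc (M.W β)]
    exact mul_le_mul_right (mul_le_mul_right (dom hc' n' l) _) _
  · intro X
    by_cases h : ∃ p, p <+: X ∧ Adm p
    · obtain ⟨p, h2, h3⟩ := h
      obtain ⟨p', h4, h5⟩ := window_max h2 h3
      refine le_trans ?_ h4.2.2.2
      refine le_trans ?_ ((Equiv.subRight (disp β)).tsum_eq fun y =>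
        ⨆ r, ind (r <+: p') * (M.A D q t r y / M.W r)).le
      exact ENNReal.tsum_le_tsum fun y => iSup_mono fun r =>
        mul_le_mul_left (ind_mono fun (h6 : r <+: X ∧ Adm r) => h5 r h6.1 h6.2) _
    · have : ∀ p, ind (p <+: X ∧ Adm p) = 0 := fun p => ind_neg fun h2 => h ⟨p, h2⟩
      simp [this]
  · rintro p ρ ⟨h2, h3, ⟨p', h4, h5⟩, -⟩ ⟨h6, h7⟩
    have h8 : ∀ r, D.h 0 + D.lev (β ++ (p ++ r)) = D.h (disp (β ++ p)) + D.lev r := fun r => by
      simp [Dir.lev, add_assoc]
    have h9 := h3 [] List.nil_prefix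
    have h10 := hab β List.prefix_rfl
    refine ⟨⟨h8 ρ ▸ h6, fun r hr hne => ?_⟩, p', h4.trans ?_, h5⟩
    · rcases window_split hr with h11 | ⟨r, h11, rfl⟩
      · have := hab r h11
        have := hle r h11
        rw [map_zero, Dir.lev_nil] at *
        constructor <;> linarith
      rcases window_split h11 with h12 | ⟨r, h12, rfl⟩
      · have := h2 r h12
        have := h3 r h12
        rw [map_zero, Dir.lev_append]
        constructor <;> linarith
      · rw [h8]
        exact h7 r h12 fun h13 => hne (by rw [h13])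
    · rw [← List.append_assoc]
      exact List.prefix_append _ _

theorem window (hc : M.Good D c) (hc' : M.Good D.neg c) (n q t n' : ℕ) (s a₀ : ℝ)
    (K δ : ℝ≥0∞) (hK : K ≠ 0) (hK' : K ≠ ∞) (hδ : δ ≠ 0) (hδ' : δ ≠ ∞) :
    E (M.f D) n (fun βs => E (M.f D) q fun gs => E (M.f D) t fun ts => E (M.f D.neg) n' fun ζs =>
        ind (Win D s a₀ βs.flatten gs.flatten ts.flatten ζs.flatten))
      ≤ (2 + 4 * info (M.f D) disp q t) / (c * K) + (K * δ + K / δ * M.Phi D n s a₀) / c := by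
  have hf := f_sum hc
  have h1 : E (M.f D) q (fun gs => ind (K < M.Z D q t gs.flatten)) ≤
      (2 + 4 * info (M.f D) disp q t) / (c * K) := by
    rw [ENNReal.le_div_iff_mul_le (Or.inl (mul_ne_zero hc.1 hK))
      (Or.inl (ENNReal.mul_ne_top hc.ne_top hK')), mul_left_comm, ← E_mul_right]
    exact (mul_le_mul_right (E_mono _ _ fun gs => ind_mul_le_of le_of_lt) _).trans (doob hc q t)
  have h2 : E (M.f D) n (fun βs => E (M.f D) q fun gs => E (M.f D) t fun ts =>
      E (M.f D.neg) n' fun ζs => ind (Win D s a₀ βs.flatten gs.flatten ts.flatten ζs.flatten ∧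
        M.Z D q t gs.flatten ≤ K)) ≤ (K * δ + K / δ * M.Phi D n s a₀) / c := by
    rw [ENNReal.le_div_iff_mul_le (Or.inl hc.1) (Or.inl hc.ne_top), mul_comm, ← E_mul_left]
    refine (E_mono' _ fun βs _ h => window_main hc' q t n' s a₀ hδ hδ'
      fun γ h' => (M.f_ne_zero D).1 (h γ h')).trans ?_
    rw [E_add, E_const hf, E_mul_left, E_eq_tsum, Model.Phi]
    refine add_le_add_right (mul_le_mul_right (ENNReal.tsum_le_tsum fun βs => ?_) _) _
    refine ind_mul_le_of fun h3 => ?_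
    by_cases h4 : ∀ γ ∈ βs, D.Irr γ
    · rw [ind_pos ⟨h3, h4⟩, one_mul, ← W_flatten h4]
      exact ENNReal.mul_div_le
    · obtain ⟨γ, h5, h6⟩ : ∃ γ ∈ βs, ¬ D.Irr γ := by simpa using h4
      rw [List.prod_eq_zero (List.mem_map.2 ⟨γ, h5, not_not.1 (mt (M.f_ne_zero D).1 h6)⟩), zero_mul]
      exact zero_le
  refine le_trans ?_ (add_le_add h1 h2)
  rw [← E_const hf n (E (M.f D) q _), ← E_add]
  refine E_mono _ _ fun βs => ?_
  rw [← E_add]
  refine E_mono _ _ fun gs => ?_
  rw [← E_const hf t (ind _), ← E_add]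
  refine E_mono _ _ fun ts => ?_
  rw [← E_const (f_sum hc') n' (ind _), ← E_add]
  refine E_mono _ _ fun ζs => le_trans (ind_mono fun h => ?_) (ind_or_le _ _)
  exact (lt_or_ge K _).imp_right fun h' => ⟨h, h'⟩

end Vale.Agent.P147
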